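import Mathlib

/-!
# The Banach algebra `ℓ¹(G; K)`
-/

namespace Vale.Agent.H18

open scoped ENNReal

/-- `ℓ¹(G; K)`: absolutely summable functions from `G` to `K`. -/
def L1 (G : Type*) (K : Type*) [NormedAddCommGroup K] : Type _ := lp (fun _ : G => K) 1

section Basic

variable {G : Type*} {K : Type*} [NormedAddCommGroup K]

noncomputable instance : NormedAddCommGroup (L1 G K) :=
  inferInstanceAs (NormedAddCommGroup (lp (fun _ : G => K) 1))

instance [CompleteSpace K] : CompleteSpace (L1 G K) :=
  inferInstanceAs (CompleteSpace (lp (fun _ : G => K) 1))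

/-- the underlying function -/
def L1.toFun (f : L1 G K) : G → K := (show lp (fun _ : G => K) 1 from f).1

instance : CoeFun (L1 G K) (fun _ => G → K) := ⟨L1.toFun⟩

theorem L1.ext {f g : L1 G K} (h : ∀ x, f x = g x) : f = g :=
  lp.ext (funext h)

theorem L1.summable_norm (f : L1 G K) : Summable fun g => ‖f g‖ := by
  have h := lp.memℓp (show lp (fun _ : G => K) 1 from f)
  have := (memℓp_gen_iff (p := 1) (by simp)).1 h
  simp only [ENNReal.toReal_one, Real.rpow_one] at this
  exact this

theorem L1.norm_def (f : L1 G K) : ‖f‖ = ∑' g, ‖f g‖ := by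
  have := lp.norm_eq_tsum_rpow (p := 1) (E := fun _ : G => K) (by simp)
    (show lp (fun _ : G => K) 1 from f)
  simp only [ENNReal.toReal_one, Real.rpow_one, div_one] at this
  exact this

/-- Build an element of `ℓ¹(G; K)` from a function with summable norm. -/
def L1.mk (f : G → K) (h : Summable fun g => ‖f g‖) : L1 G K :=
  (⟨f, by
    refine (memℓp_gen_iff (p := 1) (by simp)).2 ?_
    simpa using h⟩ : lp (fun _ : G => K) 1)

@[simp] theorem L1.mk_apply (f : G → K) (h : Summable fun g => ‖f g‖) (x : G) :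
    (L1.mk f h) x = f x := rfl

@[simp] theorem L1.add_apply (f g : L1 G K) (x : G) : (f + g) x = f x + g x := rfl
@[simp] theorem L1.sub_apply (f g : L1 G K) (x : G) : (f - g) x = f x - g x := rfl
@[simp] theorem L1.neg_apply (f : L1 G K) (x : G) : (-f) x = - f x := rfl
@[simp] theorem L1.zero_apply (x : G) : (0 : L1 G K) x = 0 := rfl

theorem L1.norm_apply_le (f : L1 G K) (x : G) : ‖f x‖ ≤ ‖f‖ := by
  rw [L1.norm_def]
  exact f.summable_norm.le_tsum x (fun _ _ => norm_nonneg _)

theorem L1.summable_prod_norm (f g : L1 G K) :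
    Summable fun p : G × G => ‖f p.1‖ * ‖g p.2‖ :=
  f.summable_norm.mul_of_nonneg g.summable_norm (fun _ => norm_nonneg _) (fun _ => norm_nonneg _)

end Basic

section Mul

variable {G : Type*} [Group G] {K : Type*} [NormedRing K]

/-- the shear `(y, x) ↦ (y, y⁻¹ x)` -/
def shear (G : Type*) [Group G] : G × G ≃ G × G where
  toFun p := (p.1, p.1⁻¹ * p.2)
  invFun p := (p.1, p.1 * p.2)
  left_inv p := by simp
  right_inv p := by simp

theorem L1.summable_conv_norm (f g : L1 G K) :
    Summable fun p : G × G => ‖f p.1‖ * ‖g (p.1⁻¹ * p.2)‖ :=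
  ((shear G).summable_iff (f := fun p : G × G => ‖f p.1‖ * ‖g p.2‖)).2 (f.summable_prod_norm g)

theorem L1.summable_conv_norm' (f g : L1 G K) :
    Summable fun p : G × G => ‖f p.1 * g (p.1⁻¹ * p.2)‖ :=
  (f.summable_conv_norm g).of_nonneg_of_le (fun _ => norm_nonneg _) (fun _ => norm_mul_le _ _)

theorem L1.summable_conv_norm_symm (f g : L1 G K) :
    Summable fun p : G × G => ‖f p.2 * g (p.2⁻¹ * p.1)‖ :=
  (f.summable_conv_norm' g).prod_symm

theorem L1.summable_conv_apply_norm (f g : L1 G K) (x : G) :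
    Summable fun y : G => ‖f y * g (y⁻¹ * x)‖ :=
  (f.summable_conv_norm_symm g).prod_factor x

theorem L1.summable_norm_conv (f g : L1 G K) :
    Summable fun x : G => ‖∑' y, f y * g (y⁻¹ * x)‖ := by
  have h2 := (f.summable_conv_norm_symm g).prod
  refine h2.of_nonneg_of_le (fun _ => norm_nonneg _) (fun x => ?_)
  exact norm_tsum_le_tsum_norm (f.summable_conv_apply_norm g x)

noncomputable instance : Mul (L1 G K) :=
  ⟨fun f g => L1.mk (fun x => ∑' y, f y * g (y⁻¹ * x)) (f.summable_norm_conv g)⟩

theorem L1.mul_apply (f g : L1 G K) (x : G) : (f * g) x = ∑' y, f y * g (y⁻¹ * x) := rfl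

theorem L1.norm_mul_le' (f g : L1 G K) : ‖f * g‖ ≤ ‖f‖ * ‖g‖ := by
  rw [L1.norm_def (f * g)]
  have h := f.summable_conv_norm_symm g
  calc ∑' x, ‖(f * g) x‖ ≤ ∑' x, ∑' y, ‖f y * g (y⁻¹ * x)‖ := by
        refine Summable.tsum_le_tsum (fun x => ?_) (f.summable_norm_conv g) h.prod
        exact norm_tsum_le_tsum_norm (f.summable_conv_apply_norm g x)
    _ = ∑' p : G × G, ‖f p.2 * g (p.2⁻¹ * p.1)‖ := by
        rw [h.tsum_prod]
    _ = ∑' p : G × G, ‖f p.1 * g (p.1⁻¹ * p.2)‖ := by
        rw [← (Equiv.prodComm G G).tsum_eq]; rfl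
    _ ≤ ∑' p : G × G, ‖f p.1‖ * ‖g (p.1⁻¹ * p.2)‖ := by
        refine Summable.tsum_le_tsum (fun p => norm_mul_le _ _) (f.summable_conv_norm' g)
          (f.summable_conv_norm g)
    _ = ∑' p : G × G, ‖f p.1‖ * ‖g p.2‖ := by
        exact (shear G).tsum_eq (fun p : G × G => ‖f p.1‖ * ‖g p.2‖)
    _ = ‖f‖ * ‖g‖ := by
        rw [L1.norm_def f, L1.norm_def g]
        exact (f.summable_norm.tsum_mul_tsum g.summable_norm (f.summable_prod_norm g)).symm

variable [CompleteSpace K]

theorem L1.summable_conv_apply (f g : L1 G K) (x : G) :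
    Summable fun y : G => f y * g (y⁻¹ * x) :=
  (f.summable_conv_apply_norm g x).of_norm

theorem L1.mul_assoc' (f g h : L1 G K) : f * g * h = f * (g * h) := by
  apply L1.ext
  intro x
  rw [L1.mul_apply, L1.mul_apply]
  have key : Summable fun p : G × G => f p.1 * g (p.1⁻¹ * p.2) * h (p.2⁻¹ * x) := by
    apply Summable.of_norm
    refine ((f.summable_conv_norm' g).mul_right ‖h‖).of_nonneg_of_le (fun _ => norm_nonneg _) ?_
    intro p
    calc ‖f p.1 * g (p.1⁻¹ * p.2) * h (p.2⁻¹ * x)‖
        ≤ ‖f p.1 * g (p.1⁻¹ * p.2)‖ * ‖h (p.2⁻¹ * x)‖ := norm_mul_le _ _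
      _ ≤ ‖f p.1 * g (p.1⁻¹ * p.2)‖ * ‖h‖ := by
        gcongr; exact h.norm_apply_le _
  have e1 : ∀ z, (f * g) z * h (z⁻¹ * x) = ∑' y, f y * g (y⁻¹ * z) * h (z⁻¹ * x) := by
    intro z
    rw [L1.mul_apply, (f.summable_conv_apply g z).tsum_mul_right]
  have e2 : ∀ y, f y * (g * h) (y⁻¹ * x) = ∑' z, f y * g (y⁻¹ * z) * h (z⁻¹ * x) := by
    intro y
    rw [L1.mul_apply, ← (g.summable_conv_apply h (y⁻¹ * x)).tsum_mul_left,
      ← (Equiv.mulLeft y⁻¹).tsum_eq]
    refine tsum_congr fun z => ?_
    simp [mul_assoc]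
  simp_rw [e1, e2]
  exact (Summable.tsum_comm key)

open Classical in
/-- the element supported at one point -/
noncomputable def L1.single (x : G) (a : K) : L1 G K :=
  L1.mk (fun y => if y = x then a else 0) (by
    apply summable_of_ne_finset_zero (s := {x})
    intro b hb
    simp at hb
    simp [hb])

open Classical in
omit [CompleteSpace K] in
theorem L1.single_apply (x y : G) (a : K) :
    (L1.single x a) y = if y = x then a else 0 := rfl

omit [CompleteSpace K] in
theorem L1.norm_single (x : G) (a : K) : ‖L1.single x a‖ = ‖a‖ := by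
  classical
  rw [L1.norm_def, tsum_eq_single x]
  · simp [L1.single_apply]
  · intro y hy
    simp [L1.single_apply, hy]

omit [CompleteSpace K] in
theorem L1.single_mul_apply (x : G) (a : K) (f : L1 G K) (y : G) :
    (L1.single x a * f) y = a * f (x⁻¹ * y) := by
  classical
  rw [L1.mul_apply, tsum_eq_single x]
  · simp [L1.single_apply]
  · intro z hz
    simp [L1.single_apply, hz]

omit [CompleteSpace K] in
theorem L1.mul_single_apply (x : G) (a : K) (f : L1 G K) (y : G) :
    (f * L1.single x a) y = f (y * x⁻¹) * a := by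
  classical
  rw [L1.mul_apply, tsum_eq_single (y * x⁻¹)]
  · simp [L1.single_apply]
  · intro z hz
    have : z⁻¹ * y ≠ x := by
      intro h
      apply hz
      rw [← h]; group
    simp [L1.single_apply, this]

noncomputable instance : One (L1 G K) := ⟨L1.single 1 1⟩

omit [CompleteSpace K] in
theorem L1.one_def : (1 : L1 G K) = L1.single 1 1 := rfl

noncomputable instance : NormedRing (L1 G K) :=
  { (inferInstance : NormedAddCommGroup (L1 G K)) with
    mul := (· * ·)
    one := 1
    left_distrib := fun f g h => by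
      apply L1.ext
      intro x
      simp only [L1.mul_apply, L1.add_apply, mul_add]
      exact (f.summable_conv_apply g x).tsum_add (f.summable_conv_apply h x)
    right_distrib := fun f g h => by
      apply L1.ext
      intro x
      simp only [L1.mul_apply, L1.add_apply, add_mul]
      exact (f.summable_conv_apply h x).tsum_add (g.summable_conv_apply h x)
    zero_mul := fun f => by
      apply L1.ext
      intro x
      simp [L1.mul_apply]
    mul_zero := fun f => by
      apply L1.ext
      intro x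
      simp [L1.mul_apply]
    mul_assoc := L1.mul_assoc'
    one_mul := fun f => by
      apply L1.ext
      intro x
      rw [L1.one_def, L1.single_mul_apply]
      simp
    mul_one := fun f => by
      apply L1.ext
      intro x
      rw [L1.one_def, L1.mul_single_apply]
      simp
    norm_mul_le := L1.norm_mul_le' }

end Mul

end Vale.Agent.H18
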