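import Mathlib

/-!
# Newton iteration for almost idempotents and equality of traces of close idempotents
-/

namespace Vale.Agent.H18

section Newton

variable {R : Type*} [Ring R]

/-- the Newton step towards an idempotent -/
def nstep (a : R) : R := 3 * (a * a) - 2 * (a * a * a)

theorem nstep_defect (a : R) :
    nstep a * nstep a - nstep a =
      4 * ((a * a - a) * (a * a - a) * (a * a - a)) - 3 * ((a * a - a) * (a * a - a)) := by
  unfold nstep; noncomm_ring

theorem nstep_sub (a : R) :
    nstep a - a = (a * a - a) - 2 * (a * (a * a - a)) := by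
  unfold nstep; noncomm_ring

/-- a submultiplicative seminorm -/
structure IsSubmul (p : R → ℝ) : Prop where
  nonneg : ∀ x, 0 ≤ p x
  add : ∀ x y, p (x + y) ≤ p x + p y
  neg : ∀ x, p (-x) = p x
  mul : ∀ x y, p (x * y) ≤ p x * p y

theorem IsSubmul.sub {p : R → ℝ} (hp : IsSubmul p) (x y : R) : p (x - y) ≤ p x + p y := by
  rw [sub_eq_add_neg]
  exact (hp.add _ _).trans (by rw [hp.neg])

theorem IsSubmul.two_mul {p : R → ℝ} (hp : IsSubmul p) (x : R) : p (2 * x) ≤ 2 * p x := by
  have : (2 : R) * x = x + x := by noncomm_ring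
  rw [this]
  linarith [hp.add x x]

theorem IsSubmul.three_mul {p : R → ℝ} (hp : IsSubmul p) (x : R) : p (3 * x) ≤ 3 * p x := by
  have : (3 : R) * x = x + x + x := by noncomm_ring
  rw [this]
  linarith [hp.add (x + x) x, hp.add x x]

theorem IsSubmul.four_mul {p : R → ℝ} (hp : IsSubmul p) (x : R) : p (4 * x) ≤ 4 * p x := by
  have : (4 : R) * x = (x + x) + (x + x) := by noncomm_ring
  rw [this]
  linarith [hp.add (x + x) (x + x), hp.add x x]

theorem IsSubmul.defect {p : R → ℝ} (hp : IsSubmul p) (a : R) (h : p (a * a - a) ≤ 1 / 8) :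
    p (nstep a * nstep a - nstep a) ≤ p (a * a - a) / 2 := by
  rw [nstep_defect]
  set x := a * a - a with hx
  have h0 := hp.nonneg x
  have h1 : p (x * x) ≤ p x * p x := hp.mul x x
  have h2 : p (x * x * x) ≤ p x * p x * p x :=
    (hp.mul _ _).trans (mul_le_mul_of_nonneg_right h1 h0)
  have h3 := hp.sub (4 * (x * x * x)) (3 * (x * x))
  have h4 := hp.four_mul (x * x * x)
  have h5 := hp.three_mul (x * x)
  have h6 : p x * p x ≤ p x * (1 / 8) := mul_le_mul_of_nonneg_left h h0
  have h7 : p x * p x * p x ≤ p x * (1 / 8) * (1 / 8) := by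
    apply mul_le_mul h6 h h0
    positivity
  linarith

theorem IsSubmul.step {p : R → ℝ} (hp : IsSubmul p) (a : R) :
    p (nstep a - a) ≤ (2 * p a + 1) * p (a * a - a) := by
  rw [nstep_sub]
  set x := a * a - a with hx
  have h1 := hp.sub x (2 * (a * x))
  have h2 := hp.two_mul (a * x)
  have h3 := hp.mul a x
  nlinarith [h1, h2, h3]

/-- the Newton iterates -/
def niter (a : R) : ℕ → R
  | 0 => a
  | n + 1 => nstep (niter a n)

theorem IsSubmul.niter_bounds {p : R → ℝ} (hp : IsSubmul p) (a : R) (η : ℝ) (hη : η ≤ 1 / 8)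
    (h : p (a * a - a) ≤ η) (n : ℕ) :
    p (niter a n * niter a n - niter a n) ≤ η * (1 / 2) ^ n ∧
    p (niter a n - a) ≤ 4 * (2 * p a + 1) * η * (1 - (1 / 2) ^ n) := by
  have hη0 : 0 ≤ η := (hp.nonneg _).trans h
  induction n with
  | zero =>
    refine ⟨by simpa [niter] using h, ?_⟩
    have : p (0 : R) = 0 := by
      have h1 := hp.mul (0 : R) 0
      have h2 := hp.nonneg (0 : R)
      have h3 := hp.add (0 : R) 0
      have h5 : p (0 : R) ≤ 0 := by
        have h6 := hp.sub (a * a - a) (a * a - a)
        by_contra hc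
        push Not at hc
        have h7 := hp.mul (0 : R) (a * a - a)
        rw [zero_mul] at h7
        have : p (0 : R) * p (a * a - a) ≤ p (0 : R) * (1 / 8) :=
          mul_le_mul_of_nonneg_left (h.trans hη) h2
        linarith
      linarith
    simp [niter, this]
  | succ n ih =>
    obtain ⟨ih1, ih2⟩ := ih
    have hpow : (1 / 2 : ℝ) ^ n ≤ 1 := pow_le_one₀ (by norm_num) (by norm_num)
    have hpow0 : (0 : ℝ) < (1 / 2 : ℝ) ^ n := by positivity
    have hA : 0 ≤ 2 * p a + 1 := by linarith [hp.nonneg a]
    have hx8 : p (niter a n * niter a n - niter a n) ≤ 1 / 8 := by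
      refine ih1.trans ?_
      nlinarith
    have hd := hp.defect (niter a n) hx8
    refine ⟨?_, ?_⟩
    · show p (nstep (niter a n) * nstep (niter a n) - nstep (niter a n)) ≤ _
      rw [pow_succ]
      linarith
    · show p (nstep (niter a n) - a) ≤ _
      have hs := hp.step (niter a n)
      have h1 : p (nstep (niter a n) - a) ≤
          p (nstep (niter a n) - niter a n) + p (niter a n - a) := by
        have := hp.add (nstep (niter a n) - niter a n) (niter a n - a)
        simpa using this
      have h2 : p (niter a n) ≤ p (niter a n - a) + p a := by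
        have := hp.add (niter a n - a) a
        simpa using this
      set A := 2 * p a + 1 with hAdef
      set u := (1 / 2 : ℝ) ^ n with hu
      have h3 : 2 * p (niter a n) + 1 ≤ 2 * A := by
        have h4 : 4 * A * η * (1 - u) ≤ 4 * A * (1 / 8) * 1 := by
          apply mul_le_mul
          · apply mul_le_mul_of_nonneg_left hη; positivity
          · linarith
          · linarith
          · positivity
        linarith
      have h5 : p (nstep (niter a n) - niter a n) ≤ 2 * A * (η * u) := by
        refine hs.trans ?_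
        apply mul_le_mul h3 ih1 (hp.nonneg _)
        positivity
      rw [pow_succ]
      rw [← hu]
      nlinarith [h1, h5, ih2]

theorem IsSubmul.niter_step {p : R → ℝ} (hp : IsSubmul p) (a : R) (η : ℝ) (hη : η ≤ 1 / 8)
    (h : p (a * a - a) ≤ η) (n : ℕ) :
    p (niter a (n + 1) - niter a n) ≤ 2 * (2 * p a + 1) * η * (1 / 2) ^ n := by
  obtain ⟨ih1, ih2⟩ := hp.niter_bounds a η hη h n
  have hη0 : 0 ≤ η := (hp.nonneg _).trans h
  have hpow : (1 / 2 : ℝ) ^ n ≤ 1 := pow_le_one₀ (by norm_num) (by norm_num)
  have hpow0 : (0 : ℝ) < (1 / 2 : ℝ) ^ n := by positivity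
  have hA : 0 ≤ 2 * p a + 1 := by linarith [hp.nonneg a]
  have hs := hp.step (niter a n)
  have h2 : p (niter a n) ≤ p (niter a n - a) + p a := by
    have := hp.add (niter a n - a) a
    simpa using this
  show p (nstep (niter a n) - niter a n) ≤ _
  set A := 2 * p a + 1 with hAdef
  set u := (1 / 2 : ℝ) ^ n with hu
  have h3 : 2 * p (niter a n) + 1 ≤ 2 * A := by
    have h4 : 4 * A * η * (1 - u) ≤ 4 * A * (1 / 8) * 1 := by
      apply mul_le_mul
      · apply mul_le_mul_of_nonneg_left hη; positivity
      · linarith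
      · linarith
      · positivity
    linarith
  have h5 : p (nstep (niter a n) - niter a n) ≤ 2 * A * (η * u) := by
    refine hs.trans ?_
    apply mul_le_mul h3 ih1 (hp.nonneg _)
    positivity
  linarith

end Newton

section Close

variable {B : Type*} [NormedRing B] [CompleteSpace B] {M : Type*}

/-- Two close idempotents of a Banach ring have the same image under each additive trace. -/
theorem trace_eq_of_close (T : B → M) (hT : ∀ x y, T (x * y) = T (y * x)) (e f : B)
    (he : e * e = e) (hf : f * f = f) (hc : ‖e - f‖ * (‖e‖ + ‖f‖) < 1) : T e = T f := by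
  set z := e * f + (1 - e) * (1 - f) with hz
  have hz1 : ‖1 - z‖ < 1 := by
    have : 1 - z = -(e * (f - e) + (e - f) * f) := by
      rw [hz]
      have h1 : e * (f - e) + (e - f) * f = e * f - e * e + (e * f - f * f) := by noncomm_ring
      rw [h1, he, hf]
      noncomm_ring
    rw [this, norm_neg]
    calc ‖e * (f - e) + (e - f) * f‖ ≤ ‖e * (f - e)‖ + ‖(e - f) * f‖ := norm_add_le _ _
      _ ≤ ‖e‖ * ‖f - e‖ + ‖e - f‖ * ‖f‖ := add_le_add (norm_mul_le _ _) (norm_mul_le _ _)
      _ = ‖e - f‖ * (‖e‖ + ‖f‖) := by rw [norm_sub_rev f e]; ring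
      _ < 1 := hc
  have hu : IsUnit z := by
    have := isUnit_one_sub_of_norm_lt_one hz1
    simpa using this
  obtain ⟨u, hu⟩ := hu
  have h1 : e * z = z * f := by
    rw [hz]
    have : e * (e * f + (1 - e) * (1 - f)) - (e * f + (1 - e) * (1 - f)) * f =
        (e * e - e) * f - (e * e - e) * (1 - f) - (e * (f * f - f)) + (1 - e) * (f * f - f) := by
      noncomm_ring
    rw [he, hf] at this
    simp only [sub_self, zero_mul, mul_zero, add_zero] at this
    exact sub_eq_zero.1 this
  have h2 : f = (↑u⁻¹ : B) * (e * ↑u) := by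
    rw [hu, h1, ← hu, ← mul_assoc, Units.inv_mul, one_mul]
  rw [h2, hT, mul_assoc, Units.mul_inv, mul_one]

end Close

end Vale.Agent.H18
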