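import Mathlib
import Vale.Agent.H18.L1Alg
import Vale.Agent.H18.L1Newton

/-!
# Finitely supported elements, weights, traces and the cyclic cochain
-/

set_option linter.unusedSectionVars false

namespace Vale.Agent.H18

open MonoidAlgebra

variable {G : Type*} [Group G] {K : Type*} [NormedRing K]

section Incl

variable [CompleteSpace K]

theorem L1.single_mul_single (x y : G) (a b : K) :
    L1.single x a * L1.single y b = L1.single (x * y) (a * b) := by
  classical
  apply L1.ext
  intro z
  rw [L1.single_mul_apply, L1.single_apply, L1.single_apply]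
  by_cases h : z = x * y
  · subst h; simp
  · have : ¬ (x⁻¹ * z = y) := fun h' => h (by rw [← h']; group)
    simp [h, this]

theorem L1.single_add (x : G) (a b : K) :
    L1.single x (a + b) = L1.single x a + L1.single x b := by
  classical
  apply L1.ext
  intro z
  rw [L1.add_apply, L1.single_apply, L1.single_apply, L1.single_apply]
  by_cases h : z = x <;> simp [h]

theorem L1.single_zero (x : G) : L1.single x (0 : K) = 0 := by
  classical
  apply L1.ext
  intro z
  rw [L1.single_apply]
  simp

/-- coefficients at the identity -/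
noncomputable def L1.singleOne : K →+* L1 G K where
  toFun a := L1.single 1 a
  map_one' := rfl
  map_mul' a b := by rw [L1.single_mul_single, one_mul]
  map_zero' := L1.single_zero 1
  map_add' a b := L1.single_add 1 a b

/-- group elements in `ℓ¹` -/
noncomputable def L1.ofHom : G →* L1 G K where
  toFun x := L1.single x 1
  map_one' := rfl
  map_mul' x y := by rw [L1.single_mul_single, one_mul]

/-- the inclusion of finitely supported elements -/
noncomputable def incl : MonoidAlgebra K G →+* L1 G K :=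
  MonoidAlgebra.liftNCRingHom L1.singleOne L1.ofHom (by
    intro x y
    show L1.single 1 x * L1.single y 1 = L1.single y 1 * L1.single 1 x
    rw [L1.single_mul_single, L1.single_mul_single]; simp)

theorem incl_single (x : G) (a : K) : incl (single x a) = L1.single x a := by
  unfold incl
  rw [MonoidAlgebra.liftNCRingHom_single]
  show L1.single 1 a * L1.single x 1 = L1.single x a
  rw [L1.single_mul_single]; simp

theorem incl_apply (a : MonoidAlgebra K G) (x : G) : (incl a) x = a.coeff x := by
  classical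
  induction a using MonoidAlgebra.induction_linear with
  | zero => simp
  | add f g hf hg => rw [map_add, L1.add_apply, hf, hg]; simp
  | single m r =>
    rw [incl_single, L1.single_apply, coeff_single, Finsupp.single_apply]
    by_cases h : x = m <;> simp [h, eq_comm]

end Incl

section Weight

/-- the weighted `ℓ¹` seminorm on finitely supported elements -/
noncomputable def pw (w : G → ℝ) (a : MonoidAlgebra K G) : ℝ :=
  a.coeff.sum fun g x => w g * ‖x‖

theorem pw_eq_sum (w : G → ℝ) (a : MonoidAlgebra K G) (s : Finset G) (hs : a.coeff.support ⊆ s) :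
    pw w a = ∑ g ∈ s, w g * ‖a.coeff g‖ :=
  Finsupp.sum_of_support_subset _ hs _ (by simp)

theorem pw_nonneg {w : G → ℝ} (hw : ∀ g, 0 ≤ w g) (a : MonoidAlgebra K G) : 0 ≤ pw w a :=
  Finset.sum_nonneg fun _ _ => mul_nonneg (hw _) (norm_nonneg _)

theorem pw_add {w : G → ℝ} (hw : ∀ g, 0 ≤ w g) (a b : MonoidAlgebra K G) :
    pw w (a + b) ≤ pw w a + pw w b := by
  classical
  set s := a.coeff.support ∪ b.coeff.support ∪ (a + b).coeff.support
  rw [pw_eq_sum w a s (by intro x hx; simp [s] at hx ⊢; tauto),
    pw_eq_sum w b s (by intro x hx; simp [s] at hx ⊢; tauto),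
    pw_eq_sum w (a + b) s (by intro x hx; simp [s] at hx ⊢; tauto), ← Finset.sum_add_distrib]
  refine Finset.sum_le_sum fun g _ => ?_
  rw [← mul_add]
  refine mul_le_mul_of_nonneg_left ?_ (hw g)
  simpa using norm_add_le (a.coeff g) (b.coeff g)

theorem pw_zero (w : G → ℝ) : pw w (0 : MonoidAlgebra K G) = 0 := by
  simp [pw]

theorem pw_single (w : G → ℝ) (g : G) (x : K) : pw w (single g x) = w g * ‖x‖ := by
  unfold pw
  rw [coeff_single, Finsupp.sum_single_index]
  simp

theorem pw_sum {w : G → ℝ} (hw : ∀ g, 0 ≤ w g) {ι : Type*} (s : Finset ι)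
    (f : ι → MonoidAlgebra K G) : pw w (∑ i ∈ s, f i) ≤ ∑ i ∈ s, pw w (f i) := by
  classical
  induction s using Finset.induction_on with
  | empty => simp [pw_zero]
  | insert a s ha ih =>
    rw [Finset.sum_insert ha, Finset.sum_insert ha]
    exact (pw_add hw _ _).trans (by linarith)

theorem pw_mul {w : G → ℝ} (hw : ∀ g, 0 ≤ w g) (hww : ∀ g h, w (g * h) ≤ w g * w h)
    (a b : MonoidAlgebra K G) : pw w (a * b) ≤ pw w a * pw w b := by
  rw [MonoidAlgebra.mul_def]
  unfold Finsupp.sum
  refine (pw_sum hw _ _).trans ?_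
  have : pw w a * pw w b = ∑ g ∈ a.coeff.support, ∑ h ∈ b.coeff.support,
      (w g * ‖a.coeff g‖) * (w h * ‖b.coeff h‖) := by
    unfold pw Finsupp.sum
    rw [Finset.sum_mul_sum]
  rw [this]
  refine Finset.sum_le_sum fun g _ => ?_
  refine (pw_sum hw _ _).trans ?_
  refine Finset.sum_le_sum fun h _ => ?_
  rw [pw_single]
  calc w (g * h) * ‖a.coeff g * b.coeff h‖
      ≤ (w g * w h) * (‖a.coeff g‖ * ‖b.coeff h‖) := by
        apply mul_le_mul (hww g h) (norm_mul_le _ _) (norm_nonneg _)
        exact mul_nonneg (hw g) (hw h)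
    _ = (w g * ‖a.coeff g‖) * (w h * ‖b.coeff h‖) := by ring

theorem pw_neg (w : G → ℝ) (a : MonoidAlgebra K G) : pw w (-a) = pw w a := by
  classical
  set s := a.coeff.support ∪ (-a).coeff.support
  rw [pw_eq_sum w a s (by intro x hx; simp [s] at hx ⊢; tauto),
    pw_eq_sum w (-a) s (by intro x hx; simp [s] at hx ⊢; tauto)]
  refine Finset.sum_congr rfl fun g _ => ?_
  have : (-a).coeff g = - a.coeff g := by simp
  rw [this, norm_neg]

theorem pw_isSubmul {w : G → ℝ} (hw : ∀ g, 0 ≤ w g) (hww : ∀ g h, w (g * h) ≤ w g * w h) :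
    IsSubmul (pw w : MonoidAlgebra K G → ℝ) where
  nonneg := pw_nonneg hw
  add := pw_add hw
  neg := pw_neg w
  mul := pw_mul hw hww

theorem pw_add_weight (w₁ w₂ : G → ℝ) (s : ℝ) (a : MonoidAlgebra K G) :
    pw (fun g => w₁ g + s * w₂ g) a = pw w₁ a + s * pw w₂ a := by
  unfold pw Finsupp.sum
  rw [Finset.mul_sum, ← Finset.sum_add_distrib]
  refine Finset.sum_congr rfl fun g _ => ?_
  ring

variable [CompleteSpace K]

theorem norm_incl (a : MonoidAlgebra K G) : ‖incl a‖ = pw (fun _ => 1) a := by
  rw [L1.norm_def, pw_eq_sum _ a a.coeff.support (Finset.Subset.refl _),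
    tsum_eq_sum (s := a.coeff.support)]
  · refine Finset.sum_congr rfl fun g _ => ?_
    rw [incl_apply, one_mul]
  · intro g hg
    rw [incl_apply]
    simpa using hg

theorem exists_incl_close (e : L1 G K) (δ : ℝ) (hδ : 0 < δ) :
    ∃ a : MonoidAlgebra K G, ‖incl a - e‖ < δ ∧ ∀ g, a.coeff g = e g ∨ a.coeff g = 0 := by
  classical
  have hs := e.summable_norm
  have := hs.hasSum
  rw [HasSum] at this
  have h2 := (Metric.tendsto_nhds.1 this) δ hδ
  obtain ⟨s, hs2⟩ := h2.exists
  refine ⟨∑ g ∈ s, single g (e g), ?_, ?_⟩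
  · have hval : ∀ x, (incl (∑ g ∈ s, single g (e g)) - e) x = if x ∈ s then 0 else - e x := by
      intro x
      rw [L1.sub_apply, incl_apply, coeff_sum]
      simp only [coeff_single, Finsupp.finsetSum_apply, Finsupp.single_apply]
      by_cases hx : x ∈ s <;> simp [hx]
    rw [L1.norm_def]
    simp_rw [hval]
    have h3 : ∑' g, ‖e g‖ = ∑ g ∈ s, ‖e g‖ + ∑' g, ‖if g ∈ s then (0 : K) else - e g‖ := by
      rw [← hs.sum_add_tsum_compl (s := s)]
      congr 1
      rw [tsum_subtype (s := ((s : Set G)ᶜ)) (f := fun g => ‖e g‖)]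
      refine tsum_congr fun g => ?_
      by_cases hx : g ∈ s <;> simp [hx]
    rw [Real.dist_eq, h3] at hs2
    have h4 : 0 ≤ ∑' g, ‖if g ∈ s then (0 : K) else - e g‖ := tsum_nonneg fun _ => norm_nonneg _
    have h5 : |∑ g ∈ s, ‖e g‖ - (∑ g ∈ s, ‖e g‖ + ∑' g, ‖if g ∈ s then (0 : K) else - e g‖)| =
        ∑' g, ‖if g ∈ s then (0 : K) else - e g‖ := by
      rw [abs_sub_comm, add_sub_cancel_left, abs_of_nonneg h4]
    rw [h5] at hs2
    exact hs2
  · intro g
    rw [coeff_sum]
    simp only [coeff_single, Finsupp.finsetSum_apply, Finsupp.single_apply]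
    by_cases hx : g ∈ s <;> simp [hx]

end Weight

end Vale.Agent.H18
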