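import Mathlib
import Vale.Agent.H18.L1Fin

/-!
# Traces on `ℓ¹(G; K)` supported on a conjugation invariant set, and the cyclic cochain criterion
-/

set_option linter.unusedSectionVars false

namespace Vale.Agent.H18

open MonoidAlgebra

variable {G : Type*} [Group G] {K : Type*} [NormedRing K] [NormedAlgebra ℂ K]

section Trace

/-- the indicator function with complex values -/
noncomputable def ind {X : Type*} (C : Set X) (x : X) : ℂ := C.indicator (fun _ => 1) x

theorem ind_of_mem {X : Type*} {C : Set X} {x : X} (h : x ∈ C) : ind C x = 1 := by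
  simp [ind, h]

theorem ind_of_notMem {X : Type*} {C : Set X} {x : X} (h : x ∉ C) : ind C x = 0 := by
  simp [ind, h]

theorem norm_ind_mul_le {X : Type*} (C : Set X) (x : X) (z : ℂ) : ‖ind C x * z‖ ≤ ‖z‖ := by
  by_cases h : x ∈ C
  · simp [ind_of_mem h]
  · simp [ind_of_notMem h]

/-- the trace attached to the set `C` -/
noncomputable def L1.tr (t : K →L[ℂ] ℂ) (C : Set G) (f : L1 G K) : ℂ :=
  ∑' g, ind C g * t (f g)

theorem L1.tr_summable_norm (t : K →L[ℂ] ℂ) (C : Set G) (f : L1 G K) :
    Summable fun g => ‖ind C g * t (f g)‖ := by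
  refine (f.summable_norm.mul_left ‖t‖).of_nonneg_of_le (fun _ => norm_nonneg _) fun g => ?_
  exact (norm_ind_mul_le C g _).trans (t.le_opNorm _)

theorem L1.norm_tr_le (t : K →L[ℂ] ℂ) (C : Set G) (f : L1 G K) : ‖L1.tr t C f‖ ≤ ‖t‖ * ‖f‖ := by
  unfold L1.tr
  have h := L1.tr_summable_norm t C f
  rw [L1.norm_def, ← tsum_mul_left]
  refine (norm_tsum_le_tsum_norm h).trans ?_
  refine Summable.tsum_le_tsum (fun g => ?_) h (f.summable_norm.mul_left ‖t‖)
  exact (norm_ind_mul_le C g _).trans (t.le_opNorm _)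

theorem L1.tr_add (t : K →L[ℂ] ℂ) (C : Set G) (f g : L1 G K) :
    L1.tr t C (f + g) = L1.tr t C f + L1.tr t C g := by
  unfold L1.tr
  rw [← Summable.tsum_add (L1.tr_summable_norm t C f).of_norm (L1.tr_summable_norm t C g).of_norm]
  refine tsum_congr fun x => ?_
  simp [mul_add]

/-- the trace as an additive map -/
noncomputable def L1.trHom (t : K →L[ℂ] ℂ) (C : Set G) : L1 G K →+ ℂ :=
  AddMonoidHom.mk' (L1.tr t C) (L1.tr_add t C)

theorem L1.continuous_tr (t : K →L[ℂ] ℂ) (C : Set G) : Continuous (L1.tr (G := G) t C) := by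
  have : Continuous (L1.trHom (G := G) t C) :=
    AddMonoidHomClass.continuous_of_bound (L1.trHom t C) ‖t‖ (L1.norm_tr_le t C)
  exact this

variable [CompleteSpace K]

theorem L1.tr_mul (t : K →L[ℂ] ℂ) (C : Set G) (f g : L1 G K) :
    L1.tr t C (f * g) = ∑' p : G × G, ind C (p.1 * p.2) * t (f p.1 * g p.2) := by
  unfold L1.tr
  have h1 : ∀ x, ind C x * t ((f * g) x) =
      ∑' y, ind C x * t (f y * g (y⁻¹ * x)) := by
    intro x
    rw [L1.mul_apply, t.map_tsum (f.summable_conv_apply g x), tsum_mul_left]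
  simp_rw [h1]
  have hsum : Summable fun p : G × G => ind C p.1 * t (f p.2 * g (p.2⁻¹ * p.1)) := by
    apply Summable.of_norm
    refine ((f.summable_conv_norm_symm g).mul_left ‖t‖).of_nonneg_of_le
      (fun _ => norm_nonneg _) fun p => ?_
    exact (norm_ind_mul_le C _ _).trans (t.le_opNorm _)
  have h2 : ∑' p : G × G, ind C p.1 * t (f p.2 * g (p.2⁻¹ * p.1)) =
      ∑' x, ∑' y, ind C x * t (f y * g (y⁻¹ * x)) := hsum.tsum_prod
  rw [← h2, ← (Equiv.prodComm G G).tsum_eq, ← (shear G).symm.tsum_eq]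
  refine tsum_congr fun p => ?_
  simp [shear]

theorem L1.tr_mul_comm (t : K →L[ℂ] ℂ) (ht : ∀ x y, t (x * y) = t (y * x)) (C : Set G)
    (hC : ∀ x y, x * y ∈ C → y * x ∈ C) (f g : L1 G K) :
    L1.tr t C (f * g) = L1.tr t C (g * f) := by
  rw [L1.tr_mul, L1.tr_mul, ← (Equiv.prodComm G G).tsum_eq]
  refine tsum_congr fun p => ?_
  show ind C (p.2 * p.1) * t (f p.2 * g p.1) = ind C (p.1 * p.2) * t (g p.1 * f p.2)
  by_cases h : p.1 * p.2 ∈ C
  · rw [ind_of_mem h, ind_of_mem (hC _ _ h), ht]
  · rw [ind_of_notMem h, ind_of_notMem (fun h' => h (hC _ _ h'))]; simp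

end Trace

section FinTrace

/-- the trace on finitely supported elements -/
noncomputable def ftr (t : K →L[ℂ] ℂ) (C : Set G) (a : MonoidAlgebra K G) : ℂ :=
  a.coeff.sum fun g x => ind C g * t x

theorem ftr_add (t : K →L[ℂ] ℂ) (C : Set G) (a b : MonoidAlgebra K G) :
    ftr t C (a + b) = ftr t C a + ftr t C b := by
  unfold ftr
  rw [coeff_add, Finsupp.sum_add_index'] <;> intros <;> simp [mul_add]

theorem ftr_single (t : K →L[ℂ] ℂ) (C : Set G) (g : G) (x : K) :
    ftr t C (single g x) = ind C g * t x := by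
  unfold ftr
  rw [coeff_single, Finsupp.sum_single_index (by simp)]

theorem ftr_zero (t : K →L[ℂ] ℂ) (C : Set G) : ftr t C (0 : MonoidAlgebra K G) = 0 := by
  simp [ftr]

theorem tr_incl [CompleteSpace K] (t : K →L[ℂ] ℂ) (C : Set G) (a : MonoidAlgebra K G) :
    L1.tr t C (incl a) = ftr t C a := by
  unfold L1.tr ftr Finsupp.sum
  rw [tsum_eq_sum (s := a.coeff.support)]
  · simp_rw [incl_apply]
  · intro g hg
    rw [incl_apply]
    have : a.coeff g = 0 := by simpa using hg
    simp [this]

/-- the cochain `c` evaluated on two finitely supported elements -/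
noncomputable def cc (t : K →L[ℂ] ℂ) (C : Set G) (c : G → G → ℝ) (a b : MonoidAlgebra K G) : ℂ :=
  a.coeff.sum fun y x => b.coeff.sum fun z u => ind C (y * z) * (c y z * t (x * u))

theorem cc_add_left (t : K →L[ℂ] ℂ) (C : Set G) (c : G → G → ℝ) (a a' b : MonoidAlgebra K G) :
    cc t C c (a + a') b = cc t C c a b + cc t C c a' b := by
  unfold cc
  rw [coeff_add, Finsupp.sum_add_index']
  · intro g; simp
  · intro g x y
    rw [← Finsupp.sum_add]
    refine Finsupp.sum_congr fun z _ => ?_
    rw [add_mul, map_add]; ring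

theorem cc_add_right (t : K →L[ℂ] ℂ) (C : Set G) (c : G → G → ℝ) (a b b' : MonoidAlgebra K G) :
    cc t C c a (b + b') = cc t C c a b + cc t C c a b' := by
  unfold cc
  rw [← Finsupp.sum_add]
  refine Finsupp.sum_congr fun z _ => ?_
  rw [coeff_add, Finsupp.sum_add_index']
  · intro g; simp
  · intro g x y
    rw [mul_add, map_add]; ring

theorem cc_single (t : K →L[ℂ] ℂ) (C : Set G) (c : G → G → ℝ) (y z : G) (x u : K) :
    cc t C c (single y x) (single z u) = ind C (y * z) * (c y z * t (x * u)) := by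
  unfold cc
  rw [coeff_single, Finsupp.sum_single_index, coeff_single, Finsupp.sum_single_index] <;> simp

theorem cc_zero_left (t : K →L[ℂ] ℂ) (C : Set G) (c : G → G → ℝ) (b : MonoidAlgebra K G) :
    cc t C c 0 b = 0 := by simp [cc]

theorem cc_zero_right (t : K →L[ℂ] ℂ) (C : Set G) (c : G → G → ℝ) (a : MonoidAlgebra K G) :
    cc t C c a 0 = 0 := by simp [cc]

/-- the two relations satisfied by a normalised cyclic cochain trivialising the trace -/
structure IsCochain (C : Set G) (c : G → G → ℝ) (κ : ℝ) : Prop where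
  symm : ∀ y z, y * z ∈ C → c y z + c z y = κ
  cocycle : ∀ x y z, x * y * z ∈ C → c (x * y) z - c x (y * z) + c (z * x) y = κ

variable {t : K →L[ℂ] ℂ} {C : Set G} {c : G → G → ℝ} {κ : ℝ}

theorem cc_symm (ht : ∀ x y, t (x * y) = t (y * x)) (hC : ∀ x y, x * y ∈ C → y * x ∈ C)
    (hc : IsCochain C c κ) (a b : MonoidAlgebra K G) :
    cc t C c a b + cc t C c b a = κ * ftr t C (a * b) := by
  induction a using MonoidAlgebra.induction_linear with
  | zero => simp [cc_zero_left, cc_zero_right, ftr_zero]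
  | add f g hf hg =>
    rw [cc_add_left, cc_add_right, add_mul, ftr_add, mul_add, ← hf, ← hg]; ring
  | single y x =>
    induction b using MonoidAlgebra.induction_linear with
    | zero => simp [cc_zero_left, cc_zero_right, ftr_zero]
    | add f g hf hg =>
      rw [cc_add_left, cc_add_right, mul_add, ftr_add, mul_add, ← hf, ← hg]; ring
    | single z u =>
      rw [cc_single, cc_single, single_mul_single, ftr_single]
      by_cases h : y * z ∈ C
      · rw [ind_of_mem h, ind_of_mem (hC _ _ h), ht u x, ← hc.symm y z h]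
        push_cast; ring
      · rw [ind_of_notMem h, ind_of_notMem (fun h' => h (hC _ _ h'))]; ring

theorem cc_cocycle (ht : ∀ x y, t (x * y) = t (y * x)) (hC : ∀ x y, x * y ∈ C → y * x ∈ C)
    (hc : IsCochain C c κ) (a b d : MonoidAlgebra K G) :
    cc t C c (a * b) d - cc t C c a (b * d) + cc t C c (d * a) b = κ * ftr t C (a * b * d) := by
  induction a using MonoidAlgebra.induction_linear with
  | zero => simp [cc_zero_left, ftr_zero]
  | add f g hf hg =>
    have e : cc t C c ((f + g) * b) d - cc t C c (f + g) (b * d) + cc t C c (d * (f + g)) b =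
      (cc t C c (f * b) d - cc t C c f (b * d) + cc t C c (d * f) b) +
      (cc t C c (g * b) d - cc t C c g (b * d) + cc t C c (d * g) b) := by
      rw [add_mul, cc_add_left, cc_add_left, mul_add, cc_add_left]; ring
    rw [e, hf, hg, add_mul, add_mul, ftr_add]; ring
  | single x₁ u₁ =>
    induction b using MonoidAlgebra.induction_linear with
    | zero => simp [cc_zero_left, cc_zero_right, ftr_zero]
    | add f g hf hg =>
      have e : cc t C c (single x₁ u₁ * (f + g)) d - cc t C c (single x₁ u₁) ((f + g) * d) +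
          cc t C c (d * single x₁ u₁) (f + g) =
        (cc t C c (single x₁ u₁ * f) d - cc t C c (single x₁ u₁) (f * d) +
          cc t C c (d * single x₁ u₁) f) +
        (cc t C c (single x₁ u₁ * g) d - cc t C c (single x₁ u₁) (g * d) +
          cc t C c (d * single x₁ u₁) g) := by
        rw [mul_add, cc_add_left, add_mul, cc_add_right, cc_add_right]; ring
      rw [e, hf, hg, mul_add, add_mul, ftr_add]; ring
    | single x₂ u₂ =>
      induction d using MonoidAlgebra.induction_linear with
      | zero => simp [cc_zero_left, cc_zero_right, ftr_zero]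
      | add f g hf hg =>
        have e : cc t C c (single x₁ u₁ * single x₂ u₂) (f + g) -
            cc t C c (single x₁ u₁) (single x₂ u₂ * (f + g)) +
            cc t C c ((f + g) * single x₁ u₁) (single x₂ u₂) =
          (cc t C c (single x₁ u₁ * single x₂ u₂) f -
            cc t C c (single x₁ u₁) (single x₂ u₂ * f) +
            cc t C c (f * single x₁ u₁) (single x₂ u₂)) +
          (cc t C c (single x₁ u₁ * single x₂ u₂) g -
            cc t C c (single x₁ u₁) (single x₂ u₂ * g) +
            cc t C c (g * single x₁ u₁) (single x₂ u₂)) := by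
          rw [mul_add, cc_add_right, cc_add_right, add_mul, cc_add_left]; ring
        rw [e, hf, hg, mul_add, ftr_add]; ring
      | single x₃ u₃ =>
        simp only [single_mul_single, cc_single, ftr_single]
        have h3 : t (u₃ * u₁ * u₂) = t (u₁ * u₂ * u₃) := by
          rw [mul_assoc, ht]
        rw [← mul_assoc u₁ u₂ u₃, h3, ← mul_assoc x₁ x₂ x₃]
        by_cases h : x₁ * x₂ * x₃ ∈ C
        · have h' : x₃ * x₁ * x₂ ∈ C := by
            have := hC _ _ h
            rwa [← mul_assoc] at this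
          rw [ind_of_mem h, ind_of_mem h', ← hc.cocycle _ _ _ h]
          push_cast; ring
        · have h' : x₃ * x₁ * x₂ ∉ C := by
            intro h'
            apply h
            rw [mul_assoc] at h'
            exact hC _ _ h'
          rw [ind_of_notMem h, ind_of_notMem h']; ring

/-- The key identity: for every finitely supported `a`. -/
theorem cc_key (ht : ∀ x y, t (x * y) = t (y * x)) (hC : ∀ x y, x * y ∈ C → y * x ∈ C)
    (hc : IsCochain C c κ) (a : MonoidAlgebra K G) :
    cc t C c a (a * a - a) = κ * (ftr t C (a * a * a) / 3 - ftr t C (a * a) / 2) := by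
  have h1 := cc_cocycle ht hC hc a a a
  have h2 := cc_symm ht hC hc a (a * a)
  have h3 := cc_symm ht hC hc a a
  have h4 : cc t C c a (a * a - a) = cc t C c a (a * a) - cc t C c a a := by
    have := cc_add_right t C c a (a * a - a) a
    rw [sub_add_cancel] at this
    rw [this]; ring
  rw [h4]
  rw [← mul_assoc] at h2
  have h5 : cc t C c (a * a) a = κ * ftr t C (a * a * a) - cc t C c a (a * a) := by
    rw [← h2]; ring
  rw [h5] at h1
  have h6 : cc t C c a (a * a) = κ * ftr t C (a * a * a) / 3 := by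
    have : 3 * cc t C c a (a * a) = κ * ftr t C (a * a * a) := by linear_combination -h1
    rw [← this]; ring
  have h7 : cc t C c a a = κ * ftr t C (a * a) / 2 := by
    rw [← h3]; ring
  rw [h6, h7]; ring

theorem norm_cc_le {ℓ : G → ℝ} (hℓ : ∀ g, 0 ≤ ℓ g)
    (hb : ∀ y z, y * z ∈ C → |c y z| ≤ ℓ y) (a b : MonoidAlgebra K G) :
    ‖cc t C c a b‖ ≤ ‖t‖ * (pw ℓ a * pw (fun _ => 1) b) := by
  unfold cc Finsupp.sum
  have : ‖t‖ * (pw ℓ a * pw (fun _ => 1) b) = ∑ y ∈ a.coeff.support, ∑ z ∈ b.coeff.support,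
      ‖t‖ * ((ℓ y * ‖a.coeff y‖) * (1 * ‖b.coeff z‖)) := by
    unfold pw Finsupp.sum
    rw [Finset.sum_mul_sum, Finset.mul_sum]
    simp_rw [Finset.mul_sum]
  rw [this]
  refine (norm_sum_le _ _).trans (Finset.sum_le_sum fun y _ => ?_)
  refine (norm_sum_le _ _).trans (Finset.sum_le_sum fun z _ => ?_)
  beta_reduce
  by_cases h : y * z ∈ C
  · rw [ind_of_mem h, one_mul, norm_mul]
    have h1 : ‖(c y z : ℂ)‖ ≤ ℓ y := by
      rw [Complex.norm_real]; exact hb y z h
    have h2 : ‖t (a.coeff y * b.coeff z)‖ ≤ ‖t‖ * (‖a.coeff y‖ * ‖b.coeff z‖) :=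
      (t.le_opNorm _).trans (mul_le_mul_of_nonneg_left (norm_mul_le _ _) (norm_nonneg _))
    calc ‖(c y z : ℂ)‖ * ‖t (a.coeff y * b.coeff z)‖
        ≤ ℓ y * (‖t‖ * (‖a.coeff y‖ * ‖b.coeff z‖)) :=
          mul_le_mul h1 h2 (norm_nonneg _) (hℓ y)
      _ = _ := by ring
  · rw [ind_of_notMem h, zero_mul, norm_zero]
    have := hℓ y
    positivity

end FinTrace

end Vale.Agent.H18
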