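import Mathlib
import Vale.Agent.H18.L1Trace

/-!
# The cochain criterion: vanishing of the trace of idempotents
-/

set_option linter.unusedSectionVars false

namespace Vale.Agent.H18

open MonoidAlgebra Filter Topology

variable {G : Type*} [Group G] {K : Type*} [NormedRing K] [NormedAlgebra ℂ K] [CompleteSpace K]

/-- Data produced by the Newton iteration: an idempotent close to a given one which is a limit of
finitely supported elements with controlled weighted norms. -/
theorem exists_newton (ℓ : G → ℝ) (hℓ0 : ∀ g, 0 ≤ ℓ g) (hℓ : ∀ g h, ℓ (g * h) ≤ ℓ g + ℓ h)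
    (e : L1 G K) (he : e * e = e) (ε : ℝ) (hε : 0 < ε) :
    ∃ (a : ℕ → MonoidAlgebra K G) (e' : L1 G K) (B : ℝ),
      e' * e' = e' ∧ ‖e' - e‖ ≤ ε ∧ Tendsto (fun n => incl (a n)) atTop (𝓝 e') ∧
      (∀ n, pw ℓ (a n) ≤ B) ∧
      Tendsto (fun n => pw (fun _ => 1) (a n * a n - a n)) atTop (𝓝 0) := by
  set M : ℝ := ‖e‖ + 1 with hM
  have hM1 : 1 ≤ M := by have := norm_nonneg e; linarith
  -- choose η
  set A : ℝ := 2 * (M + 1) + 1 with hA
  have hApos : 0 < A := by linarith
  set η : ℝ := min (1 / 8) (ε / (8 * A)) with hη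
  have hηpos : 0 < η := lt_min (by norm_num) (by positivity)
  have hη8 : η ≤ 1 / 8 := min_le_left _ _
  have hηε : 4 * A * η ≤ ε / 2 := by
    have : η ≤ ε / (8 * A) := min_le_right _ _
    calc 4 * A * η ≤ 4 * A * (ε / (8 * A)) := by gcongr
      _ = ε / 2 := by field_simp; ring
  set δ : ℝ := min (min 1 (ε / 2)) (η / (2 * (2 * M + 1))) with hδ
  have hδpos : 0 < δ := lt_min (lt_min one_pos (by positivity)) (by positivity)
  have hδ1 : δ ≤ 1 := (min_le_left _ _).trans (min_le_left _ _)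
  have hδε : δ ≤ ε / 2 := (min_le_left _ _).trans (min_le_right _ _)
  have hδη : (2 * M + 1) * δ ≤ η / 2 := by
    have h1 : δ ≤ η / (2 * (2 * M + 1)) := min_le_right _ _
    calc (2 * M + 1) * δ ≤ (2 * M + 1) * (η / (2 * (2 * M + 1))) := by gcongr
      _ = η / 2 := by field_simp
  obtain ⟨a₀, ha₀, -⟩ := exists_incl_close e δ hδpos
  have hb : ‖incl a₀‖ ≤ M := by
    have : ‖incl a₀‖ ≤ ‖incl a₀ - e‖ + ‖e‖ := by
      simpa using norm_add_le (incl a₀ - e) e
    linarith
  have hx : ‖incl (a₀ * a₀ - a₀)‖ ≤ η / 2 := by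
    have h1 : incl (a₀ * a₀ - a₀) =
        incl a₀ * (incl a₀ - e) + (incl a₀ - e) * e - (incl a₀ - e) := by
      rw [map_sub, map_mul]
      have : incl a₀ * (incl a₀ - e) + (incl a₀ - e) * e - (incl a₀ - e) =
        incl a₀ * incl a₀ - incl a₀ - (e * e - e) := by noncomm_ring
      rw [this, he]; simp
    rw [h1]
    calc ‖incl a₀ * (incl a₀ - e) + (incl a₀ - e) * e - (incl a₀ - e)‖
        ≤ ‖incl a₀ * (incl a₀ - e) + (incl a₀ - e) * e‖ + ‖incl a₀ - e‖ := norm_sub_le _ _
      _ ≤ ‖incl a₀ * (incl a₀ - e)‖ + ‖(incl a₀ - e) * e‖ + ‖incl a₀ - e‖ := by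
          gcongr; exact norm_add_le _ _
      _ ≤ ‖incl a₀‖ * ‖incl a₀ - e‖ + ‖incl a₀ - e‖ * ‖e‖ + ‖incl a₀ - e‖ := by
          gcongr <;> exact norm_mul_le _ _
      _ ≤ M * δ + δ * M + δ := by
          have := norm_nonneg e
          gcongr
          linarith
      _ = (2 * M + 1) * δ := by ring
      _ ≤ η / 2 := hδη
  -- choose the scale s
  set Q : ℝ := pw ℓ a₀ + pw ℓ (a₀ * a₀ - a₀) + 1 with hQ
  have hp1 := pw_nonneg hℓ0 a₀
  have hp2 := pw_nonneg hℓ0 (a₀ * a₀ - a₀)
  have hQpos : 0 < Q := by linarith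
  set s : ℝ := min 1 (η / 2) / Q with hs
  have hspos : 0 < s := by
    apply div_pos _ hQpos
    exact lt_min one_pos (by positivity)
  have hsQ : s * Q = min 1 (η / 2) := by rw [hs]; field_simp
  set w : G → ℝ := fun g => 1 + s * ℓ g with hw
  have hw0 : ∀ g, 0 ≤ w g := fun g => by
    have := mul_nonneg hspos.le (hℓ0 g); simp only [hw]; linarith
  have hww : ∀ g h, w (g * h) ≤ w g * w h := fun g h => by
    simp only [hw]
    have h1 := mul_le_mul_of_nonneg_left (hℓ g h) hspos.le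
    have h2 : 0 ≤ (s * ℓ g) * (s * ℓ h) :=
      mul_nonneg (mul_nonneg hspos.le (hℓ0 g)) (mul_nonneg hspos.le (hℓ0 h))
    nlinarith
  have hp := pw_isSubmul (K := K) hw0 hww
  have hpw : ∀ a : MonoidAlgebra K G, pw w a = ‖incl a‖ + s * pw ℓ a := fun a => by
    rw [norm_incl, ← pw_add_weight]
  have hpa : pw w a₀ ≤ M + 1 := by
    rw [hpw]
    have : s * pw ℓ a₀ ≤ s * Q := by gcongr; linarith
    have : s * Q ≤ 1 := hsQ.le.trans (min_le_left _ _)
    linarith
  have hpx : pw w (a₀ * a₀ - a₀) ≤ η := by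
    rw [hpw]
    have : s * pw ℓ (a₀ * a₀ - a₀) ≤ s * Q := by gcongr; linarith
    have : s * Q ≤ η / 2 := hsQ.le.trans (min_le_right _ _)
    linarith
  have hbounds := hp.niter_bounds a₀ η hη8 hpx
  have hstep := hp.niter_step a₀ η hη8 hpx
  have hle : ∀ a : MonoidAlgebra K G, ‖incl a‖ ≤ pw w a := fun a => by
    rw [hpw]
    have := mul_nonneg hspos.le (pw_nonneg hℓ0 a)
    linarith
  have hleℓ : ∀ a : MonoidAlgebra K G, pw ℓ a ≤ pw w a / s := fun a => by
    rw [le_div_iff₀ hspos, hpw]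
    have := norm_nonneg (incl a)
    linarith
  have hdist : ∀ n, pw w (niter a₀ n - a₀) ≤ ε / 2 := fun n => by
    refine (hbounds n).2.trans ?_
    have hpow : (1 / 2 : ℝ) ^ n ≤ 1 := pow_le_one₀ (by norm_num) (by norm_num)
    have hpow0 : (0 : ℝ) < (1 / 2 : ℝ) ^ n := by positivity
    have h1 : 2 * pw w a₀ + 1 ≤ A := by linarith
    have h0 := hp.nonneg a₀
    calc 4 * (2 * pw w a₀ + 1) * η * (1 - (1 / 2) ^ n)
        ≤ 4 * A * η * 1 := by gcongr; linarith
      _ ≤ ε / 2 := by linarith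
  -- Cauchy sequence
  have hcauchy : CauchySeq (fun n => incl (niter a₀ n)) := by
    refine cauchySeq_of_le_geometric (1 / 2) (2 * (2 * pw w a₀ + 1) * η) (by norm_num) fun n => ?_
    rw [dist_comm, dist_eq_norm, ← map_sub]
    exact (hle _).trans (hstep n)
  obtain ⟨e', he'⟩ := cauchySeq_tendsto_of_complete hcauchy
  refine ⟨niter a₀, e', (M + 1 + ε / 2) / s, ?_, ?_, he', ?_, ?_⟩
  · have h1 : Tendsto (fun n => incl (niter a₀ n) * incl (niter a₀ n) - incl (niter a₀ n))
        atTop (𝓝 (e' * e' - e')) := (he'.mul he').sub he'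
    have h2 : Tendsto (fun n => incl (niter a₀ n) * incl (niter a₀ n) - incl (niter a₀ n))
        atTop (𝓝 0) := by
      apply squeeze_zero_norm (a := fun n => η * (1 / 2) ^ n)
      · intro n
        rw [← map_mul, ← map_sub]
        exact (hle _).trans (hbounds n).1
      · have := tendsto_pow_atTop_nhds_zero_of_lt_one (r := (1 / 2 : ℝ)) (by norm_num) (by norm_num)
        simpa using this.const_mul η
    exact sub_eq_zero.1 (tendsto_nhds_unique h1 h2)
  · have h1 : Tendsto (fun n => ‖incl (niter a₀ n) - e‖) atTop (𝓝 ‖e' - e‖) :=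
      (he'.sub_const e).norm
    refine le_of_tendsto h1 (Eventually.of_forall fun n => ?_)
    have : incl (niter a₀ n) - e = incl (niter a₀ n - a₀) + (incl a₀ - e) := by
      rw [map_sub]; abel
    rw [this]
    have h2 := (hle (niter a₀ n - a₀)).trans (hdist n)
    have h3 := norm_add_le (incl (niter a₀ n - a₀)) (incl a₀ - e)
    linarith
  · intro n
    refine (hleℓ _).trans ?_
    gcongr
    have := hp.add (niter a₀ n - a₀) a₀
    rw [sub_add_cancel] at this
    linarith [hdist n]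
  · apply squeeze_zero (g := fun n => η * (1 / 2) ^ n)
    · intro n; exact pw_nonneg (fun _ => zero_le_one) _
    · intro n
      rw [← norm_incl]
      exact (hle _).trans (hbounds n).1
    · have := tendsto_pow_atTop_nhds_zero_of_lt_one (r := (1 / 2 : ℝ)) (by norm_num) (by norm_num)
      simpa using this.const_mul η

/-- **Cochain criterion.** -/
theorem tr_eq_zero_of_cochain (t : K →L[ℂ] ℂ) (ht : ∀ x y, t (x * y) = t (y * x)) (C : Set G)
    (hC : ∀ x y, x * y ∈ C → y * x ∈ C) (c : G → G → ℝ) (κ : ℝ) (hκ : κ ≠ 0)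
    (hc : IsCochain C c κ) (ℓ : G → ℝ) (hℓ0 : ∀ g, 0 ≤ ℓ g) (hℓ : ∀ g h, ℓ (g * h) ≤ ℓ g + ℓ h)
    (hb : ∀ y z, y * z ∈ C → |c y z| ≤ ℓ y) (e : L1 G K) (he : e * e = e) :
    L1.tr t C e = 0 := by
  obtain ⟨a, e', B, he', hclose, hlim, hB, hx⟩ := exists_newton ℓ hℓ0 hℓ e he
    (1 / (2 * (2 * ‖e‖ + 2))) (by positivity)
  have hn := norm_nonneg e
  have heq : L1.tr t C e = L1.tr t C e' := by
    refine trace_eq_of_close (L1.tr t C) (L1.tr_mul_comm t ht C hC) e e' he he' ?_
    have h1 : ‖e - e'‖ ≤ 1 / (2 * (2 * ‖e‖ + 2)) := by rw [norm_sub_rev]; exact hclose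
    have h2 : 1 / (2 * (2 * ‖e‖ + 2)) ≤ 1 := by
      rw [div_le_one (by positivity)]; linarith
    have h3 : ‖e'‖ ≤ ‖e‖ + 1 := by
      have : ‖e'‖ ≤ ‖e' - e‖ + ‖e‖ := by simpa using norm_add_le (e' - e) e
      linarith
    calc ‖e - e'‖ * (‖e‖ + ‖e'‖) ≤ (1 / (2 * (2 * ‖e‖ + 2))) * (‖e‖ + (‖e‖ + 1)) := by
          gcongr
      _ < 1 := by
          rw [div_mul_eq_mul_div, div_lt_one (by positivity)]
          linarith
  rw [heq]
  -- limits
  have hT := L1.continuous_tr (G := G) t C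
  have l3 : Tendsto (fun n => ftr t C (a n * a n * a n)) atTop (𝓝 (L1.tr t C e')) := by
    have : Tendsto (fun n => L1.tr t C (incl (a n) * incl (a n) * incl (a n))) atTop
        (𝓝 (L1.tr t C (e' * e' * e'))) := (hT.tendsto _).comp ((hlim.mul hlim).mul hlim)
    rw [he', he'] at this
    refine this.congr fun n => ?_
    rw [← map_mul, ← map_mul, tr_incl]
  have l2 : Tendsto (fun n => ftr t C (a n * a n)) atTop (𝓝 (L1.tr t C e')) := by
    have : Tendsto (fun n => L1.tr t C (incl (a n) * incl (a n))) atTop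
        (𝓝 (L1.tr t C (e' * e'))) := (hT.tendsto _).comp (hlim.mul hlim)
    rw [he'] at this
    refine this.congr fun n => ?_
    rw [← map_mul, tr_incl]
  have lc : Tendsto (fun n => cc t C c (a n) (a n * a n - a n)) atTop
      (𝓝 (κ * (L1.tr t C e' / 3 - L1.tr t C e' / 2))) := by
    have := ((l3.div_const 3).sub (l2.div_const 2)).const_mul (κ : ℂ)
    refine this.congr fun n => ?_
    rw [cc_key ht hC hc]
  have lz : Tendsto (fun n => cc t C c (a n) (a n * a n - a n)) atTop (𝓝 0) := by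
    apply squeeze_zero_norm
      (a := fun n => ‖t‖ * (B * pw (fun _ => 1) (a n * a n - a n)))
    · intro n
      refine (norm_cc_le hℓ0 hb _ _).trans ?_
      gcongr
      · exact pw_nonneg (fun _ => zero_le_one) _
      · exact hB n
    · simpa using (hx.const_mul B).const_mul ‖t‖
  have huniq := tendsto_nhds_unique lc lz
  have hκ' : (κ : ℂ) ≠ 0 := by exact_mod_cast hκ
  have : L1.tr t C e' / 3 - L1.tr t C e' / 2 = 0 := by
    rcases mul_eq_zero.1 huniq with h | h
    · exact absurd h hκ'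
    · exact h
  linear_combination (-6) * this

end Vale.Agent.H18
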