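import Mathlib
import Vale.Agent.H18.L1Vanish

/-!
# Controlled elements: a homomorphism on the centraliser bounded by a length function
-/

set_option linter.unusedSectionVars false

namespace Vale.Agent.H18

variable {G : Type*} [Group G]

/-- `g` is controlled: there is a real homomorphism on the centraliser of `g`, nonzero at `g`,
which is bounded by a subadditive function on `G`. -/
def Controlled (g : G) : Prop :=
  ∃ ℓ φ : G → ℝ, (∀ x y, ℓ (x * y) ≤ ℓ x + ℓ y) ∧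
    (∀ x y, Commute g x → Commute g y → φ (x * y) = φ x + φ y) ∧
    (∀ x, Commute g x → |φ x| ≤ ℓ x) ∧ φ g ≠ 0

section Construction

variable {ℓ φ : G → ℝ} {g : G}

/-- symmetrised length -/
noncomputable def symlen (ℓ : G → ℝ) (x : G) : ℝ := max (ℓ x) (ℓ x⁻¹)

theorem symlen_mul (h1 : ∀ x y, ℓ (x * y) ≤ ℓ x + ℓ y) (x y : G) :
    symlen ℓ (x * y) ≤ symlen ℓ x + symlen ℓ y := by
  unfold symlen
  apply max_le
  · exact (h1 x y).trans (add_le_add (le_max_left _ _) (le_max_left _ _))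
  · rw [mul_inv_rev]
    have := (h1 y⁻¹ x⁻¹).trans (add_le_add (le_max_right (ℓ y) _) (le_max_right (ℓ x) _))
    linarith

theorem symlen_inv (ℓ : G → ℝ) (x : G) : symlen ℓ x⁻¹ = symlen ℓ x := by
  unfold symlen; rw [inv_inv, max_comm]

theorem symlen_nonneg (h1 : ∀ x y, ℓ (x * y) ≤ ℓ x + ℓ y) (x : G) : 0 ≤ symlen ℓ x := by
  have h2 := symlen_mul h1 x x⁻¹
  have h3 := symlen_mul h1 1 1
  rw [symlen_inv, mul_inv_cancel] at h2
  rw [mul_one] at h3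
  linarith

/-- the candidate functions in the infimum -/
noncomputable def mcs (ℓ φ : G → ℝ) (g : G) (y : G) (z : {z : G // Commute g z}) : ℝ :=
  φ z.1 + symlen ℓ (z.1⁻¹ * y)

/-- McShane type extension of `φ` -/
noncomputable def ext (ℓ φ : G → ℝ) (g : G) (y : G) : ℝ :=
  ⨅ z : {z : G // Commute g z}, mcs ℓ φ g y z

instance : Nonempty {z : G // Commute g z} := ⟨⟨1, Commute.one_right g⟩⟩

theorem mcs_lower (h1 : ∀ x y, ℓ (x * y) ≤ ℓ x + ℓ y) (h3 : ∀ x, Commute g x → |φ x| ≤ ℓ x)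
    (y : G) (z : {z : G // Commute g z}) : - symlen ℓ y ≤ mcs ℓ φ g y z := by
  unfold mcs
  have h4 := symlen_mul h1 y (z.1⁻¹ * y)⁻¹
  rw [symlen_inv] at h4
  have h5 : y * (z.1⁻¹ * y)⁻¹ = z.1 := by group
  rw [h5] at h4
  have h6 := h3 z.1 z.2
  have h7 : ℓ z.1 ≤ symlen ℓ z.1 := le_max_left _ _
  have h8 := neg_abs_le (φ z.1)
  linarith

theorem mcs_bdd (h1 : ∀ x y, ℓ (x * y) ≤ ℓ x + ℓ y) (h3 : ∀ x, Commute g x → |φ x| ≤ ℓ x)
    (y : G) : BddBelow (Set.range (mcs ℓ φ g y)) :=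
  ⟨- symlen ℓ y, by rintro _ ⟨z, rfl⟩; exact mcs_lower h1 h3 y z⟩

theorem ext_mul (h1 : ∀ x y, ℓ (x * y) ≤ ℓ x + ℓ y)
    (h2 : ∀ x y, Commute g x → Commute g y → φ (x * y) = φ x + φ y)
    (h3 : ∀ x, Commute g x → |φ x| ≤ ℓ x) (z : G) (hz : Commute g z) (y : G) :
    ext ℓ φ g (z * y) = φ z + ext ℓ φ g y := by
  unfold ext
  have hle : ∀ (z : G) (hz : Commute g z) (y : G),
      φ z + ⨅ w : {w : G // Commute g w}, mcs ℓ φ g y w ≤
        ⨅ w : {w : G // Commute g w}, mcs ℓ φ g (z * y) w := by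
    intro z hz y
    apply le_ciInf
    intro w
    have hw' : Commute g (z⁻¹ * w.1) := (hz.inv_right).mul_right w.2
    have := ciInf_le (mcs_bdd h1 h3 y) ⟨z⁻¹ * w.1, hw'⟩
    have e1 : mcs ℓ φ g (z * y) w = φ z + mcs ℓ φ g y ⟨z⁻¹ * w.1, hw'⟩ := by
      unfold mcs
      have : φ w.1 = φ z + φ (z⁻¹ * w.1) := by
        rw [← h2 z (z⁻¹ * w.1) hz hw']; congr 1; group
      rw [this]
      simp only
      have e2 : (z⁻¹ * w.1)⁻¹ * y = w.1⁻¹ * (z * y) := by group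
      rw [e2]; ring
    rw [e1]
    linarith
  apply le_antisymm
  · have h := hle z⁻¹ hz.inv_right (z * y)
    rw [inv_mul_cancel_left] at h
    have hφ : φ z⁻¹ = - φ z := by
      have h0 : φ 1 = 0 := by
        have := h2 1 1 (Commute.one_right g) (Commute.one_right g)
        rw [mul_one] at this; linarith
      have := h2 z z⁻¹ hz hz.inv_right
      rw [mul_inv_cancel, h0] at this; linarith
    rw [hφ] at h
    linarith
  · exact hle z hz y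

theorem ext_lip (h1 : ∀ x y, ℓ (x * y) ≤ ℓ x + ℓ y)
    (h3 : ∀ x, Commute g x → |φ x| ≤ ℓ x) (y y' : G) :
    |ext ℓ φ g y - ext ℓ φ g y'| ≤ symlen ℓ (y'⁻¹ * y) := by
  have key : ∀ y y' : G, ext ℓ φ g y ≤ ext ℓ φ g y' + symlen ℓ (y'⁻¹ * y) := by
    intro y y'
    unfold ext
    rw [← sub_le_iff_le_add]
    apply le_ciInf
    intro z
    have h4 := ciInf_le (mcs_bdd h1 h3 y) z
    have h5 : mcs ℓ φ g y z ≤ mcs ℓ φ g y' z + symlen ℓ (y'⁻¹ * y) := by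
      unfold mcs
      have := symlen_mul h1 (z.1⁻¹ * y') (y'⁻¹ * y)
      have e : z.1⁻¹ * y' * (y'⁻¹ * y) = z.1⁻¹ * y := by group
      rw [e] at this
      linarith
    linarith
  rw [abs_le]
  constructor
  · have := key y' y
    have e : symlen ℓ (y⁻¹ * y') = symlen ℓ (y'⁻¹ * y) := by
      rw [← symlen_inv]; congr 1; group
    rw [e] at this
    linarith
  · have := key y y'
    linarith

open Classical in
/-- a conjugator -/
noncomputable def conjr (g x : G) : G := if h : ∃ k, x = k * g * k⁻¹ then h.choose else 1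

theorem conjr_spec {x : G} (h : ∃ k, x = k * g * k⁻¹) : x = conjr g x * g * (conjr g x)⁻¹ := by
  classical
  unfold conjr
  rw [dif_pos h]
  exact h.choose_spec

/-- position of `y` relative to `x` -/
noncomputable def pos (ℓ φ : G → ℝ) (g x y : G) : ℝ :=
  ext ℓ φ g ((conjr g x)⁻¹ * y) - ext ℓ φ g (conjr g x)⁻¹

theorem pos_eq (h1 : ∀ x y, ℓ (x * y) ≤ ℓ x + ℓ y)
    (h2 : ∀ x y, Commute g x → Commute g y → φ (x * y) = φ x + φ y)
    (h3 : ∀ x, Commute g x → |φ x| ≤ ℓ x) (k y : G) :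
    pos ℓ φ g (k * g * k⁻¹) y = ext ℓ φ g (k⁻¹ * y) - ext ℓ φ g k⁻¹ := by
  unfold pos
  have hs := conjr_spec (g := g) (x := k * g * k⁻¹) ⟨k, rfl⟩
  set k' := conjr g (k * g * k⁻¹) with hk'
  have hz : Commute g (k'⁻¹ * k) := by
    show g * (k'⁻¹ * k) = k'⁻¹ * k * g
    have : k'⁻¹ * (k * g * k⁻¹) * k' = g := by rw [hs]; group
    calc g * (k'⁻¹ * k) = k'⁻¹ * (k * g * k⁻¹) * k' * (k'⁻¹ * k) := by rw [this]
      _ = k'⁻¹ * k * g := by group
  have e1 : k'⁻¹ * y = (k'⁻¹ * k) * (k⁻¹ * y) := by group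
  have e2 : k'⁻¹ = (k'⁻¹ * k) * k⁻¹ := by group
  rw [e1, ext_mul h1 h2 h3 _ hz]
  nth_rewrite 2 [e2]
  rw [ext_mul h1 h2 h3 _ hz]
  ring

theorem pos_conj (h1 : ∀ x y, ℓ (x * y) ≤ ℓ x + ℓ y)
    (h2 : ∀ x y, Commute g x → Commute g y → φ (x * y) = φ x + φ y)
    (h3 : ∀ x, Commute g x → |φ x| ≤ ℓ x) {x : G} (hx : ∃ k, x = k * g * k⁻¹) (h y : G) :
    pos ℓ φ g (h * x * h⁻¹) (h * y) = pos ℓ φ g x y - pos ℓ φ g x h⁻¹ := by
  obtain ⟨k, rfl⟩ := hx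
  have e : h * (k * g * k⁻¹) * h⁻¹ = (h * k) * g * (h * k)⁻¹ := by group
  rw [e, pos_eq h1 h2 h3, pos_eq h1 h2 h3, pos_eq h1 h2 h3]
  have e1 : (h * k)⁻¹ * (h * y) = k⁻¹ * y := by group
  have e2 : (h * k)⁻¹ = k⁻¹ * h⁻¹ := by group
  rw [e1, e2]; ring

theorem pos_mul (h1 : ∀ x y, ℓ (x * y) ≤ ℓ x + ℓ y)
    (h2 : ∀ x y, Commute g x → Commute g y → φ (x * y) = φ x + φ y)
    (h3 : ∀ x, Commute g x → |φ x| ≤ ℓ x) {x : G} (hx : ∃ k, x = k * g * k⁻¹) (y : G) :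
    pos ℓ φ g x (x * y) = φ g + pos ℓ φ g x y := by
  obtain ⟨k, rfl⟩ := hx
  rw [pos_eq h1 h2 h3, pos_eq h1 h2 h3]
  have e : k⁻¹ * (k * g * k⁻¹ * y) = g * (k⁻¹ * y) := by group
  rw [e, ext_mul h1 h2 h3 g (Commute.refl g)]
  ring

theorem pos_one (h1 : ∀ x y, ℓ (x * y) ≤ ℓ x + ℓ y)
    (h2 : ∀ x y, Commute g x → Commute g y → φ (x * y) = φ x + φ y)
    (h3 : ∀ x, Commute g x → |φ x| ≤ ℓ x) {x : G} (hx : ∃ k, x = k * g * k⁻¹) :
    pos ℓ φ g x 1 = 0 := by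
  obtain ⟨k, rfl⟩ := hx
  rw [pos_eq h1 h2 h3]
  simp

theorem pos_le (h1 : ∀ x y, ℓ (x * y) ≤ ℓ x + ℓ y)
    (h2 : ∀ x y, Commute g x → Commute g y → φ (x * y) = φ x + φ y)
    (h3 : ∀ x, Commute g x → |φ x| ≤ ℓ x) {x : G} (hx : ∃ k, x = k * g * k⁻¹) (y : G) :
    |pos ℓ φ g x y| ≤ symlen ℓ y := by
  obtain ⟨k, rfl⟩ := hx
  rw [pos_eq h1 h2 h3]
  have := ext_lip h1 h3 (φ := φ) (k⁻¹ * y) k⁻¹
  have e : (k⁻¹)⁻¹ * (k⁻¹ * y) = y := by group
  rwa [e] at this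

/-- the conjugacy class as a set -/
def cls (g : G) : Set G := {x | ∃ k, x = k * g * k⁻¹}

theorem cls_comm (g x y : G) (h : x * y ∈ cls g) : y * x ∈ cls g := by
  obtain ⟨k, hk⟩ := h
  refine ⟨y * k, ?_⟩
  calc y * x = y * (x * y) * y⁻¹ := by group
    _ = y * k * g * (y * k)⁻¹ := by rw [hk]; group

theorem isCochain_of_controlled (h1 : ∀ x y, ℓ (x * y) ≤ ℓ x + ℓ y)
    (h2 : ∀ x y, Commute g x → Commute g y → φ (x * y) = φ x + φ y)
    (h3 : ∀ x, Commute g x → |φ x| ≤ ℓ x) :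
    IsCochain (cls g) (fun y z => pos ℓ φ g (y * z) y) (φ g) where
  symm y z h := by
    have e : z * y = z * (y * z) * z⁻¹ := by group
    have e1 : pos ℓ φ g (z * y) z = pos ℓ φ g (z * (y * z) * z⁻¹) (z * 1) := by
      rw [← e, mul_one]
    rw [e1, pos_conj h1 h2 h3 h, pos_one h1 h2 h3 h]
    have e2 : pos ℓ φ g (y * z) y = φ g + pos ℓ φ g (y * z) z⁻¹ := by
      rw [← pos_mul h1 h2 h3 h]; congr 1; group
    rw [e2]; ring
  cocycle x y z h := by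
    have e : z * x * y = z * (x * y * z) * z⁻¹ := by group
    have e1 : pos ℓ φ g (z * x * y) (z * x) = pos ℓ φ g (z * (x * y * z) * z⁻¹) (z * x) := by
      rw [← e]
    rw [e1, pos_conj h1 h2 h3 h]
    have e2 : pos ℓ φ g (x * y * z) (x * y) = φ g + pos ℓ φ g (x * y * z) z⁻¹ := by
      rw [← pos_mul h1 h2 h3 h]; congr 1; group
    rw [← mul_assoc x y z, e2]; ring

end Construction

variable {K : Type*} [NormedRing K] [NormedAlgebra ℂ K] [CompleteSpace K]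

/-- Vanishing of the trace at the class of a controlled element. -/
theorem tr_eq_zero_of_controlled (t : K →L[ℂ] ℂ) (ht : ∀ x y, t (x * y) = t (y * x)) (g : G)
    (hg : Controlled g) (e : L1 G K) (he : e * e = e) : L1.tr t (cls g) e = 0 := by
  obtain ⟨ℓ, φ, h1, h2, h3, h4⟩ := hg
  refine tr_eq_zero_of_cochain t ht (cls g) (cls_comm g) _ (φ g) h4
    (isCochain_of_controlled h1 h2 h3) (symlen ℓ) (symlen_nonneg h1) (symlen_mul h1) ?_ e he
  intro y z h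
  exact pos_le h1 h2 h3 h y

end Vale.Agent.H18
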