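import Mathlib
import Vale.Agent.H18.L1Controlled

/-!
# Functoriality of `ℓ¹(G; K)` and reduction to finitely generated subgroups
-/

set_option linter.unusedSectionVars false

namespace Vale.Agent.H18

open MonoidAlgebra Filter Topology

section Fiber

variable {H G K : Type*} [NormedAddCommGroup K] [CompleteSpace K]

theorem fiber_summable (f : H → G) (a : L1 H K) :
    Summable fun p : (Σ x : G, {y : H // f y = x}) => ‖a p.2.1‖ := by
  have := (Equiv.sigmaFiberEquiv f).summable_iff (f := fun y => ‖a y‖)
  exact this.2 a.summable_norm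

theorem fiber_summable_apply (f : H → G) (a : L1 H K) (x : G) :
    Summable fun y : {y : H // f y = x} => ‖a y.1‖ :=
  (fiber_summable f a).sigma_factor x

theorem fiber_summable_norm (f : H → G) (a : L1 H K) :
    Summable fun x : G => ‖∑' y : {y : H // f y = x}, a y.1‖ := by
  refine (fiber_summable f a).sigma.of_nonneg_of_le (fun _ => norm_nonneg _) fun x => ?_
  exact norm_tsum_le_tsum_norm (fiber_summable_apply f a x)

/-- push forward of a summable function -/
noncomputable def L1.push (f : H → G) (a : L1 H K) : L1 G K :=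
  L1.mk (fun x => ∑' y : {y : H // f y = x}, a y.1) (fiber_summable_norm f a)

theorem L1.push_apply (f : H → G) (a : L1 H K) (x : G) :
    (L1.push f a) x = ∑' y : {y : H // f y = x}, a y.1 := rfl

theorem L1.norm_push_le (f : H → G) (a : L1 H K) : ‖L1.push f a‖ ≤ ‖a‖ := by
  rw [L1.norm_def, L1.norm_def]
  calc ∑' x, ‖(L1.push f a) x‖ ≤ ∑' x, ∑' y : {y : H // f y = x}, ‖a y.1‖ := by
        refine Summable.tsum_le_tsum (fun x => ?_) (fiber_summable_norm f a)
          (fiber_summable f a).sigma
        exact norm_tsum_le_tsum_norm (fiber_summable_apply f a x)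
    _ = ∑' p : (Σ x : G, {y : H // f y = x}), ‖a p.2.1‖ := (fiber_summable f a).tsum_sigma.symm
    _ = ∑' y, ‖a y‖ := (Equiv.sigmaFiberEquiv f).tsum_eq (fun y => ‖a y‖)

theorem L1.push_add (f : H → G) (a b : L1 H K) :
    L1.push f (a + b) = L1.push f a + L1.push f b := by
  apply L1.ext
  intro x
  rw [L1.add_apply, L1.push_apply, L1.push_apply, L1.push_apply]
  exact (fiber_summable_apply f a x).of_norm.tsum_add (fiber_summable_apply f b x).of_norm

/-- push forward as an additive map -/
noncomputable def L1.pushHom (f : H → G) : L1 H K →+ L1 G K :=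
  AddMonoidHom.mk' (L1.push f) (L1.push_add f)

theorem L1.continuous_push (f : H → G) : Continuous (L1.push (K := K) f) := by
  have : Continuous (L1.pushHom (K := K) f) :=
    AddMonoidHomClass.continuous_of_bound (L1.pushHom f) 1 (fun a => by
      rw [one_mul]; exact L1.norm_push_le f a)
  exact this

end Fiber

section Fiber2

variable {H G K : Type*} [Group H] [Group G] [NormedRing K] [CompleteSpace K]

theorem L1.push_single (f : H → G) (y : H) (k : K) :
    L1.push f (L1.single y k) = L1.single (f y) k := by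
  classical
  apply L1.ext
  intro x
  rw [L1.push_apply, L1.single_apply]
  by_cases h : x = f y
  · subst h
    rw [if_pos rfl, tsum_eq_single (⟨y, rfl⟩ : {y' : H // f y' = f y})]
    · rw [L1.single_apply, if_pos rfl]
    · intro z hz
      rw [L1.single_apply, if_neg]
      intro h2
      apply hz
      exact Subtype.ext h2
  · rw [if_neg h]
    have : ∀ z : {z : H // f z = x}, (L1.single y k : L1 H K) z.1 = 0 := by
      intro z
      rw [L1.single_apply, if_neg]
      intro h2
      exact h (by rw [← z.2, h2])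
    simp [this]

end Fiber2

section Density

variable {G : Type*} [Group G] {K : Type*} [NormedRing K] [CompleteSpace K]

theorem denseRange_incl : DenseRange (incl : MonoidAlgebra K G → L1 G K) := by
  intro e
  rw [Metric.mem_closure_iff]
  intro ε hε
  obtain ⟨a, ha, -⟩ := exists_incl_close e ε hε
  exact ⟨incl a, ⟨a, rfl⟩, by rw [dist_comm, dist_eq_norm]; exact ha⟩

end Density

section Map

variable {H G : Type*} [Group H] [Group G] {K : Type*} [NormedRing K] [CompleteSpace K]

theorem L1.push_incl_mul (f : H →* G) (a b : MonoidAlgebra K H) :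
    L1.push f (incl a * incl b) = L1.push f (incl a) * L1.push f (incl b) := by
  induction a using MonoidAlgebra.induction_linear with
  | zero =>
    have : L1.push f (0 : L1 H K) = 0 := (L1.pushHom f).map_zero
    simp [this]
  | add x y hx hy => rw [map_add, add_mul, L1.push_add, hx, hy, L1.push_add, add_mul]
  | single m r =>
    induction b using MonoidAlgebra.induction_linear with
    | zero =>
      have : L1.push f (0 : L1 H K) = 0 := (L1.pushHom f).map_zero
      simp [this]
    | add x y hx hy => rw [map_add, mul_add, L1.push_add, hx, hy, L1.push_add, mul_add]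
    | single m' r' =>
      rw [incl_single, incl_single, L1.single_mul_single, L1.push_single, L1.push_single,
        L1.push_single, L1.single_mul_single, map_mul]

theorem L1.push_mul (f : H →* G) (a b : L1 H K) :
    L1.push f (a * b) = L1.push f a * L1.push f b := by
  have hc := L1.continuous_push (K := K) f
  refine DenseRange.induction_on₂ (e := (incl : MonoidAlgebra K H → L1 H K)) denseRange_incl ?_ ?_ a b
  · apply isClosed_eq
    · exact hc.comp (continuous_fst.mul continuous_snd)
    · exact (hc.comp continuous_fst).mul (hc.comp continuous_snd)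
  · intro a b
    exact L1.push_incl_mul f a b

variable [NormedAlgebra ℂ K]

theorem L1.tr_push (t : K →L[ℂ] ℂ) (f : H →* G) (C : Set G) (a : L1 H K) :
    L1.tr t C (L1.push f a) = L1.tr t (f ⁻¹' C) a := by
  unfold L1.tr
  have h1 : ∀ x, ind C x * t ((L1.push f a) x) =
      ∑' y : {y : H // f y = x}, ind (f ⁻¹' C) y.1 * t (a y.1) := by
    intro x
    rw [L1.push_apply, t.map_tsum (fiber_summable_apply f a x).of_norm, ← tsum_mul_left]
    refine tsum_congr fun y => ?_
    have : ind C x = ind (f ⁻¹' C) y.1 := by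
      by_cases h : x ∈ C
      · rw [ind_of_mem h, ind_of_mem]
        show f y.1 ∈ C
        rw [y.2]; exact h
      · rw [ind_of_notMem h, ind_of_notMem]
        intro h'
        apply h
        have : f y.1 ∈ C := h'
        rwa [y.2] at this
    rw [this]
  simp_rw [h1]
  have hs : Summable fun p : (Σ x : G, {y : H // f y = x}) =>
      ind (f ⁻¹' C) p.2.1 * t (a p.2.1) := by
    have := (Equiv.sigmaFiberEquiv f).summable_iff (f := fun y => ind (f ⁻¹' C) y * t (a y))
    exact this.2 (L1.tr_summable_norm t _ a).of_norm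
  rw [← hs.tsum_sigma]
  exact (Equiv.sigmaFiberEquiv f).tsum_eq (fun y => ind (f ⁻¹' C) y * t (a y))

/-- the trace over a union of classes is the sum of the traces over the classes -/
theorem L1.tr_eq_zero_of_classes (t : K →L[ℂ] ℂ) (D : Set H)
    (hD : ∀ x ∈ D, ∀ k : H, k * x * k⁻¹ ∈ D) (a : L1 H K)
    (h : ∀ x ∈ D, L1.tr t (cls x) a = 0) : L1.tr t D a = 0 := by
  unfold L1.tr
  have hs : Summable fun p : (Σ C : ConjClasses H, {y : H // ConjClasses.mk y = C}) =>
      ind D p.2.1 * t (a p.2.1) := by
    have := (Equiv.sigmaFiberEquiv (ConjClasses.mk (α := H))).summable_iff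
      (f := fun y => ind D y * t (a y))
    exact this.2 (L1.tr_summable_norm t _ a).of_norm
  have h1 : ∑' y, ind D y * t (a y) =
      ∑' p : (Σ C : ConjClasses H, {y : H // ConjClasses.mk y = C}),
        ind D p.2.1 * t (a p.2.1) :=
    ((Equiv.sigmaFiberEquiv (ConjClasses.mk (α := H))).tsum_eq
      (fun y => ind D y * t (a y))).symm
  rw [h1, hs.tsum_sigma]
  have h2 : ∀ C : ConjClasses H, ∑' y : {y : H // ConjClasses.mk y = C},
      ind D y.1 * t (a y.1) = 0 := by
    intro C
    obtain ⟨x, rfl⟩ := ConjClasses.exists_rep C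
    have hset : ∀ y : H, ConjClasses.mk y = ConjClasses.mk x ↔ y ∈ cls x := by
      intro y
      simp only [cls, Set.mem_ofPred_eq, ConjClasses.mk_eq_mk_iff_isConj, isConj_iff]
      constructor
      · rintro ⟨k, hk⟩
        exact ⟨k⁻¹, by rw [← hk]; group⟩
      · rintro ⟨k, rfl⟩
        exact ⟨k⁻¹, by group⟩
    by_cases hx : x ∈ D
    · have h3 := h x hx
      unfold L1.tr at h3
      have h4 : ∑' y : H, ind (cls x) y * t (a y) =
          ∑' y : {y : H // ConjClasses.mk y = ConjClasses.mk x}, t (a y.1) := by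
        have := tsum_subtype (s := {y : H | ConjClasses.mk y = ConjClasses.mk x})
          (f := fun y => t (a y))
        refine Eq.trans ?_ this.symm
        refine tsum_congr fun y => ?_
        by_cases hy : y ∈ {y : H | ConjClasses.mk y = ConjClasses.mk x}
        · rw [Set.indicator_of_mem hy, ind_of_mem ((hset y).1 hy), one_mul]
        · rw [Set.indicator_of_notMem hy, ind_of_notMem (fun h' => hy ((hset y).2 h')), zero_mul]
      rw [h4] at h3
      rw [← h3]
      refine tsum_congr fun y => ?_
      have hy : y.1 ∈ D := by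
        obtain ⟨k, hk⟩ := (hset y.1).1 y.2
        rw [hk]; exact hD x hx k
      rw [ind_of_mem hy, one_mul]
    · have : ∀ y : {y : H // ConjClasses.mk y = ConjClasses.mk x}, ind D y.1 * t (a y.1) = 0 := by
        intro y
        have hy : y.1 ∉ D := by
          intro hy
          apply hx
          obtain ⟨k, hk⟩ := (hset y.1).1 y.2
          have := hD y.1 hy k⁻¹
          rw [hk] at this
          have e : k⁻¹ * (k * x * k⁻¹) * k⁻¹⁻¹ = x := by group
          rwa [e] at this
        rw [ind_of_notMem hy, zero_mul]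
      simp [this]
  simp [h2]

end Map

section NearIdem

variable {B : Type*} [NormedRing B] [CompleteSpace B]

theorem norm_isSubmul : IsSubmul (fun x : B => ‖x‖) where
  nonneg := norm_nonneg
  add := norm_add_le
  neg := norm_neg
  mul := norm_mul_le

theorem exists_idem_near (b : B) (η : ℝ) (hη : η ≤ 1 / 8) (h : ‖b * b - b‖ ≤ η) :
    ∃ e' : B, e' * e' = e' ∧ ‖e' - b‖ ≤ 4 * (2 * ‖b‖ + 1) * η := by
  have hp := norm_isSubmul (B := B)
  have hη0 : 0 ≤ η := (norm_nonneg _).trans h
  have hbounds := hp.niter_bounds b η hη h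
  have hstep := hp.niter_step b η hη h
  have hcauchy : CauchySeq (fun n => niter b n) := by
    refine cauchySeq_of_le_geometric (1 / 2) (2 * (2 * ‖b‖ + 1) * η) (by norm_num) fun n => ?_
    rw [dist_comm, dist_eq_norm]
    exact hstep n
  obtain ⟨e', he'⟩ := cauchySeq_tendsto_of_complete hcauchy
  refine ⟨e', ?_, ?_⟩
  · have h1 : Tendsto (fun n => niter b n * niter b n - niter b n)
        atTop (𝓝 (e' * e' - e')) := (he'.mul he').sub he'
    have h2 : Tendsto (fun n => niter b n * niter b n - niter b n) atTop (𝓝 0) := by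
      apply squeeze_zero_norm (a := fun n => η * (1 / 2) ^ n)
      · intro n; exact (hbounds n).1
      · have := tendsto_pow_atTop_nhds_zero_of_lt_one (r := (1 / 2 : ℝ)) (by norm_num) (by norm_num)
        simpa using this.const_mul η
    exact sub_eq_zero.1 (tendsto_nhds_unique h1 h2)
  · have h1 : Tendsto (fun n => ‖niter b n - b‖) atTop (𝓝 ‖e' - b‖) := (he'.sub_const b).norm
    refine le_of_tendsto h1 (Eventually.of_forall fun n => ?_)
    refine (hbounds n).2.trans ?_
    have hpow0 : (0 : ℝ) < (1 / 2 : ℝ) ^ n := by positivity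
    have h0 := norm_nonneg b
    have : 4 * (2 * ‖b‖ + 1) * η * (1 - (1 / 2) ^ n) ≤ 4 * (2 * ‖b‖ + 1) * η * 1 := by
      gcongr; linarith
    linarith

end NearIdem

section Local

variable {G : Type*} [Group G] {K : Type*} [NormedRing K] [NormedAlgebra ℂ K] [CompleteSpace K]

/-- every element of the group ring comes from a finitely generated subgroup -/
theorem exists_fg_subgroup (a : MonoidAlgebra K G) :
    ∃ H : Subgroup G, H.FG ∧ ∃ b : MonoidAlgebra K H, L1.push H.subtype (incl b) = incl a := by
  induction a using MonoidAlgebra.induction_linear with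
  | zero => exact ⟨⊥, ⟨∅, by simp⟩, 0, by
      rw [map_zero, map_zero]; exact (L1.pushHom _).map_zero⟩
  | add x y hx hy =>
    obtain ⟨H₁, hf₁, b₁, hb₁⟩ := hx
    obtain ⟨H₂, hf₂, b₂, hb₂⟩ := hy
    have comp : ∀ (H' H'' : Subgroup G) (hle : H' ≤ H'') (b : MonoidAlgebra K H'),
        ∃ b' : MonoidAlgebra K H'', L1.push H''.subtype (incl b') =
          L1.push H'.subtype (incl b) := by
      intro H' H'' hle b
      induction b using MonoidAlgebra.induction_linear with
      | zero => exact ⟨0, by
          rw [map_zero, map_zero]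
          exact ((L1.pushHom _).map_zero).trans ((L1.pushHom _).map_zero).symm⟩
      | add u v hu hv =>
        obtain ⟨u', hu'⟩ := hu
        obtain ⟨v', hv'⟩ := hv
        refine ⟨u' + v', ?_⟩
        rw [map_add, map_add, L1.push_add, L1.push_add, hu', hv']
      | single m r =>
        refine ⟨single (Subgroup.inclusion hle m) r, ?_⟩
        rw [incl_single, incl_single, L1.push_single, L1.push_single]
        rfl
    obtain ⟨c₁, hc₁⟩ := comp H₁ (H₁ ⊔ H₂) le_sup_left b₁
    obtain ⟨c₂, hc₂⟩ := comp H₂ (H₁ ⊔ H₂) le_sup_right b₂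
    refine ⟨H₁ ⊔ H₂, hf₁.sup hf₂, c₁ + c₂, ?_⟩
    rw [map_add, L1.push_add, hc₁, hc₂, hb₁, hb₂, map_add]
  | single m r =>
    refine ⟨Subgroup.closure {m}, ?_, single ⟨m, Subgroup.subset_closure rfl⟩ r, ?_⟩
    · exact ⟨{m}, by simp⟩
    · rw [incl_single, incl_single, L1.push_single]
      rfl

/-- every idempotent over `ℓ¹(G)` has the same traces as one coming from a finitely generated
subgroup -/
theorem exists_fg_idem (e : L1 G K) (he : e * e = e) :
    ∃ H : Subgroup G, H.FG ∧ ∃ e' : L1 H K, e' * e' = e' ∧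
      ∀ (t : K →L[ℂ] ℂ), (∀ x y, t (x * y) = t (y * x)) → ∀ (C : Set G),
        (∀ x y, x * y ∈ C → y * x ∈ C) →
        L1.tr t C e = L1.tr t (H.subtype ⁻¹' C) e' := by
  set M : ℝ := ‖e‖ + 1 with hM
  have hn := norm_nonneg e
  have hM1 : 1 ≤ M := by linarith
  -- required closeness
  set ε : ℝ := 1 / (2 * (2 * ‖e‖ + 2)) with hε
  have hεpos : 0 < ε := by positivity
  have hε1 : ε ≤ 1 := by
    rw [hε, div_le_one (by positivity)]; linarith
  set A : ℝ := 2 * M + 1 with hA
  have hApos : 0 < A := by linarith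
  set η : ℝ := min (1 / 8) (ε / (8 * A)) with hη
  have hηpos : 0 < η := lt_min (by norm_num) (by positivity)
  have hη8 : η ≤ 1 / 8 := min_le_left _ _
  have hηε : 4 * A * η ≤ ε / 2 := by
    have : η ≤ ε / (8 * A) := min_le_right _ _
    calc 4 * A * η ≤ 4 * A * (ε / (8 * A)) := by gcongr
      _ = ε / 2 := by field_simp; ring
  set δ : ℝ := min (ε / 2) (η / (2 * M + 1)) with hδ
  have hδpos : 0 < δ := lt_min (by positivity) (by positivity)
  have hδε : δ ≤ ε / 2 := min_le_left _ _
  have hδη : (2 * M + 1) * δ ≤ η := by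
    have h1 : δ ≤ η / (2 * M + 1) := min_le_right _ _
    calc (2 * M + 1) * δ ≤ (2 * M + 1) * (η / (2 * M + 1)) := by gcongr
      _ = η := by field_simp
  obtain ⟨a₀, ha₀, -⟩ := exists_incl_close e δ hδpos
  obtain ⟨H, hH, b₀, hb₀⟩ := exists_fg_subgroup a₀
  have hinj : ∀ c : L1 H K, ‖L1.push H.subtype c‖ = ‖c‖ := by
    intro c
    apply le_antisymm (L1.norm_push_le _ _)
    rw [L1.norm_def, L1.norm_def]
    have hval : ∀ y : H, (L1.push H.subtype c) y.1 = c y := by
      intro y
      rw [L1.push_apply, tsum_eq_single (⟨y, rfl⟩ : {z : H // H.subtype z = y.1})]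
      intro z hz
      exact absurd (Subtype.ext (Subtype.ext z.2)) hz
    have hs := (L1.push H.subtype c).summable_norm
    calc ∑' y : H, ‖c y‖ = ∑' y : H, ‖(L1.push H.subtype c) y.1‖ := by simp_rw [hval]
      _ ≤ ∑' x : G, ‖(L1.push H.subtype c) x‖ :=
        hs.tsum_subtype_le (fun x => ‖(L1.push H.subtype c) x‖) (H : Set G)
          (fun _ => norm_nonneg _)
  have hb : ‖incl b₀‖ ≤ M := by
    rw [← hinj, hb₀]
    have : ‖incl a₀‖ ≤ ‖incl a₀ - e‖ + ‖e‖ := by
      simpa using norm_add_le (incl a₀ - e) e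
    linarith
  have hsubh : ∀ x y : L1 H K, L1.push H.subtype (x - y) =
      L1.push H.subtype x - L1.push H.subtype y := fun x y =>
    (L1.pushHom (K := K) H.subtype).map_sub x y
  have hx : ‖incl b₀ * incl b₀ - incl b₀‖ ≤ η := by
    rw [← hinj, hsubh, L1.push_mul, hb₀]
    have h1 : incl a₀ * incl a₀ - incl a₀ =
        incl a₀ * (incl a₀ - e) + (incl a₀ - e) * e - (incl a₀ - e) := by
      have : incl a₀ * (incl a₀ - e) + (incl a₀ - e) * e - (incl a₀ - e) =
        incl a₀ * incl a₀ - incl a₀ - (e * e - e) := by noncomm_ring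
      rw [this, he]; simp
    have hba : ‖incl a₀‖ ≤ M := by rw [← hb₀, hinj]; exact hb
    rw [h1]
    calc ‖incl a₀ * (incl a₀ - e) + (incl a₀ - e) * e - (incl a₀ - e)‖
        ≤ ‖incl a₀ * (incl a₀ - e) + (incl a₀ - e) * e‖ + ‖incl a₀ - e‖ := norm_sub_le _ _
      _ ≤ ‖incl a₀ * (incl a₀ - e)‖ + ‖(incl a₀ - e) * e‖ + ‖incl a₀ - e‖ := by
          gcongr; exact norm_add_le _ _
      _ ≤ ‖incl a₀‖ * ‖incl a₀ - e‖ + ‖incl a₀ - e‖ * ‖e‖ + ‖incl a₀ - e‖ := by
          gcongr <;> exact norm_mul_le _ _
      _ ≤ M * δ + δ * M + δ := by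
          gcongr
          linarith
      _ = (2 * M + 1) * δ := by ring
      _ ≤ η := hδη
  obtain ⟨e', he', hclose⟩ := exists_idem_near (incl b₀) η hη8 hx
  refine ⟨H, hH, e', he', fun t ht C hC => ?_⟩
  rw [← L1.tr_push t H.subtype C e']
  have hd : ‖e - L1.push H.subtype e'‖ ≤ ε := by
    have h1 : e - L1.push H.subtype e' =
        -(incl a₀ - e) + -(L1.push H.subtype (e' - incl b₀)) := by
      rw [hsubh, hb₀]; abel
    rw [h1]
    refine (norm_add_le _ _).trans ?_
    rw [norm_neg, norm_neg, hinj]
    have h2 : 4 * (2 * ‖(incl b₀ : L1 H K)‖ + 1) * η ≤ 4 * A * η := by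
      gcongr
      rw [hA]; linarith
    linarith
  refine trace_eq_of_close (L1.tr t C) (L1.tr_mul_comm t ht C hC) e _ he ?_ ?_
  · rw [← L1.push_mul, he']
  · set e'' := L1.push H.subtype e'
    have h3 : ‖e''‖ ≤ ‖e‖ + 1 := by
      have h4 : ‖e''‖ ≤ ‖e'' - e‖ + ‖e‖ := by simpa using norm_add_le (e'' - e) e
      rw [norm_sub_rev] at h4
      linarith
    calc ‖e - e''‖ * (‖e‖ + ‖e''‖) ≤ (1 / (2 * (2 * ‖e‖ + 2))) * (‖e‖ + (‖e‖ + 1)) := by
          gcongr
      _ < 1 := by
          rw [div_mul_eq_mul_div, div_lt_one (by positivity)]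
          linarith

/-- **Local criterion.** -/
theorem tr_eq_zero_of_locally_controlled (t : K →L[ℂ] ℂ) (ht : ∀ x y, t (x * y) = t (y * x))
    (g : G) (hg : ∀ H : Subgroup G, H.FG → ∀ x : H, x.1 ∈ cls g → Controlled x)
    (e : L1 G K) (he : e * e = e) : L1.tr t (cls g) e = 0 := by
  obtain ⟨H, hH, e', he', htr⟩ := exists_fg_idem e he
  rw [htr t ht (cls g) (cls_comm g)]
  apply L1.tr_eq_zero_of_classes
  · rintro x ⟨k, hk⟩ k'
    refine ⟨k' * k, ?_⟩
    have : H.subtype x = k * g * k⁻¹ := hk
    rw [map_mul, map_mul, map_inv, this]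
    simp only [Subgroup.subtype_apply]
    group
  · intro x hx
    exact tr_eq_zero_of_controlled t ht x (hg H hH x hx) e' he'

end Local

end Vale.Agent.H18
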