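import Mathlib
import Vale.Agent.H18.L1Map

/-!
# Controlled elements from tree-like (`0`-hyperbolic) length functions
-/

set_option linter.unusedSectionVars false

namespace Vale.Agent.H18

open Filter Topology

variable {G : Type*} [Group G]

/-- the four point condition for the left invariant pseudometric `ℓ (x⁻¹ y)` -/
def FourPoint (ℓ : G → ℝ) : Prop :=
  ∀ x y z w : G, ℓ (x⁻¹ * y) + ℓ (z⁻¹ * w) ≤
    max (ℓ (x⁻¹ * z) + ℓ (y⁻¹ * w)) (ℓ (x⁻¹ * w) + ℓ (y⁻¹ * z))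

variable {ℓ : G → ℝ} (h1 : ∀ x y, ℓ (x * y) ≤ ℓ x + ℓ y) (h2 : ∀ x, ℓ x⁻¹ = ℓ x)
  (h4 : FourPoint ℓ) {g : G} (hg : Tendsto (fun n : ℕ => ℓ (g ^ n)) atTop atTop)

include h1 h2 h4 hg

theorem eventually_eq (p q k k' : G) : ∀ᶠ n : ℕ in atTop,
    ℓ (p⁻¹ * (g ^ n * k)) - ℓ (q⁻¹ * (g ^ n * k)) =
      ℓ (p⁻¹ * (g ^ n * k')) - ℓ (q⁻¹ * (g ^ n * k')) := by
  have hlow : ∀ a b : G, ∀ n : ℕ, ℓ (g ^ n) - ℓ a - ℓ b ≤ ℓ (a⁻¹ * (g ^ n * b)) := by
    intro a b n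
    have e : g ^ n = a * (a⁻¹ * (g ^ n * b)) * b⁻¹ := by group
    have h3 := h1 (a * (a⁻¹ * (g ^ n * b))) b⁻¹
    have h5 := h1 a (a⁻¹ * (g ^ n * b))
    rw [← e, h2] at h3
    linarith
  have hev := hg.eventually_gt_atTop
    (ℓ p + ℓ q + ℓ k + ℓ k' + ℓ (p⁻¹ * q) + ℓ (k⁻¹ * k') + ℓ p + ℓ q + ℓ k + ℓ k')
  filter_upwards [hev, hg.eventually_gt_atTop 0] with n hn hn0
  have a1 := hlow p k n
  have a2 := hlow q k' n
  have a3 := hlow p k' n
  have a4 := hlow q k n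
  have hk : ℓ ((g ^ n * k)⁻¹ * (g ^ n * k')) = ℓ (k⁻¹ * k') := by
    congr 1; group
  have nn : ∀ x, 0 ≤ ℓ x := by
    intro x
    have := h1 x x⁻¹
    have h0 := h1 1 1
    rw [mul_one] at h0
    rw [mul_inv_cancel, h2] at this
    linarith
  have np := nn p
  have nq := nn q
  have nk := nn k
  have nk' := nn k'
  have npq := nn (p⁻¹ * q)
  have nkk := nn (k⁻¹ * k')
  have f1 := h4 p (g ^ n * k) q (g ^ n * k')
  have f2 := h4 p (g ^ n * k') q (g ^ n * k)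
  have e1 : ℓ ((g ^ n * k)⁻¹ * q) = ℓ (q⁻¹ * (g ^ n * k)) := by
    rw [← h2 (q⁻¹ * (g ^ n * k))]; congr 1; group
  have e2 : ℓ ((g ^ n * k')⁻¹ * q) = ℓ (q⁻¹ * (g ^ n * k')) := by
    rw [← h2 (q⁻¹ * (g ^ n * k'))]; congr 1; group
  have e3 : ℓ ((g ^ n * k')⁻¹ * (g ^ n * k)) = ℓ (k⁻¹ * k') := by
    rw [← h2]; congr 1; group
  rw [hk, e1] at f1
  rw [e3, e2] at f2
  rcases le_max_iff.1 f1 with f1 | f1
  · exfalso; linarith
  rcases le_max_iff.1 f2 with f2 | f2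
  · exfalso; linarith
  linarith

/-- an element along which a `0`-hyperbolic length function tends to infinity is controlled -/
theorem controlled_of_fourPoint : Controlled g := by
  have hstab : ∀ z : G, ∃ c : ℝ, ∀ᶠ n : ℕ in atTop, ℓ (g ^ n) - ℓ (z⁻¹ * g ^ n) = c := by
    intro z
    have h := eventually_eq h1 h2 h4 hg 1 z 1 g
    simp only [inv_one, one_mul, mul_one] at h
    obtain ⟨N, hN⟩ := eventually_atTop.1 h
    refine ⟨ℓ (g ^ N) - ℓ (z⁻¹ * g ^ N), eventually_atTop.2 ⟨N, fun n hn => ?_⟩⟩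
    induction n, hn using Nat.le_induction with
    | base => rfl
    | succ n hn ih =>
      have := hN n hn
      rw [← pow_succ] at this
      rw [← this]; exact ih
  choose φ hφ using hstab
  refine ⟨ℓ, φ, h1, ?_, ?_, ?_⟩
  · intro x y hx hy
    have e := eventually_eq h1 h2 h4 hg 1 y 1 x⁻¹
    obtain ⟨n, ⟨⟨hn1, hn2⟩, hn3⟩, hn4⟩ := (((hφ (x * y)).and (hφ x)).and (hφ y)).and e |>.exists
    simp only [inv_one, one_mul, mul_one] at hn4
    have hc : x⁻¹ * g ^ n = g ^ n * x⁻¹ := ((hx.pow_left n).inv_right.eq).symm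
    have e1 : (x * y)⁻¹ * g ^ n = y⁻¹ * (g ^ n * x⁻¹) := by
      rw [mul_inv_rev, mul_assoc, hc]
    rw [e1] at hn1
    rw [hc] at hn2
    linarith
  · intro x _
    obtain ⟨n, hn⟩ := (hφ x).exists
    rw [← hn, abs_le]
    constructor
    · have := h1 x⁻¹ (g ^ n)
      rw [h2] at this
      linarith
    · have := h1 x (x⁻¹ * g ^ n)
      rw [mul_inv_cancel_left] at this
      linarith
  · intro h0
    have h := hφ g
    rw [h0] at h
    obtain ⟨N, hN⟩ := eventually_atTop.1 h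
    have hconst : ∀ n, N ≤ n → ℓ (g ^ (n + 1)) = ℓ (g ^ n) := by
      intro n hn
      have := hN (n + 1) (by omega)
      have e : g⁻¹ * g ^ (n + 1) = g ^ n := by rw [pow_succ']; group
      rw [e] at this
      linarith
    have hconst2 : ∀ n, N ≤ n → ℓ (g ^ n) = ℓ (g ^ N) := by
      intro n hn
      induction n, hn using Nat.le_induction with
      | base => rfl
      | succ n hn ih => rw [hconst n hn, ih]
    obtain ⟨n, hn⟩ := ((hg.eventually_gt_atTop (ℓ (g ^ N))).and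
      (eventually_ge_atTop N)).exists
    rw [hconst2 n hn.2] at hn
    exact lt_irrefl _ hn.1

end Vale.Agent.H18
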