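import Mathlib
import Vale.Agent.H18.L1Tree

/-!
# The syllable length on a free product
-/

set_option linter.unusedSectionVars false

namespace Vale.Agent.H18

open Monoid Monoid.CoprodI

variable {ι : Type*} {G : ι → Type*} [∀ i, Group (G i)]

/-- product of a list of syllables -/
def lprod (l : List (Σ i, G i)) : CoprodI G := (l.map fun s => of s.2).prod

theorem lprod_nil : lprod ([] : List (Σ i, G i)) = 1 := rfl

theorem lprod_cons (s : Σ i, G i) (l : List (Σ i, G i)) :
    lprod (s :: l) = of s.2 * lprod l := by simp [lprod]

theorem lprod_append (l l' : List (Σ i, G i)) : lprod (l ++ l') = lprod l * lprod l' := by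
  simp [lprod]

/-- reduced lists -/
def IsRed (l : List (Σ i, G i)) : Prop :=
  (∀ s ∈ l, s.2 ≠ 1) ∧ l.IsChain (fun s t => s.1 ≠ t.1)

open Classical in
/-- the reduced list of an element -/
noncomputable def red (x : CoprodI G) : List (Σ i, G i) := (Word.equiv x).toList

theorem red_isRed (x : CoprodI G) : IsRed (red x) := by
  classical
  exact ⟨(Word.equiv x).ne_one, (Word.equiv x).chain_ne⟩

theorem lprod_red (x : CoprodI G) : lprod (red x) = x := by
  classical
  exact Word.equiv.symm_apply_apply x

theorem red_lprod {l : List (Σ i, G i)} (h : IsRed l) : red (lprod l) = l := by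
  classical
  have := Word.equiv.apply_symm_apply (⟨l, h.1, h.2⟩ : Word G)
  have h2 := congrArg Word.toList this
  exact h2

/-- syllable length -/
noncomputable def len (x : CoprodI G) : ℕ := (red x).length

theorem len_lprod {l : List (Σ i, G i)} (h : IsRed l) : len (lprod l) = l.length := by
  unfold len; rw [red_lprod h]

/-- formal inverse of a list -/
def linv : List (Σ i, G i) → List (Σ i, G i)
  | [] => []
  | s :: l => linv l ++ [⟨s.1, s.2⁻¹⟩]

theorem linv_length (l : List (Σ i, G i)) : (linv l).length = l.length := by
  induction l with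
  | nil => rfl
  | cons s l ih => simp [linv, ih]

theorem lprod_linv (l : List (Σ i, G i)) : lprod (linv l) = (lprod l)⁻¹ := by
  induction l with
  | nil => simp [linv, lprod_nil]
  | cons s l ih =>
    rw [linv, lprod_append, ih, lprod_cons, lprod_cons, lprod_nil, mul_inv_rev, mul_one]
    simp

theorem IsRed.tail {s : Σ i, G i} {l : List (Σ i, G i)} (h : IsRed (s :: l)) : IsRed l :=
  ⟨fun t ht => h.1 t (List.mem_cons_of_mem _ ht), h.2.tail⟩

theorem isRed_append {l l' : List (Σ i, G i)} (h : IsRed l) (h' : IsRed l')
    (hc : ∀ s ∈ l.getLast?, ∀ t ∈ l'.head?, s.1 ≠ t.1) : IsRed (l ++ l') :=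
  ⟨fun t ht => by
    rcases List.mem_append.1 ht with ht | ht
    · exact h.1 t ht
    · exact h'.1 t ht,
   List.isChain_append.2 ⟨h.2, h'.2, hc⟩⟩

theorem linv_getLast? (l : List (Σ i, G i)) :
    (linv l).getLast? = l.head?.map fun s => ⟨s.1, s.2⁻¹⟩ := by
  cases l with
  | nil => rfl
  | cons s l => simp [linv]

theorem IsRed.linv {l : List (Σ i, G i)} (h : IsRed l) : IsRed (linv l) := by
  induction l with
  | nil => exact h
  | cons s l ih =>
    refine isRed_append (ih h.tail) ⟨?_, ?_⟩ ?_
    · intro t ht
      rw [List.mem_singleton] at ht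
      subst ht
      exact inv_ne_one.2 (h.1 s (by simp))
    · simp
    · intro t ht u hu
      rw [linv_getLast?] at ht
      cases l with
      | nil => simp at ht
      | cons r l =>
        simp only [List.head?_cons, Option.map_some, Option.mem_def, Option.some.injEq] at ht hu
        subst ht
        subst hu
        have := h.2
        rw [List.isChain_cons_cons] at this
        exact this.1.symm

theorem isRed_cons {s : Σ i, G i} {l : List (Σ i, G i)} (hs : s.2 ≠ 1) (hl : IsRed l)
    (hc : ∀ t ∈ l.head?, s.1 ≠ t.1) : IsRed (s :: l) := by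
  have : IsRed ([s] ++ l) := by
    refine isRed_append ⟨?_, by simp⟩ hl ?_
    · intro t ht
      rw [List.mem_singleton] at ht
      subst ht; exact hs
    · intro t ht u hu
      simp only [List.getLast?_singleton, Option.mem_def, Option.some.injEq] at ht
      subst ht
      exact hc u hu
  exact this

theorem IsRed.head_ne {s : Σ i, G i} {l : List (Σ i, G i)} (h : IsRed (s :: l)) :
    ∀ t ∈ l.head?, s.1 ≠ t.1 := by
  have := h.2
  rw [List.isChain_cons] at this
  exact this.1

open Classical in
/-- twice the Gromov product of two lists -/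
noncomputable def gp : List (Σ i, G i) → List (Σ i, G i) → ℕ
  | [], _ => 0
  | _ :: _, [] => 0
  | s :: l, t :: l' => if s = t then 2 + gp l l' else if s.1 = t.1 then 1 else 0

theorem gp_nil_left (l : List (Σ i, G i)) : gp [] l = 0 := by
  simp [gp]

theorem gp_nil_right (l : List (Σ i, G i)) : gp l [] = 0 := by
  cases l <;> simp [gp]

theorem gp_cons_same (s : Σ i, G i) (l l' : List (Σ i, G i)) :
    gp (s :: l) (s :: l') = 2 + gp l l' := by
  simp [gp]

theorem gp_cons_idx {s t : Σ i, G i} (h : s ≠ t) (h' : s.1 = t.1) (l l' : List (Σ i, G i)) :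
    gp (s :: l) (t :: l') = 1 := by
  simp [gp, h, h']

theorem gp_cons_ne {s t : Σ i, G i} (h' : s.1 ≠ t.1) (l l' : List (Σ i, G i)) :
    gp (s :: l) (t :: l') = 0 := by
  have : s ≠ t := fun h => h' (by rw [h])
  simp [gp, this, h']

theorem gp_comm (l l' : List (Σ i, G i)) : gp l l' = gp l' l := by
  induction l generalizing l' with
  | nil => rw [gp_nil_left, gp_nil_right]
  | cons s l ih =>
    cases l' with
    | nil => rw [gp_nil_left, gp_nil_right]
    | cons t l' =>
      by_cases h : s = t
      · subst h; rw [gp_cons_same, gp_cons_same, ih]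
      · by_cases h' : s.1 = t.1
        · rw [gp_cons_idx h h', gp_cons_idx (Ne.symm h) h'.symm]
        · rw [gp_cons_ne h', gp_cons_ne (Ne.symm h')]

theorem gp_ultra (l l' l'' : List (Σ i, G i)) : min (gp l l') (gp l' l'') ≤ gp l l'' := by
  induction l generalizing l' l'' with
  | nil => rw [gp_nil_left]; simp
  | cons s l ih =>
    cases l'' with
    | nil => rw [gp_nil_right l']; simp
    | cons u l'' =>
      cases l' with
      | nil => rw [gp_nil_right]; simp
      | cons t l' =>
        by_cases h1 : s = t
        · subst h1
          by_cases h2 : s = u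
          · subst h2
            rw [gp_cons_same, gp_cons_same, gp_cons_same]
            have := ih l' l''
            omega
          · by_cases h3 : s.1 = u.1
            · rw [gp_cons_idx h2 h3, gp_cons_idx h2 h3]; simp
            · rw [gp_cons_ne h3, gp_cons_ne h3]; simp
        · by_cases h3 : s.1 = t.1
          · rw [gp_cons_idx h1 h3]
            by_cases h2 : s = u
            · subst h2
              rw [gp_cons_same]; omega
            · by_cases h4 : s.1 = u.1
              · rw [gp_cons_idx h2 h4]; omega
              · have h5 : t.1 ≠ u.1 := fun h => h4 (h3.trans h)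
                rw [gp_cons_ne h5]; simp
          · rw [gp_cons_ne h3]; simp

theorem len_inv_mul_aux (l l' : List (Σ i, G i)) (h : IsRed l) (h' : IsRed l') :
    len ((lprod l)⁻¹ * lprod l') + gp l l' = l.length + l'.length := by
  induction l generalizing l' with
  | nil => rw [lprod_nil, inv_one, one_mul, gp_nil_left, len_lprod h']; simp
  | cons s l ih =>
    cases l' with
    | nil => rw [lprod_nil, mul_one, gp_nil_right, ← lprod_linv, len_lprod h.linv, linv_length]; simp
    | cons t l' =>
      by_cases h1 : s = t
      · subst h1
        rw [gp_cons_same, lprod_cons, lprod_cons]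
        have e : (of s.2 * lprod l)⁻¹ * (of s.2 * lprod l') = (lprod l)⁻¹ * lprod l' := by group
        rw [e]
        have := ih l' h.tail h'.tail
        simp only [List.length_cons]
        omega
      · by_cases h2 : s.1 = t.1
        · rw [gp_cons_idx h1 h2]
          obtain ⟨i, a⟩ := s
          obtain ⟨j, b⟩ := t
          simp only at h2
          subst h2
          have hab : a⁻¹ * b ≠ 1 := by
            intro hab
            apply h1
            rw [inv_mul_eq_one.1 hab]
          have e : (lprod (⟨i, a⟩ :: l))⁻¹ * lprod (⟨i, b⟩ :: l') =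
              lprod (linv l ++ (⟨i, a⁻¹ * b⟩ :: l')) := by
            rw [lprod_append, lprod_linv, lprod_cons, lprod_cons, lprod_cons]
            simp only [map_mul, map_inv]
            group
          rw [e, len_lprod]
          · simp only [List.length_append, linv_length, List.length_cons]; omega
          · refine isRed_append h.tail.linv (isRed_cons hab h'.tail h'.head_ne) ?_
            intro u hu w hw
            rw [linv_getLast?] at hu
            simp only [List.head?_cons, Option.mem_def, Option.some.injEq] at hw
            subst hw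
            cases l with
            | nil => simp at hu
            | cons r l =>
              simp only [List.head?_cons, Option.map_some, Option.mem_def,
                Option.some.injEq] at hu
              subst hu
              exact (h.head_ne r (by simp)).symm
        · rw [gp_cons_ne h2, ← lprod_linv, ← lprod_append, len_lprod]
          · simp only [List.length_append, linv_length, List.length_cons]; omega
          · refine isRed_append h.linv h' ?_
            intro u hu w hw
            rw [linv_getLast?] at hu
            simp only [List.head?_cons, Option.map_some, Option.mem_def,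
                Option.some.injEq] at hu hw
            subst hu
            subst hw
            exact h2

theorem len_inv_mul (x y : CoprodI G) :
    len (x⁻¹ * y) + gp (red x) (red y) = len x + len y := by
  have := len_inv_mul_aux (red x) (red y) (red_isRed x) (red_isRed y)
  rw [lprod_red, lprod_red] at this
  exact this

theorem len_one : len (1 : CoprodI G) = 0 := by
  have : len (lprod ([] : List (Σ i, G i))) = 0 := by
    rw [len_lprod]
    · rfl
    · exact ⟨by simp, by simp⟩
  exact this

theorem red_one : red (1 : CoprodI G) = [] := List.eq_nil_of_length_eq_zero len_one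

theorem len_inv (x : CoprodI G) : len x⁻¹ = len x := by
  have := len_inv_mul x 1
  rw [mul_one, red_one, gp_nil_right, len_one] at this
  omega

theorem len_mul_le (x y : CoprodI G) : len (x * y) ≤ len x + len y := by
  have := len_inv_mul x⁻¹ y
  rw [inv_inv, len_inv] at this
  omega

theorem fourPoint_len : FourPoint (fun x : CoprodI G => (len x : ℝ)) := by
  -- base point version
  have key : ∀ y z w : CoprodI G, len y + len (z⁻¹ * w) ≤
      max (len z + len (y⁻¹ * w)) (len w + len (y⁻¹ * z)) := by
    intro y z w
    have h1 := len_inv_mul z w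
    have h2 := len_inv_mul y w
    have h3 := len_inv_mul y z
    have h4 := gp_ultra (red z) (red y) (red w)
    rw [gp_comm (red z) (red y)] at h4
    omega
  intro x y z w
  have := key (x⁻¹ * y) (x⁻¹ * z) (x⁻¹ * w)
  have e1 : (x⁻¹ * z)⁻¹ * (x⁻¹ * w) = z⁻¹ * w := by group
  have e2 : (x⁻¹ * y)⁻¹ * (x⁻¹ * w) = y⁻¹ * w := by group
  have e3 : (x⁻¹ * y)⁻¹ * (x⁻¹ * z) = y⁻¹ * z := by group
  rw [e1, e2, e3] at this
  beta_reduce
  exact_mod_cast this

theorem len_of_le {i : ι} (a : G i) : len (of a : CoprodI G) ≤ 1 := by
  by_cases h : a = 1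
  · subst h; rw [map_one, len_one]; omega
  · have : len (lprod [(⟨i, a⟩ : Σ i, G i)]) = 1 := by
      rw [len_lprod]
      · rfl
      · exact ⟨by simpa using h, by simp⟩
    rw [lprod_cons, lprod_nil, mul_one] at this
    exact this.le

theorem len_lprod_le (l : List (Σ i, G i)) : len (lprod l) ≤ l.length := by
  induction l with
  | nil => rw [lprod_nil, len_one]; simp
  | cons s l ih =>
    rw [lprod_cons]
    have h1 := len_mul_le (of s.2 : CoprodI G) (lprod l)
    have h2 := len_of_le s.2
    simp only [List.length_cons]
    omega

/-- powers of a cyclically reduced element -/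
theorem len_pow {r : List (Σ i, G i)} (hr : IsRed r) (hne : r ≠ [])
    (hc : ∀ s ∈ r.getLast?, ∀ t ∈ r.head?, s.1 ≠ t.1) (n : ℕ) :
    len ((lprod r) ^ n) = n * r.length := by
  have key : ∀ n : ℕ, ∃ L : List (Σ i, G i), IsRed L ∧ lprod L = (lprod r) ^ n ∧
      L.length = n * r.length ∧ (∀ s ∈ L.getLast?, s ∈ r.getLast?) := by
    intro n
    induction n with
    | zero => exact ⟨[], ⟨by simp, by simp⟩, by simp [lprod_nil], by simp, by simp⟩
    | succ n ih =>
      obtain ⟨L, h1, h2, h3, h4⟩ := ih
      refine ⟨L ++ r, isRed_append h1 hr fun s hs t ht => hc s (h4 s hs) t ht, ?_, ?_, ?_⟩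
      · rw [lprod_append, h2, pow_succ]
      · rw [List.length_append, h3]; ring
      · intro s hs
        rw [List.getLast?_append_of_ne_nil _ hne] at hs
        exact hs
  obtain ⟨L, h1, h2, h3, -⟩ := key n
  rw [← h2, len_lprod h1, h3]

/-- An element of a free product which is not conjugate into a factor has infinite growth. -/
theorem tendsto_len (g : CoprodI G) (h1 : g ≠ 1) (hg : ∀ (i : ι) (a : G i), ¬ IsConj g (of a)) :
    Filter.Tendsto (fun n : ℕ => (len (g ^ n) : ℝ)) Filter.atTop Filter.atTop := by
  classical
  -- choose a shortest conjugate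
  have hex : ∃ m : ℕ, ∃ k : CoprodI G, len (k⁻¹ * g * k) = m := ⟨_, 1, rfl⟩
  obtain ⟨k, hk⟩ := Nat.find_spec hex
  have hmin : ∀ k', Nat.find hex ≤ len (k'⁻¹ * g * k') := fun k' =>
    Nat.find_min' hex ⟨k', rfl⟩
  set u := k⁻¹ * g * k with hu
  have hu1 : u ≠ 1 := by
    intro h
    apply h1
    have : g = k * u * k⁻¹ := by rw [hu]; group
    rw [this, h]; group
  have hred := red_isRed u
  have hprod := lprod_red u
  -- the list is nonempty
  rcases hl : red u with _ | ⟨s, l⟩
  · rw [hl, lprod_nil] at hprod
    exact absurd hprod.symm hu1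
  rw [hl] at hred hprod
  -- the list has length at least two
  rcases List.eq_nil_or_concat l with hl2 | ⟨l', t, hl2⟩
  · subst hl2
    rw [lprod_cons, lprod_nil, mul_one] at hprod
    exfalso
    apply hg s.1 s.2
    rw [isConj_iff]
    exact ⟨k⁻¹, by rw [hprod, hu]; group⟩
  rw [List.concat_eq_append] at hl2
  subst hl2
  have hidx : t.1 ≠ s.1 := by
    intro hidx
    obtain ⟨i, a⟩ := s
    obtain ⟨j, b⟩ := t
    simp only at hidx
    subst hidx
    have e : (k * of a)⁻¹ * g * (k * of a) = lprod (l' ++ [⟨j, b * a⟩]) := by
      have e2 : (k * of a)⁻¹ * g * (k * of a) = (of a)⁻¹ * u * of a := by rw [hu]; group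
      rw [e2, ← hprod, lprod_cons, lprod_append, lprod_append, lprod_cons, lprod_cons, lprod_nil]
      simp only [map_mul, mul_one]
      group
    have h2 := hmin (k * of a)
    rw [e] at h2
    have h3 := len_lprod_le (l' ++ [(⟨j, b * a⟩ : Σ i, G i)])
    have h4 : len u = (⟨j, a⟩ :: (l' ++ [⟨j, b⟩]) : List (Σ i, G i)).length := by
      unfold len; rw [hl]
    rw [← hk] at h2
    simp only [List.length_append, List.length_cons, List.length_nil] at h3 h4
    omega
  have hc : ∀ x ∈ (s :: (l' ++ [t])).getLast?, ∀ y ∈ (s :: (l' ++ [t])).head?, x.1 ≠ y.1 := by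
    intro x hx y hy
    rw [← List.cons_append, List.getLast?_append_of_ne_nil _ (by simp)] at hx
    simp only [List.getLast?_singleton, Option.mem_def, Option.some.injEq,
      List.head?_cons] at hx hy
    subst hx; subst hy
    exact hidx
  have hpow := len_pow hred (by simp) hc
  rw [hprod] at hpow
  have hlen : ∀ n : ℕ, (n : ℝ) - 2 * len k ≤ len (g ^ n) := by
    intro n
    have e : u ^ n = k⁻¹ * g ^ n * k := by
      have := conj_pow (i := n) (a := k⁻¹) (b := g)
      rw [inv_inv] at this
      rw [hu, this]
    have h2 := len_mul_le (k⁻¹ * g ^ n) k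
    have h3 := len_mul_le k⁻¹ (g ^ n)
    rw [len_inv] at h3
    rw [← e, hpow n] at h2
    have h4 : n * 1 ≤ n * (s :: (l' ++ [t])).length :=
      Nat.mul_le_mul_left n (by simp)
    have h5 : n ≤ len (g ^ n) + 2 * len k := by omega
    have h6 : (n : ℝ) ≤ len (g ^ n) + 2 * len k := by exact_mod_cast h5
    linarith
  refine Filter.tendsto_atTop_mono hlen ?_
  exact Filter.tendsto_atTop_add_const_right _ _ tendsto_natCast_atTop_atTop

/-- Elements of a free product which are not conjugate into a factor are controlled. -/
theorem controlled_of_hyperbolic (g : CoprodI G) (h1 : g ≠ 1)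
    (hg : ∀ (i : ι) (a : G i), ¬ IsConj g (of a)) : Controlled g :=
  controlled_of_fourPoint (ℓ := fun x : CoprodI G => (len x : ℝ))
    (fun x y => by exact_mod_cast len_mul_le x y) (fun x => by exact_mod_cast len_inv x)
    fourPoint_len (tendsto_len g h1 hg)

end Vale.Agent.H18
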