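import Mathlib
import Vale.Agent.H18.L1Map

/-!
# Controlled elements from finite dimensional representations over valued fields
-/

set_option linter.unusedSectionVars false

namespace Vale.Agent.H18

variable {G : Type*} [Group G]

theorem Controlled.comap {Q : Type*} [Group Q] (π : G →* Q) {g : G} (h : Controlled (π g)) :
    Controlled g := by
  obtain ⟨ℓ, φ, h1, h2, h3, h4⟩ := h
  refine ⟨fun x => ℓ (π x), fun x => φ (π x), fun x y => ?_, fun x y hx hy => ?_, fun x hx => ?_, h4⟩
  · simpa using h1 (π x) (π y)
  · simpa using h2 (π x) (π y) (hx.map π) (hy.map π)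
  · exact h3 (π x) (hx.map π)

section Linear

variable {k : Type*} [Field k] (v : AbsoluteValue k ℝ) {V : Type*} [AddCommGroup V] [Module k V]
  {ι : Type*} [Fintype ι] [DecidableEq ι] (b : Module.Basis ι k V)

/-- sum of the absolute values of the matrix entries -/
noncomputable def msum (T : Module.End k V) : ℝ :=
  ∑ i, ∑ j, v (LinearMap.toMatrix b b T i j)

theorem msum_nonneg (T : Module.End k V) : 0 ≤ msum v b T :=
  Finset.sum_nonneg fun _ _ => Finset.sum_nonneg fun _ _ => v.nonneg _

theorem entry_le_msum (T : Module.End k V) (i j : ι) :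
    v (LinearMap.toMatrix b b T i j) ≤ msum v b T := by
  unfold msum
  calc v (LinearMap.toMatrix b b T i j) ≤ ∑ j, v (LinearMap.toMatrix b b T i j) :=
        Finset.single_le_sum (f := fun j => v (LinearMap.toMatrix b b T i j))
          (fun _ _ => v.nonneg _) (Finset.mem_univ j)
    _ ≤ _ := Finset.single_le_sum (f := fun i => ∑ j, v (LinearMap.toMatrix b b T i j))
          (fun _ _ => Finset.sum_nonneg fun _ _ => v.nonneg _) (Finset.mem_univ i)

theorem msum_mul (S T : Module.End k V) : msum v b (S * T) ≤ msum v b S * msum v b T := by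
  have h1 : ∀ i j, v (LinearMap.toMatrix b b (S * T) i j) ≤
      ∑ l, v (LinearMap.toMatrix b b S i l) * v (LinearMap.toMatrix b b T l j) := by
    intro i j
    rw [LinearMap.toMatrix_mul, Matrix.mul_apply]
    refine (v.sum_le _ _).trans (Finset.sum_le_sum fun l _ => ?_)
    rw [v.map_mul]
  calc msum v b (S * T) ≤ ∑ i, ∑ j, ∑ l,
        v (LinearMap.toMatrix b b S i l) * v (LinearMap.toMatrix b b T l j) :=
        Finset.sum_le_sum fun i _ => Finset.sum_le_sum fun j _ => h1 i j
    _ = ∑ i, ∑ l, v (LinearMap.toMatrix b b S i l) * ∑ j, v (LinearMap.toMatrix b b T l j) := by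
        refine Finset.sum_congr rfl fun i _ => ?_
        rw [Finset.sum_comm]
        refine Finset.sum_congr rfl fun l _ => ?_
        rw [Finset.mul_sum]
    _ ≤ ∑ i, ∑ l, v (LinearMap.toMatrix b b S i l) * msum v b T := by
        refine Finset.sum_le_sum fun i _ => Finset.sum_le_sum fun l _ => ?_
        refine mul_le_mul_of_nonneg_left ?_ (v.nonneg _)
        exact Finset.single_le_sum (f := fun i => ∑ j, v (LinearMap.toMatrix b b T i j))
          (fun _ _ => Finset.sum_nonneg fun _ _ => v.nonneg _) (Finset.mem_univ l)
    _ = msum v b S * msum v b T := by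
        simp_rw [← Finset.sum_mul]; rfl

theorem msum_pos [Nontrivial V] (S T : Module.End k V) (h : S * T = 1) : 0 < msum v b S := by
  have h1 := msum_mul v b S T
  rw [h] at h1
  have h2 : 1 ≤ msum v b (1 : Module.End k V) := by
    obtain ⟨i⟩ : Nonempty ι := b.index_nonempty
    have := entry_le_msum v b (1 : Module.End k V) i i
    rw [LinearMap.toMatrix_one] at this
    simpa using this
  have h3 := msum_nonneg v b T
  have h4 := msum_nonneg v b S
  rcases h4.eq_or_lt with h5 | h5
  · rw [← h5] at h1; linarith
  · exact h5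

end Linear

/-- the restriction of a commuting element to the eigenspace has controlled determinant -/
theorem controlled_of_linear {k : Type*} [Field k] (v : AbsoluteValue k ℝ) {V : Type*}
    [AddCommGroup V] [Module k V] [FiniteDimensional k V] (ρ : G →* Module.End k V) (g : G)
    (lam : k) (w : V) (hw : w ≠ 0) (hgw : ρ g w = lam • w) (hl : v lam ≠ 1) : Controlled g := by
  classical
  have hnt : Nontrivial V := ⟨w, 0, hw⟩
  have hlam : lam ≠ 0 := by
    rintro rfl
    rw [zero_smul] at hgw
    have : (ρ g⁻¹ * ρ g) w = w := by rw [← map_mul]; simp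
    rw [Module.End.mul_apply, hgw, map_zero] at this
    exact hw this.symm
  set E : Submodule k V := Module.End.eigenspace (ρ g) lam with hE
  have hmaps : ∀ x, Commute g x → Set.MapsTo (ρ x) E E := by
    intro x hx u hu
    have hu' : ρ g u = lam • u := Module.End.mem_eigenspace_iff.1 hu
    show ρ x u ∈ E
    rw [hE, Module.End.mem_eigenspace_iff]
    have : ρ g (ρ x u) = ρ x (ρ g u) := by
      rw [← Module.End.mul_apply, ← Module.End.mul_apply, ← map_mul, ← map_mul, hx.eq]
    rw [this, hu', map_smul]
  set D : G → k := fun x => if h : Commute g x then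
    LinearMap.det ((ρ x).restrict (hmaps x h)) else 1 with hD
  have hDeq : ∀ x (h : Commute g x), D x = LinearMap.det ((ρ x).restrict (hmaps x h)) := by
    intro x h; simp only [hD]; rw [dif_pos h]
  have hDmul : ∀ x y, Commute g x → Commute g y → D (x * y) = D x * D y := by
    intro x y hx hy
    rw [hDeq x hx, hDeq y hy, hDeq (x * y) (hx.mul_right hy), ← map_mul]
    congr 1
    apply LinearMap.ext
    intro u
    apply Subtype.ext
    show ρ (x * y) (u : V) = ρ x (ρ y (u : V))
    rw [map_mul]; rfl
  have hD1 : D 1 = 1 := by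
    rw [hDeq 1 (Commute.one_right g)]
    have : (ρ 1).restrict (hmaps 1 (Commute.one_right g)) = LinearMap.id := by
      apply LinearMap.ext
      intro u
      apply Subtype.ext
      simp [LinearMap.restrict_apply]
    rw [this, LinearMap.det_id]
  have hDne : ∀ x, Commute g x → D x ≠ 0 := by
    intro x hx h0
    have := hDmul x x⁻¹ hx hx.inv_right
    rw [mul_inv_cancel, hD1, h0, zero_mul] at this
    exact one_ne_zero this
  have hDg : D g = lam ^ Module.finrank k E := by
    rw [hDeq g (Commute.refl g)]
    have : (ρ g).restrict (hmaps g (Commute.refl g)) = lam • LinearMap.id := by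
      apply LinearMap.ext
      intro u
      apply Subtype.ext
      show ρ g (u : V) = lam • (u : V)
      exact Module.End.mem_eigenspace_iff.1 u.2
    rw [this, LinearMap.det_smul, LinearMap.det_id, mul_one]
  have hdpos : 0 < Module.finrank k E := by
    have : Nontrivial E := ⟨⟨w, Module.End.mem_eigenspace_iff.2 hgw⟩, 0, by
      intro h; exact hw (by simpa using congrArg Subtype.val h)⟩
    exact Module.finrank_pos
  -- bases
  set b := Module.finBasis k V with hb
  set c := Module.finBasis k E with hc
  -- bound of the determinant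
  have hbound : ∃ K0 : ℝ, 1 ≤ K0 ∧ ∀ x, Commute g x →
      v (D x) ≤ K0 * (msum v b (ρ x)) ^ Module.finrank k E := by
    choose f hf using fun i => LinearMap.exists_extend (c.coord i)
    set C1 : ℝ := ∑ i, ∑ j, ∑ a, ∑ a', v (f i (b a)) * v (b.repr (c j : V) a') with hC1
    have hC1nn : 0 ≤ C1 := Finset.sum_nonneg fun _ _ => Finset.sum_nonneg fun _ _ =>
      Finset.sum_nonneg fun _ _ => Finset.sum_nonneg fun _ _ => mul_nonneg (v.nonneg _) (v.nonneg _)
    refine ⟨max 1 ((Nat.factorial (Module.finrank k E) : ℝ) * C1 ^ Module.finrank k E),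
      le_max_left _ _, fun x hx => ?_⟩
    have hM := msum_nonneg v b (ρ x)
    have hentry : ∀ i j, v (LinearMap.toMatrix c c ((ρ x).restrict (hmaps x hx)) i j) ≤
        C1 * msum v b (ρ x) := by
      intro i j
      rw [LinearMap.toMatrix_apply]
      have e1 : c.repr ((ρ x).restrict (hmaps x hx) (c j)) i = f i (ρ x (c j)) := by
        have h1 : c.coord i ((ρ x).restrict (hmaps x hx) (c j)) =
            (f i) (((ρ x).restrict (hmaps x hx) (c j) : E) : V) := by
          rw [← hf i]; rfl
        rw [← Module.Basis.coord_apply, h1]; rfl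
      rw [e1]
      have e2 : ρ x (c j : V) = ∑ a, (∑ a', LinearMap.toMatrix b b (ρ x) a a' *
          b.repr (c j : V) a') • b a := by
        have h2 := b.sum_repr (ρ x (c j : V))
        rw [← h2]
        refine Finset.sum_congr rfl fun a _ => ?_
        congr 1
        have h3 := LinearMap.toMatrix_mulVec_repr b b (ρ x) (c j : V)
        have h4 := congrFun h3 a
        rw [← h4]
        rfl
      rw [e2, map_sum]
      calc v (∑ a, f i ((∑ a', LinearMap.toMatrix b b (ρ x) a a' * b.repr (c j : V) a') • b a))
          ≤ ∑ a, v (f i ((∑ a', LinearMap.toMatrix b b (ρ x) a a' *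
              b.repr (c j : V) a') • b a)) := v.sum_le _ _
        _ ≤ ∑ a, ∑ a', (v (f i (b a)) * v (b.repr (c j : V) a')) * msum v b (ρ x) := by
            refine Finset.sum_le_sum fun a _ => ?_
            rw [map_smul, smul_eq_mul, v.map_mul]
            calc v (∑ a', LinearMap.toMatrix b b (ρ x) a a' * b.repr (c j : V) a') * v (f i (b a))
                ≤ (∑ a', msum v b (ρ x) * v (b.repr (c j : V) a')) * v (f i (b a)) := by
                  refine mul_le_mul_of_nonneg_right ?_ (v.nonneg _)
                  refine (v.sum_le _ _).trans (Finset.sum_le_sum fun a' _ => ?_)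
                  rw [v.map_mul]
                  exact mul_le_mul_of_nonneg_right (entry_le_msum v b (ρ x) a a') (v.nonneg _)
              _ = _ := by
                  rw [Finset.sum_mul]
                  refine Finset.sum_congr rfl fun a' _ => ?_
                  ring
        _ = (∑ a, ∑ a', v (f i (b a)) * v (b.repr (c j : V) a')) * msum v b (ρ x) := by
            rw [Finset.sum_mul]
            refine Finset.sum_congr rfl fun a _ => ?_
            rw [Finset.sum_mul]
        _ ≤ C1 * msum v b (ρ x) := by
            refine mul_le_mul_of_nonneg_right ?_ hM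
            rw [hC1]
            calc _ ≤ ∑ j, ∑ a, ∑ a', v (f i (b a)) * v (b.repr (c j : V) a') :=
                  Finset.single_le_sum (f := fun j => ∑ a, ∑ a', v (f i (b a)) *
                    v (b.repr (c j : V) a')) (fun _ _ => Finset.sum_nonneg fun _ _ =>
                    Finset.sum_nonneg fun _ _ => mul_nonneg (v.nonneg _) (v.nonneg _))
                    (Finset.mem_univ j)
              _ ≤ _ := Finset.single_le_sum (f := fun i => ∑ j, ∑ a, ∑ a', v (f i (b a)) *
                    v (b.repr (c j : V) a')) (fun _ _ => Finset.sum_nonneg fun _ _ =>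
                    Finset.sum_nonneg fun _ _ => Finset.sum_nonneg fun _ _ =>
                    mul_nonneg (v.nonneg _) (v.nonneg _))
                    (Finset.mem_univ i)
    rw [hDeq x hx, ← LinearMap.det_toMatrix c]
    have h5 := Matrix.det_le (abv := v) hentry
    rw [Fintype.card_fin, nsmul_eq_mul, mul_pow] at h5
    refine h5.trans ?_
    rw [← mul_assoc]
    exact mul_le_mul_of_nonneg_right (le_max_right _ _) (pow_nonneg hM _)
  obtain ⟨K0, hK0, hbd⟩ := hbound
  set d := Module.finrank k E with hd
  set L : G → ℝ := fun x => Real.log (msum v b (ρ x)) with hL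
  have hMpos : ∀ x, 0 < msum v b (ρ x) := fun x =>
    msum_pos v b (ρ x) (ρ x⁻¹) (by rw [← map_mul]; simp)
  have hLsub : ∀ x y, L (x * y) ≤ L x + L y := by
    intro x y
    simp only [hL]
    rw [← Real.log_mul (hMpos x).ne' (hMpos y).ne', map_mul]
    apply Real.log_le_log
    · rw [← map_mul]; exact hMpos _
    · exact msum_mul v b _ _
  have hlogK : 0 ≤ Real.log K0 := Real.log_nonneg hK0
  refine ⟨fun x => Real.log K0 + d * symlen L x, fun x => Real.log (v (D x)), ?_, ?_, ?_, ?_⟩
  · intro x y
    have h1 := symlen_mul hLsub x y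
    have h2 : (d : ℝ) * symlen L (x * y) ≤ d * (symlen L x + symlen L y) :=
      mul_le_mul_of_nonneg_left h1 (Nat.cast_nonneg d)
    simp only
    linarith
  · intro x y hx hy
    simp only
    rw [hDmul x y hx hy, v.map_mul, Real.log_mul]
    · exact (v.pos (hDne x hx)).ne'
    · exact (v.pos (hDne y hy)).ne'
  · have hup : ∀ x, Commute g x → Real.log (v (D x)) ≤ Real.log K0 + d * L x := by
      intro x hx
      have h1 : Real.log (v (D x)) ≤ Real.log (K0 * (msum v b (ρ x)) ^ d) :=
        Real.log_le_log (v.pos (hDne x hx)) (hbd x hx)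
      rw [Real.log_mul (by linarith) (pow_pos (hMpos x) d).ne', Real.log_pow] at h1
      exact h1
    intro x hx
    have hinv : Real.log (v (D x⁻¹)) = - Real.log (v (D x)) := by
      have h1 := hDmul x x⁻¹ hx hx.inv_right
      rw [mul_inv_cancel, hD1] at h1
      have h2 : D x⁻¹ = (D x)⁻¹ := (inv_eq_of_mul_eq_one_right h1.symm).symm
      rw [h2, map_inv₀, Real.log_inv]
    rw [abs_le]
    have hd0 : (0 : ℝ) ≤ d := Nat.cast_nonneg d
    constructor
    · have h3 := hup x⁻¹ hx.inv_right
      rw [hinv] at h3
      have h4 : (d : ℝ) * L x⁻¹ ≤ d * symlen L x :=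
        mul_le_mul_of_nonneg_left (le_max_right _ _) hd0
      linarith
    · have h3 := hup x hx
      have h4 : (d : ℝ) * L x ≤ d * symlen L x :=
        mul_le_mul_of_nonneg_left (le_max_left _ _) hd0
      linarith
  · show Real.log (v (D g)) ≠ 0
    rw [hDg, v.map_pow, Real.log_pow]
    apply mul_ne_zero
    · exact_mod_cast hdpos.ne'
    · have hv := v.pos hlam
      intro h
      rcases Real.log_eq_zero.1 h with h | h | h
      · linarith
      · exact hl h
      · linarith

end Vale.Agent.H18
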