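import Mathlib
import Vale.Agent.H18.L1Linear

/-!
# Linear groups: classes with an eigenvalue which is not a root of unity
-/

set_option linter.unusedSectionVars false

namespace Vale.Agent.H18

section AbsVal

theorem exists_absval_numberField (K : Type*) [Field K] [NumberField K] (x : K)
    (hx : ∀ n : ℕ, 0 < n → x ^ n ≠ 1) : ∃ v : AbsoluteValue K ℝ, v x ≠ 1 := by
  by_cases h1 : ∀ φ : K →+* ℂ, ‖φ x‖ = 1
  · -- not integral
    have hni : ¬ IsIntegral ℤ x := by
      intro hi
      obtain ⟨n, hn, hxn⟩ := NumberField.Embeddings.pow_eq_one_of_norm_eq_one K ℂ hi h1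
      exact hx n hn hxn
    have h2 : ∃ v : IsDedekindDomain.HeightOneSpectrum (NumberField.RingOfIntegers K),
        ¬ v.valuation K x ≤ 1 := by
      by_contra hc
      push Not at hc
      obtain ⟨y, hy⟩ :=
        IsDedekindDomain.HeightOneSpectrum.mem_integers_of_valuation_le_one K x hc
      apply hni
      rw [← hy]
      exact NumberField.RingOfIntegers.isIntegral_coe y
    obtain ⟨v, hv⟩ := h2
    refine ⟨NumberField.HeightOneSpectrum.adicAbv K v, ?_⟩
    intro h
    apply hv
    rw [NumberField.HeightOneSpectrum.adicAbv_def] at h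
    have h' : WithZeroMulInt.toNNReal (NumberField.HeightOneSpectrum.absNorm_ne_zero v)
        (v.valuation K x) = 1 := by exact_mod_cast h
    rw [WithZeroMulInt.toNNReal_eq_one_iff _ _
      (NumberField.HeightOneSpectrum.one_lt_absNorm_nnreal v).ne'] at h'
    exact h'.le
  · push Not at h1
    obtain ⟨φ, hφ⟩ := h1
    refine ⟨(NormedField.toAbsoluteValue ℂ).comp (f := φ) φ.injective, ?_⟩
    exact hφ

open Classical in
/-- `2 ^ deg` on the rational function field -/
noncomputable def rfa {F : Type*} [Field F] (x : RatFunc F) : ℝ :=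
  if x = 0 then 0 else (2 : ℝ) ^ (RatFunc.intDegree x)

theorem rfa_zero {F : Type*} [Field F] : rfa (0 : RatFunc F) = 0 := by simp [rfa]

theorem rfa_ne {F : Type*} [Field F] {x : RatFunc F} (hx : x ≠ 0) :
    rfa x = (2 : ℝ) ^ (RatFunc.intDegree x) := by simp [rfa, hx]

theorem rfa_nonneg {F : Type*} [Field F] (x : RatFunc F) : 0 ≤ rfa x := by
  by_cases hx : x = 0
  · rw [hx, rfa_zero]
  · rw [rfa_ne hx]; positivity

/-- the absolute value on `F(X)` attached to the degree -/
noncomputable def ratFuncAbs (F : Type*) [Field F] : AbsoluteValue (RatFunc F) ℝ where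
  toFun := rfa
  map_mul' x y := by
    by_cases hx : x = 0
    · rw [hx, zero_mul, rfa_zero, zero_mul]
    by_cases hy : y = 0
    · rw [hy, mul_zero, rfa_zero, mul_zero]
    rw [rfa_ne hx, rfa_ne hy, rfa_ne (mul_ne_zero hx hy), RatFunc.intDegree_mul hx hy,
      zpow_add₀ (by norm_num)]
  nonneg' x := rfa_nonneg x
  eq_zero' x := by
    by_cases hx : x = 0
    · rw [hx, rfa_zero]; simp
    · rw [rfa_ne hx]; simp only [hx, iff_false]; positivity
  add_le' x y := by
    by_cases hx : x = 0
    · rw [hx, zero_add, rfa_zero, zero_add]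
    by_cases hy : y = 0
    · rw [hy, add_zero, rfa_zero, add_zero]
    by_cases hxy : x + y = 0
    · rw [hxy, rfa_zero]; exact add_nonneg (rfa_nonneg x) (rfa_nonneg y)
    rw [rfa_ne hx, rfa_ne hy, rfa_ne hxy]
    have h := RatFunc.intDegree_add_le hy hxy
    have h1 : (0 : ℝ) < 2 ^ RatFunc.intDegree x := by positivity
    have h2 : (0 : ℝ) < 2 ^ RatFunc.intDegree y := by positivity
    rcases le_max_iff.1 h with h | h
    · have := zpow_le_zpow_right₀ (by norm_num : (1 : ℝ) ≤ 2) h
      linarith
    · have := zpow_le_zpow_right₀ (by norm_num : (1 : ℝ) ≤ 2) h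
      linarith

theorem ratFuncAbs_X (F : Type*) [Field F] : ratFuncAbs F RatFunc.X ≠ 1 := by
  have hX : (RatFunc.X : RatFunc F) ≠ 0 := RatFunc.X_ne_zero
  show rfa (RatFunc.X : RatFunc F) ≠ 1
  rw [rfa_ne hX, RatFunc.intDegree_X]
  norm_num

end AbsVal

section Reduction

theorem map_det_scalar_sub {A B : Type*} [CommRing A] [CommRing B] (f : A →+* B) {n : ℕ} (a : A)
    (M : Matrix (Fin n) (Fin n) A) :
    f ((Matrix.scalar (Fin n) a - M).det) = (Matrix.scalar (Fin n) (f a) - f.mapMatrix M).det := by
  rw [RingHom.map_det, map_sub]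
  congr 2
  ext i j
  by_cases h : i = j
  · subst h; simp [Matrix.scalar_apply]
  · simp [Matrix.scalar_apply, h]

theorem controlled_of_finite_ext {H : Type*} [Group H] {k : Type*} [Field k]
    (v : AbsoluteValue k ℝ) {L : Type*} [Field L] [Algebra k L] [Module.Finite k L] {n : ℕ}
    (ρL : H →* Matrix (Fin n) (Fin n) L) (x : H) (lam : k) (hl : v lam ≠ 1)
    (hdetL : (Matrix.scalar (Fin n) (algebraMap k L lam) - ρL x).det = 0) : Controlled x := by
  obtain ⟨w, hw0, hw⟩ := Matrix.exists_mulVec_eq_zero_iff.2 hdetL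
  let ρV : H →* Module.End k (Fin n → L) :=
    { toFun := fun h => (Matrix.toLin' (ρL h)).restrictScalars k
      map_one' := by
        rw [map_one, Matrix.toLin'_one]; rfl
      map_mul' := fun a b => by
        rw [map_mul, Matrix.toLin'_mul]; rfl }
  refine controlled_of_linear v ρV x lam w hw0 ?_ hl
  show (ρL x).mulVec w = lam • w
  rw [Matrix.sub_mulVec] at hw
  have h2 : (Matrix.scalar (Fin n) (algebraMap k L lam)).mulVec w = lam • w := by
    ext i
    rw [Matrix.scalar_apply, Matrix.mulVec_diagonal, Pi.smul_apply, Algebra.smul_def]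
  rw [← h2]
  exact (sub_eq_zero.1 hw).symm

theorem aux_quot {H : Type*} [Group H] {k : Type*} [Field k]
    (v : AbsoluteValue k ℝ) {A : Type*} [CommRing A] [Algebra k A] {n : ℕ}
    (ρA : H →* Matrix (Fin n) (Fin n) A) (x : H) (lam : k) (hl : v lam ≠ 1)
    (hdetA : (Matrix.scalar (Fin n) (algebraMap k A lam) - ρA x).det = 0) (m : Ideal A)
    (hm : m.IsMaximal) (hfin : Algebra.FiniteType k (A ⧸ m)) : Controlled x := by
  let _ : Field (A ⧸ m) := Ideal.Quotient.field m
  have : Module.Finite k (A ⧸ m) := finite_of_finite_type_of_isJacobsonRing k (A ⧸ m)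
  have hdetL : (Matrix.scalar (Fin n) (algebraMap k (A ⧸ m) lam) -
      ((Ideal.Quotient.mk m).mapMatrix.toMonoidHom.comp ρA) x).det = 0 := by
    have := congrArg (Ideal.Quotient.mk m) hdetA
    rw [map_det_scalar_sub, map_zero] at this
    exact this
  exact controlled_of_finite_ext v _ x lam hl hdetL

/-- Reduction from a representation over a big field to one over a valued subfield -/
theorem controlled_of_reduction {H : Type*} [Group H] [Group.FG H] {k : Type*} [Field k]
    (v : AbsoluteValue k ℝ) {Ω : Type*} [Field Ω] [Algebra k Ω] {n : ℕ}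
    (ρ : H →* Matrix (Fin n) (Fin n) Ω) (x : H) (lam : k) (hl : v lam ≠ 1)
    (hdet : (Matrix.scalar (Fin n) (algebraMap k Ω lam) - ρ x).det = 0) : Controlled x := by
  classical
  obtain ⟨S, hS⟩ := (Group.fg_def.1 ‹Group.FG H› : (⊤ : Subgroup H).FG)
  -- the finite set of entries
  set T : Finset Ω := (S ∪ S.image (·⁻¹)).biUnion fun s =>
    (Finset.univ : Finset (Fin n × Fin n)).image fun p => ρ s p.1 p.2 with hT
  set A : Subalgebra k Ω := Algebra.adjoin k (T : Set Ω) with hA
  have hmem : ∀ h : H, ∀ i j, ρ h i j ∈ A ∧ ρ h⁻¹ i j ∈ A := by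
    intro h
    have hh : h ∈ Subgroup.closure (S : Set H) := by rw [hS]; trivial
    induction hh using Subgroup.closure_induction with
    | mem s hs =>
      intro i j
      constructor
      · apply Algebra.subset_adjoin
        simp only [hT, Finset.coe_biUnion, Set.mem_iUnion]
        refine ⟨s, by simp [Finset.mem_coe.1 hs], ?_⟩
        simp only [Finset.coe_image, Set.mem_image]
        exact ⟨(i, j), by simp, rfl⟩
      · apply Algebra.subset_adjoin
        simp only [hT, Finset.coe_biUnion, Set.mem_iUnion]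
        refine ⟨s⁻¹, by simp [Finset.mem_coe.1 hs], ?_⟩
        simp only [Finset.coe_image, Set.mem_image]
        exact ⟨(i, j), by simp, rfl⟩
    | one =>
      intro i j
      simp only [inv_one, map_one, Matrix.one_apply]
      constructor <;> split_ifs <;> first | exact A.one_mem | exact A.zero_mem
    | mul a b _ _ ha hb =>
      intro i j
      rw [mul_inv_rev, map_mul, map_mul, Matrix.mul_apply, Matrix.mul_apply]
      exact ⟨A.sum_mem fun l _ => A.mul_mem (ha i l).1 (hb l j).1,
        A.sum_mem fun l _ => A.mul_mem (hb i l).2 (ha l j).2⟩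
    | inv a _ ha =>
      intro i j
      rw [inv_inv]
      exact ⟨(ha i j).2, (ha i j).1⟩
  -- the representation over A
  let ρA : H →* Matrix (Fin n) (Fin n) A :=
    { toFun := fun h => Matrix.of fun i j => ⟨ρ h i j, (hmem h i j).1⟩
      map_one' := by
        ext i j
        simp only [map_one, Matrix.of_apply, Matrix.one_apply]
        split_ifs <;> rfl
      map_mul' := fun a b => by
        ext i j
        simp [Matrix.mul_apply] }
  have hft : Algebra.FiniteType k A := by
    rw [← Subalgebra.fg_iff_finiteType]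
    exact ⟨T, rfl⟩
  obtain ⟨m, hm⟩ := Ideal.exists_maximal A
  have hdetA : (Matrix.scalar (Fin n) (algebraMap k A lam) - ρA x).det = 0 := by
    have hinj : Function.Injective (algebraMap A Ω) := Subtype.val_injective
    apply hinj
    rw [map_det_scalar_sub, map_zero, ← hdet]
    rfl
  have hfin : Algebra.FiniteType k (A ⧸ m) :=
    Algebra.FiniteType.of_surjective (Ideal.Quotient.mkₐ k m) (Ideal.Quotient.mkₐ_surjective k m)
  exact aux_quot v ρA x lam hl hdetA m hm hfin

end Reduction

end Vale.Agent.H18
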