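import Mathlib
import Vale.Agent.H18.L1Field

/-!
# Linear groups: classes with an eigenvalue which is not a root of unity
-/

set_option linter.unusedSectionVars false

namespace Vale.Agent.H18

theorem controlled_of_transcendental {H : Type*} [Group H] [Group.FG H] {F : Type*} [Field F]
    {Ω : Type*} [Field Ω] [Algebra F Ω] {n : ℕ}
    (ρ : H →* Matrix (Fin n) (Fin n) Ω) (x : H) (μ : Ω) (hμ : Transcendental F μ)
    (hdet : (Matrix.scalar (Fin n) μ - ρ x).det = 0) : Controlled x := by
  have hinj : Function.Injective (Polynomial.aeval μ : Polynomial F →ₐ[F] Ω) :=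
    transcendental_iff_injective.1 hμ
  let φ : RatFunc F →ₐ[F] Ω := RatFunc.liftAlgHom (Polynomial.aeval μ)
    (nonZeroDivisors_le_comap_nonZeroDivisors_of_injective _ hinj)
  let _ : Algebra (RatFunc F) Ω := φ.toRingHom.toAlgebra
  have hX : algebraMap (RatFunc F) Ω RatFunc.X = μ := by
    show φ RatFunc.X = μ
    have h1 : (RatFunc.X : RatFunc F) = algebraMap _ _ (Polynomial.X : Polynomial F) /
        algebraMap _ _ (1 : Polynomial F) := by simp
    rw [h1]
    simp only [φ]
    rw [RatFunc.liftAlgHom_apply_div]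
    simp
  refine controlled_of_reduction (ratFuncAbs F) ρ x RatFunc.X (ratFuncAbs_X F) ?_
  rw [hX]
  exact hdet

theorem controlled_of_algebraic_zero {H : Type*} [Group H] [Group.FG H]
    {Ω : Type*} [Field Ω] [CharZero Ω] {n : ℕ}
    (ρ : H →* Matrix (Fin n) (Fin n) Ω) (x : H) (μ : Ω) (hμ : IsAlgebraic ℚ μ)
    (hroot : ∀ k : ℕ, 0 < k → μ ^ k ≠ 1)
    (hdet : (Matrix.scalar (Fin n) μ - ρ x).det = 0) : Controlled x := by
  have hfd : FiniteDimensional ℚ (IntermediateField.adjoin ℚ {μ}) :=
    IntermediateField.adjoin.finiteDimensional hμ.isIntegral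
  have hnf : NumberField (IntermediateField.adjoin ℚ {μ}) := { }
  obtain ⟨v, hv⟩ := exists_absval_numberField (IntermediateField.adjoin ℚ {μ})
    (IntermediateField.AdjoinSimple.gen ℚ μ) (by
      intro k hk h
      apply hroot k hk
      have := congrArg (algebraMap (IntermediateField.adjoin ℚ {μ}) Ω) h
      simpa using this)
  refine controlled_of_reduction v ρ x (IntermediateField.AdjoinSimple.gen ℚ μ) hv ?_
  rw [IntermediateField.AdjoinSimple.algebraMap_gen]
  exact hdet

theorem pow_eq_one_of_isAlgebraic_zmod {p : ℕ} [Fact p.Prime] {Ω : Type*} [Field Ω]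
    [Algebra (ZMod p) Ω] (μ : Ω) (h0 : μ ≠ 0) (hμ : IsAlgebraic (ZMod p) μ) :
    ∃ k : ℕ, 0 < k ∧ μ ^ k = 1 := by
  have hfd : FiniteDimensional (ZMod p) (IntermediateField.adjoin (ZMod p) {μ}) :=
    IntermediateField.adjoin.finiteDimensional hμ.isIntegral
  have hfin : Finite (IntermediateField.adjoin (ZMod p) {μ}) := Module.finite_of_finite (ZMod p)
  set y := IntermediateField.AdjoinSimple.gen (ZMod p) μ with hy
  have hy0 : y ≠ 0 := by
    intro h
    apply h0
    have := congrArg (algebraMap (IntermediateField.adjoin (ZMod p) {μ}) Ω) h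
    simpa [hy] using this
  have hfo : IsOfFinOrder (Units.mk0 y hy0) := isOfFinOrder_of_finite _
  obtain ⟨k, hk, hk1⟩ := hfo.exists_pow_eq_one
  refine ⟨k, hk, ?_⟩
  have h2 : y ^ k = 1 := by
    have := congrArg (Units.val) hk1
    simpa using this
  have := congrArg (algebraMap (IntermediateField.adjoin (ZMod p) {μ}) Ω) h2
  simpa [hy] using this

/-- In a finitely generated group, an element having in some linear representation an eigenvalue
which is not a root of unity is controlled. -/
theorem controlled_of_eigenvalue {H : Type*} [Group H] [Group.FG H]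
    {Ω : Type*} [Field Ω] {n : ℕ}
    (ρ : H →* Matrix (Fin n) (Fin n) Ω) (x : H) (μ : Ω)
    (hroot : ∀ k : ℕ, 0 < k → μ ^ k ≠ 1)
    (hdet : (Matrix.scalar (Fin n) μ - ρ x).det = 0) : Controlled x := by
  have hμ0 : μ ≠ 0 := by
    rintro rfl
    rw [map_zero, zero_sub, Matrix.det_neg] at hdet
    have h1 : (ρ x).det * (ρ x⁻¹).det = 1 := by
      rw [← Matrix.det_mul, ← map_mul]; simp
    rcases mul_eq_zero.1 hdet with h | h
    · have : ((-1 : Ω) ^ Fintype.card (Fin n)) ≠ 0 := pow_ne_zero _ (by norm_num)
      exact this h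
    · rw [h, zero_mul] at h1
      exact zero_ne_one h1
  obtain ⟨p, hp⟩ := CharP.exists Ω
  rcases Nat.eq_zero_or_pos p with h0 | hpos
  · subst h0
    have : CharZero Ω := CharP.charP_to_charZero Ω
    by_cases halg : IsAlgebraic ℚ μ
    · exact controlled_of_algebraic_zero ρ x μ halg hroot hdet
    · exact controlled_of_transcendental (F := ℚ) ρ x μ halg hdet
  · have hprime : p.Prime := (CharP.char_is_prime_or_zero Ω p).resolve_right hpos.ne'
    have : Fact p.Prime := ⟨hprime⟩
    let _ : Algebra (ZMod p) Ω := ZMod.algebra Ω p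
    by_cases halg : IsAlgebraic (ZMod p) μ
    · obtain ⟨k, hk, hk1⟩ := pow_eq_one_of_isAlgebraic_zmod μ hμ0 halg
      exact absurd hk1 (hroot k hk)
    · exact controlled_of_transcendental (F := ZMod p) ρ x μ halg hdet

/-- Existence of an eigenvalue which is not a root of unity if no power is unipotent. -/
theorem exists_eigenvalue {F : Type*} [Field F] {n : ℕ} (M : Matrix (Fin n) (Fin n) F)
    (h : ∀ k : ℕ, 0 < k → ¬ IsNilpotent (M ^ k - 1)) :
    ∃ μ : AlgebraicClosure F, (∀ k : ℕ, 0 < k → μ ^ k ≠ 1) ∧
      (Matrix.scalar (Fin n) μ - M.map (algebraMap F (AlgebraicClosure F))).det = 0 := by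
  classical
  by_contra hcon
  push Not at hcon
  set Ω := AlgebraicClosure F with hΩ
  set N := M.map (algebraMap F Ω) with hN
  -- every root of the characteristic polynomial is a root of unity
  have hroots : ∀ μ ∈ N.charpoly.roots, ∃ k : ℕ, 0 < k ∧ μ ^ k = 1 := by
    intro μ hμ
    by_contra hc
    push Not at hc
    apply hcon μ hc
    have := (Polynomial.mem_roots (Matrix.charpoly_monic N).ne_zero).1 hμ
    rw [Polynomial.IsRoot, Matrix.eval_charpoly] at this
    exact this
  choose! f hf using hroots
  set k := N.charpoly.roots.toFinset.prod f with hk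
  have hkpos : 0 < k := Finset.prod_pos fun μ hμ => (hf μ (by simpa using hμ)).1
  have hk1 : ∀ μ ∈ N.charpoly.roots, μ ^ k = 1 := by
    intro μ hμ
    obtain ⟨c, hc⟩ := Finset.dvd_prod_of_mem f (Multiset.mem_toFinset.2 hμ)
    rw [hk, hc, pow_mul, (hf μ hμ).2, one_pow]
  apply h k hkpos
  -- N ^ k - 1 is nilpotent
  have hnil : IsNilpotent (N ^ k - 1) := by
    have hsplit : N.charpoly.Splits := IsAlgClosed.splits _
    have hprod : N.charpoly = (N.charpoly.roots.map fun a => Polynomial.X - Polynomial.C a).prod :=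
      hsplit.eq_prod_roots_of_monic (Matrix.charpoly_monic N)
    have hdvd : N.charpoly ∣ (Polynomial.X ^ k - 1 : Polynomial Ω) ^ N.charpoly.roots.card := by
      rw [hprod]
      have : ∀ s : Multiset Ω, (∀ μ ∈ s, μ ^ k = 1) →
          (s.map fun a => Polynomial.X - Polynomial.C a).prod ∣
            (Polynomial.X ^ k - 1 : Polynomial Ω) ^ s.card := by
        intro s
        induction s using Multiset.induction_on with
        | empty => intro _; simp
        | cons a s ih =>
          intro hs
          rw [Multiset.map_cons, Multiset.prod_cons, Multiset.card_cons, pow_succ']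
          apply mul_dvd_mul
          · rw [Polynomial.dvd_iff_isRoot, Polynomial.IsRoot]
            simp [hs a (Multiset.mem_cons_self a s)]
          · exact ih fun μ hμ => hs μ (Multiset.mem_cons_of_mem hμ)
      have h3 := this N.charpoly.roots hk1
      convert h3 using 2
      rw [← hprod]
    refine ⟨N.charpoly.roots.card, ?_⟩
    obtain ⟨r, hr⟩ := hdvd
    have := congrArg (Polynomial.aeval N) hr
    rw [map_mul, Matrix.aeval_self_charpoly, zero_mul] at this
    simpa using this
  obtain ⟨m, hm⟩ := hnil
  refine ⟨m, ?_⟩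
  have hinj : Function.Injective
      ((algebraMap F Ω).mapMatrix : Matrix (Fin n) (Fin n) F →+* Matrix (Fin n) (Fin n) Ω) :=
    Matrix.map_injective (algebraMap F Ω).injective
  apply hinj
  rw [map_pow, map_sub, map_pow, map_one, map_zero]
  exact hm

end Vale.Agent.H18
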