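import Mathlib

/-! Definitions for the intersection and packing/covering questions. -/

namespace Vale.Agent.H18.Ray

open Set Cardinal Matroid

/-- Every family of fewer than continuum many infinite sets of natural numbers is split by one
set, i.e. the reaping number is the continuum. -/
def Reap : Prop :=
  ∀ 𝒜 : Set (Set ℕ), #𝒜 < 𝔠 → (∀ A ∈ 𝒜, A.Infinite) →
    ∃ S : Set ℕ, ∀ A ∈ 𝒜, (A ∩ S).Infinite ∧ (A \ S).Infinite

/-- `(M, N)` satisfies intersection: some set `J = JM ∪ JN` (a disjoint union) is independent in
both matroids and the closures of `JM` in `M` and of `JN` in `N` cover the ground set. -/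
def SatisfiesIntersection {α : Type*} (M N : Matroid α) : Prop :=
  ∃ JM JN : Set α, Disjoint JM JN ∧ M.Indep (JM ∪ JN) ∧ N.Indep (JM ∪ JN) ∧
    M.closure JM ∪ N.closure JN = M.E

/-- The family `M` of matroids on the ground set `E` has a packing/covering partition: `E` is the
disjoint union of `P` and `C`, there are pairwise disjoint `S i ⊆ P` with `S i` spanning in the
restriction of `M i` to `P`, and there are `I i ⊆ C` with union `C` such that `I i` is independent
in the contraction of `M i` onto `C`. -/
def HasPackingCovering {α ι : Type*} (E : Set α) (M : ι → Matroid α) : Prop :=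
  ∃ (P C : Set α) (S I : ι → Set α), P ∪ C = E ∧ Disjoint P C ∧
    (∀ i, S i ⊆ P) ∧ (∀ i j, i ≠ j → Disjoint (S i) (S j)) ∧
    (∀ i, (M i ↾ P).closure (S i) = P) ∧
    (∀ i, I i ⊆ C) ∧ (∀ i, ((M i)✶ ↾ C)✶.Indep (I i)) ∧ (⋃ i, I i) = C

/-- question (b), for ground sets in `Type` -/
def IntersectionConjecture : Prop :=
  ∀ (α : Type) (M N : Matroid α), M.E = N.E → SatisfiesIntersection M N

/-- question (a), for ground sets and index sets in `Type` -/
def PackingCoveringConjecture : Prop :=
  ∀ (α ι : Type) (E : Set α) (M : ι → Matroid α), (∀ i, (M i).E = E) → HasPackingCovering E M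

/-- `M` is a direct sum of matroids each of which is uniform (every subset of its ground set is
independent or spanning) -/
def IsSumOfUniform {α : Type} (M : Matroid α) : Prop :=
  ∃ (ι : Type) (U : ι → Matroid α) (hd : Pairwise (Function.onFun Disjoint fun i => (U i).E)),
    (∀ i, ∀ S ⊆ (U i).E, (U i).Indep S ∨ (U i).Spanning S) ∧ M = Matroid.disjointSigma U hd

end Vale.Agent.H18.Ray
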