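import Vale.Agent.H18.P068Defs

/-! A packing/covering partition for `(M, N✶)` gives an intersection certificate for `(M, N)`, and
the splitting axiom follows from the continuum hypothesis. -/

namespace Vale.Agent.H18.Ray

open Set Cardinal Matroid

lemma inter_of_pc {α : Type*} {M N : Matroid α} (hE : M.E = N.E)
    (h : HasPackingCovering M.E (fun b : Bool => cond b M N✶)) : SatisfiesIntersection M N := by
  obtain ⟨P, C, S, I, hPC, hd, hS, hSd, hSc, hI, hIi, hIu⟩ := h
  have hP : P ⊆ M.E := by rw [← hPC]; exact subset_union_left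
  have hC : C ⊆ M.E := by rw [← hPC]; exact subset_union_right
  have hCeq : C = M.E \ P := by
    rw [← hPC]; ext x
    have h' : x ∈ P → x ∉ C := fun h => Set.disjoint_left.1 hd h
    simp only [mem_sdiff, mem_union]; tauto
  have hPeq : P = M.E \ C := by
    rw [← hPC]; ext x
    have h' : x ∈ P → x ∉ C := fun h => Set.disjoint_left.1 hd h
    simp only [mem_sdiff, mem_union]; tauto
  have hPN : P ⊆ N.E := hE ▸ hP
  have hCN : C ⊆ N.E := hE ▸ hC
  have eM : (M✶ ↾ C)✶ = M ／ P := by
    rw [hCeq, ← Matroid.dual_ground, ← Matroid.delete_eq_restrict, Matroid.dual_delete_dual]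
  have eN : (N✶ ↾ P)✶ = N ／ C := by
    rw [hPeq, hE, ← Matroid.dual_ground, ← Matroid.delete_eq_restrict, Matroid.dual_delete_dual]
  -- the packing side
  have hSM : P ⊆ M.closure (S true) := by
    have h1 := hSc true
    simp only [cond_true] at h1
    rw [Matroid.restrict_closure_eq _ (hS true) hP] at h1
    exact inter_eq_right.1 h1
  obtain ⟨JP, hJP⟩ := M.exists_isBasis (S true) ((hS true).trans hP)
  have hJPc : P ⊆ M.closure JP := by rw [hJP.closure_eq_closure]; exact hSM
  have hJPP : JP ⊆ P := hJP.subset.trans (hS true)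
  have hJPb : M.IsBasis JP P := hJP.indep.isBasis_of_subset_of_subset_closure hJPP hJPc
  have hJPN : (N ／ C).Indep JP := by
    rw [← eN]
    have h1 : (N✶ ↾ P).Spanning (S false) := by
      rw [Matroid.spanning_iff]
      exact ⟨hSc false, hS false⟩
    have h2 : (N✶ ↾ P)✶.Indep (P \ S false) := h1.compl_coindep
    refine h2.subset ?_
    intro x hx
    exact ⟨hJPP hx, fun hx' => Set.disjoint_left.1 (hSd true false (by simp)) (hJP.subset hx) hx'⟩
  -- the covering side
  have hIN : C ⊆ N.closure (C \ I false) := by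
    have h1 := hIi false
    simp only [cond_false, Matroid.dual_dual] at h1
    have h2 : (N ↾ C).Coindep (I false) := h1
    have h3 := h2.compl_spanning
    have h4 := h3.closure_eq
    rw [Matroid.restrict_ground_eq, Matroid.restrict_closure_eq _ sdiff_subset hCN] at h4
    exact inter_eq_right.1 h4
  obtain ⟨JC, hJC⟩ := N.exists_isBasis (C \ I false) (sdiff_subset.trans hCN)
  have hJCc : C ⊆ N.closure JC := by rw [hJC.closure_eq_closure]; exact hIN
  have hJCC : JC ⊆ C := hJC.subset.trans sdiff_subset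
  have hJCb : N.IsBasis JC C := hJC.indep.isBasis_of_subset_of_subset_closure hJCC hJCc
  have hJCM : (M ／ P).Indep JC := by
    rw [← eM]
    refine (hIi true).subset ?_
    intro x hx
    have hx1 := hJC.subset hx
    have hx2 : x ∈ ⋃ i, I i := by rw [hIu]; exact hx1.1
    obtain ⟨i, hi⟩ := mem_iUnion.1 hx2
    cases i
    · exact absurd hi hx1.2
    · exact hi
  refine ⟨JP, JC, ?_, ?_, ?_, ?_⟩
  · exact hd.mono hJPP hJCC
  · have := (hJPb.contract_indep_iff.1 hJCM).1
    rwa [union_comm] at this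
  · exact (hJCb.contract_indep_iff.1 hJPN).1
  · refine subset_antisymm (union_subset (M.closure_subset_ground _)
      (hE ▸ N.closure_subset_ground _)) ?_
    rw [← hPC]
    exact union_subset_union hJPc hJCc

/-- a countable family of infinite sets is split by one set -/
lemma split_countable {A : ℕ → Set ℕ} (hA : ∀ n, (A n).Infinite) :
    ∃ S : Set ℕ, ∀ n, (A n ∩ S).Infinite ∧ (A n \ S).Infinite := by
  obtain ⟨g, hg⟩ := exists_surjective_nat (ℕ × ℕ × Bool)
  have hex : ∀ m k : ℕ, ∃ x ∈ A (g m).1, k < x := fun m k => (hA _).exists_gt k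
  choose nx hnx hgt using hex
  let f : ℕ → ℕ := fun m => Nat.rec (nx 0 0) (fun m y => nx (m + 1) y) m
  have hf0 : f 0 = nx 0 0 := rfl
  have hfs : ∀ m, f (m + 1) = nx (m + 1) (f m) := fun m => rfl
  have hmono : StrictMono f := strictMono_nat_of_lt_succ (fun m => by rw [hfs]; exact hgt _ _)
  have hmem : ∀ m, f m ∈ A (g m).1 := by
    intro m
    cases m with
    | zero => rw [hf0]; exact hnx _ _
    | succ m => rw [hfs]; exact hnx _ _
  have key : ∀ (n : ℕ) (b : Bool), {x | ∃ m, (g m).1 = n ∧ (g m).2.2 = b ∧ f m = x}.Infinite := by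
    intro n b
    choose m hm using fun k => hg (n, k, b)
    refine Set.infinite_of_injective_forall_mem (f := fun k : ℕ => f (m k)) ?_ ?_
    · intro k k' hk
      have h1 := hmono.injective hk
      have h2 := congrArg (fun q => (g q).2.1) h1
      simpa [hm] using h2
    · intro k
      exact ⟨m k, by rw [hm k], by rw [hm k], rfl⟩
  refine ⟨{x | ∃ m, (g m).2.2 = true ∧ f m = x}, fun n => ⟨?_, ?_⟩⟩
  · refine (key n true).mono ?_
    rintro x ⟨m, h1, h2, rfl⟩
    exact ⟨h1 ▸ hmem m, m, h2, rfl⟩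
  · refine (key n false).mono ?_
    rintro x ⟨m, h1, h2, rfl⟩
    refine ⟨h1 ▸ hmem m, ?_⟩
    rintro ⟨m', h3, h4⟩
    rw [hmono.injective h4, h2] at h3
    cases h3

theorem reap_of_CH (hCH : (ℵ₁ : Cardinal.{0}) = 𝔠) : Reap := by
  intro 𝒜 h hinf
  have h𝒜 : 𝒜.Countable := by
    rw [← hCH, ← succ_aleph0, Order.lt_succ_iff, le_aleph0_iff_set_countable] at h
    exact h
  rcases 𝒜.eq_empty_or_nonempty with rfl | hne
  · exact ⟨∅, fun A hA => absurd hA (notMem_empty A)⟩
  · obtain ⟨A, rfl⟩ := h𝒜.exists_eq_range hne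
    obtain ⟨S, hS⟩ := split_countable (fun n => hinf (A n) ⟨n, rfl⟩)
    refine ⟨S, ?_⟩
    rintro _ ⟨n, rfl⟩
    exact hS n

end Vale.Agent.H18.Ray
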