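import Mathlib

/-!
# Definitions for P184 (the `ℓ¹`-Bass conjecture)
-/

namespace Vale.Agent.P184

/-- `e` is an idempotent `q × q` matrix over the Banach algebra `ℓ¹(G)`: every entry
`e i j : G → ℂ` is absolutely summable and `e * e = e`, where matrices are multiplied using the
convolution product `(a * b)(g) = ∑_h a(h) b(h⁻¹ g)`. -/
structure IsIdempotentL1 {G : Type*} [Group G] {q : ℕ} (e : Fin q → Fin q → G → ℂ) : Prop where
  summable : ∀ i j, Summable fun g => ‖e i j g‖
  idem : ∀ i j g, ∑ k, ∑' h, e i k h * e k j (h⁻¹ * g) = e i j g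

/-- The Hattori-Stallings coefficient `τ_C(e) = ∑_{g ∈ C} ∑_i e i i g`. -/
noncomputable def hsCoeff {G : Type*} [Group G] {q : ℕ} (e : Fin q → Fin q → G → ℂ)
    (C : ConjClasses G) : ℂ :=
  ∑' g : {g : G // ConjClasses.mk g = C}, ∑ i, e i i g.1

/-- `G` satisfies the statement of the `ℓ¹`-Bass conjecture (Q1 for the group `G`): for every
idempotent matrix over `ℓ¹(G)` there is a finite set `F` of conjugacy classes of elements of
finite order outside of which all coefficients vanish. -/
def L1Bass (G : Type*) [Group G] : Prop :=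
  ∀ (q : ℕ) (e : Fin q → Fin q → G → ℂ), IsIdempotentL1 e →
    ∃ F : Finset (ConjClasses G), (∀ g : G, ConjClasses.mk g ∈ F → IsOfFinOrder g) ∧
      ∀ C : ConjClasses G, C ∉ F → hsCoeff e C = 0

end Vale.Agent.P184
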