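import Mathlib
import Vale.Agent.H18.P184Defs
import Vale.Agent.H18.L1Controlled

/-!
# Passing between matrices of functions and `ℓ¹(G; M_q(ℂ))`
-/

set_option linter.unusedSectionVars false

namespace Vale.Agent.H18

open Vale.Agent.P184

/-- the coefficient algebra -/
def Mat (q : ℕ) : Type := Matrix (Fin q) (Fin q) ℂ

/-- forgetful map -/
def Mat.ent {q : ℕ} (x : Mat q) (i j : Fin q) : ℂ := (show Matrix (Fin q) (Fin q) ℂ from x) i j

/-- build a matrix -/
def Mat.mk {q : ℕ} (x : Fin q → Fin q → ℂ) : Mat q :=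
  (Matrix.of x : Matrix (Fin q) (Fin q) ℂ)

section

attribute [local instance] Matrix.linftyOpSemiNormedRing Matrix.linftyOpNormedRing
  Matrix.linftyOpNormedAlgebra

noncomputable instance (q : ℕ) : NormedRing (Mat q) :=
  inferInstanceAs (NormedRing (Matrix (Fin q) (Fin q) ℂ))

noncomputable instance (q : ℕ) : NormedAlgebra ℂ (Mat q) :=
  inferInstanceAs (NormedAlgebra ℂ (Matrix (Fin q) (Fin q) ℂ))

instance (q : ℕ) : FiniteDimensional ℂ (Mat q) :=
  inferInstanceAs (FiniteDimensional ℂ (Matrix (Fin q) (Fin q) ℂ))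

end

noncomputable instance (q : ℕ) : CompleteSpace (Mat q) := FiniteDimensional.complete ℂ _

variable {G : Type*} [Group G] {q : ℕ}

theorem Mat.ent_mul (x y : Mat q) (i j : Fin q) :
    (x * y).ent i j = ∑ k, x.ent i k * y.ent k j :=
  Matrix.mul_apply (M := (show Matrix (Fin q) (Fin q) ℂ from x))
    (N := (show Matrix (Fin q) (Fin q) ℂ from y))

theorem Mat.ent_add (x y : Mat q) (i j : Fin q) :
    (x + y).ent i j = x.ent i j + y.ent i j := rfl

theorem Mat.ent_smul (c : ℂ) (x : Mat q) (i j : Fin q) :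
    (c • x).ent i j = c * x.ent i j := rfl

theorem Mat.ext {x y : Mat q} (h : ∀ i j, x.ent i j = y.ent i j) : x = y :=
  Matrix.ext h

/-- entries as continuous linear maps -/
noncomputable def entL (i j : Fin q) : Mat q →L[ℂ] ℂ :=
  LinearMap.toContinuousLinearMap
    { toFun := fun x => x.ent i j
      map_add' := fun _ _ => rfl
      map_smul' := fun _ _ => rfl }

theorem entL_apply (i j : Fin q) (x : Mat q) : entL i j x = x.ent i j := rfl

/-- trace as a continuous linear map -/
noncomputable def trL (q : ℕ) : Mat q →L[ℂ] ℂ := ∑ i, entL i i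

theorem trL_apply (x : Mat q) : trL q x = ∑ i, x.ent i i := by
  unfold trL
  rw [sum_apply]
  rfl

theorem trL_comm (x y : Mat q) : trL q (x * y) = trL q (y * x) := by
  rw [trL_apply, trL_apply]
  simp_rw [Mat.ent_mul]
  rw [Finset.sum_comm]
  refine Finset.sum_congr rfl fun i _ => Finset.sum_congr rfl fun j _ => mul_comm _ _

/-- matrix units -/
def Mat.unit (i j : Fin q) : Mat q := (Matrix.single i j (1 : ℂ) : Matrix (Fin q) (Fin q) ℂ)

theorem Mat.eq_sum (x : Fin q → Fin q → ℂ) : Mat.mk x = ∑ i, ∑ j, x i j • Mat.unit i j := by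
  have := Matrix.matrix_eq_sum_single (Matrix.of x)
  refine this.trans ?_
  refine Finset.sum_congr rfl fun i _ => Finset.sum_congr rfl fun j _ => ?_
  show _ = x i j • (Matrix.single i j (1 : ℂ) : Matrix (Fin q) (Fin q) ℂ)
  rw [Matrix.smul_single]
  simp

theorem summable_mat {e : Fin q → Fin q → G → ℂ} (h : ∀ i j, Summable fun g => ‖e i j g‖) :
    Summable fun g => ‖Mat.mk fun i j => e i j g‖ := by
  have h1 : Summable fun g => ∑ i : Fin q, ∑ j : Fin q, ‖e i j g‖ * ‖(Mat.unit i j : Mat q)‖ :=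
    summable_sum fun i _ => summable_sum fun j _ => (h i j).mul_right _
  refine h1.of_nonneg_of_le (fun _ => norm_nonneg _) fun g => ?_
  rw [Mat.eq_sum]
  refine (norm_sum_le _ _).trans (Finset.sum_le_sum fun i _ => ?_)
  refine (norm_sum_le _ _).trans (Finset.sum_le_sum fun j _ => ?_)
  rw [norm_smul]

/-- the element of `ℓ¹(G; M_q)` attached to a matrix of functions -/
noncomputable def toL1 (e : Fin q → Fin q → G → ℂ) (h : ∀ i j, Summable fun g => ‖e i j g‖) :
    L1 G (Mat q) :=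
  L1.mk (fun g => Mat.mk fun i j => e i j g) (summable_mat h)

theorem toL1_apply (e : Fin q → Fin q → G → ℂ) (h : ∀ i j, Summable fun g => ‖e i j g‖)
    (g : G) (i j : Fin q) : ((toL1 e h) g).ent i j = e i j g := rfl

theorem L1.summable_entry (a b : L1 G (Mat q)) (g : G) (i j k : Fin q) :
    Summable fun h => (a h).ent i k * (b (h⁻¹ * g)).ent k j := by
  have h2 : Summable fun h => ‖a h‖ * ‖b (h⁻¹ * g)‖ :=
    (a.summable_conv_norm b).prod_symm.prod_factor g
  apply Summable.of_norm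
  refine (h2.mul_left (‖entL i k‖ * ‖entL k j‖)).of_nonneg_of_le (fun _ => norm_nonneg _) ?_
  intro h
  have h3 : ‖(a h).ent i k‖ ≤ ‖entL i k‖ * ‖a h‖ := (entL i k).le_opNorm (a h)
  have h4 : ‖(b (h⁻¹ * g)).ent k j‖ ≤ ‖entL k j‖ * ‖b (h⁻¹ * g)‖ := (entL k j).le_opNorm _
  rw [norm_mul]
  calc ‖(a h).ent i k‖ * ‖(b (h⁻¹ * g)).ent k j‖
      ≤ (‖entL i k‖ * ‖a h‖) * (‖entL k j‖ * ‖b (h⁻¹ * g)‖) := by gcongr
    _ = _ := by ring

theorem L1.mul_entry (a b : L1 G (Mat q)) (g : G) (i j : Fin q) :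
    ((a * b) g).ent i j = ∑ k, ∑' h, (a h).ent i k * (b (h⁻¹ * g)).ent k j := by
  rw [← entL_apply, L1.mul_apply, (entL i j).map_tsum (a.summable_conv_apply b g),
    ← Summable.tsum_finsetSum (fun k _ => L1.summable_entry a b g i j k)]
  refine tsum_congr fun h => ?_
  rw [entL_apply, Mat.ent_mul]

theorem toL1_idem {e : Fin q → Fin q → G → ℂ} (h : IsIdempotentL1 e) :
    toL1 e h.summable * toL1 e h.summable = toL1 e h.summable := by
  apply L1.ext
  intro g
  apply Mat.ext
  intro i j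
  rw [L1.mul_entry]
  exact h.idem i j g

theorem cls_eq (g : G) : cls g = {x | ConjClasses.mk x = ConjClasses.mk g} := by
  ext x
  simp only [cls, Set.mem_ofPred_eq, ConjClasses.mk_eq_mk_iff_isConj, isConj_iff]
  constructor
  · rintro ⟨k, rfl⟩
    exact ⟨k⁻¹, by group⟩
  · rintro ⟨k, hk⟩
    exact ⟨k⁻¹, by rw [← hk]; group⟩

theorem hsCoeff_eq_tr (e : Fin q → Fin q → G → ℂ) (h : ∀ i j, Summable fun g => ‖e i j g‖)
    (g : G) : hsCoeff e (ConjClasses.mk g) = L1.tr (trL q) (cls g) (toL1 e h) := by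
  unfold hsCoeff L1.tr
  rw [cls_eq]
  have := tsum_subtype (s := {x : G | ConjClasses.mk x = ConjClasses.mk g})
    (f := fun x => ∑ i, e i i x)
  refine Eq.trans this ?_
  refine tsum_congr fun x => ?_
  by_cases hx : x ∈ {x : G | ConjClasses.mk x = ConjClasses.mk g}
  · rw [Set.indicator_of_mem hx, ind_of_mem hx, one_mul, trL_apply]; rfl
  · rw [Set.indicator_of_notMem hx, ind_of_notMem hx, zero_mul]

/-- **Centraliser criterion** in the language of the problem. -/
theorem hsCoeff_eq_zero_of_controlled (g : G) (hg : Controlled g)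
    (e : Fin q → Fin q → G → ℂ) (he : IsIdempotentL1 e) :
    hsCoeff e (ConjClasses.mk g) = 0 := by
  rw [hsCoeff_eq_tr e he.summable]
  exact tr_eq_zero_of_controlled (trL q) trL_comm g hg _ (toL1_idem he)

end Vale.Agent.H18
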