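import Mathlib
import Vale.Agent.H18.P184Bridge
import Vale.Agent.H18.FreeProdLen
import Vale.Agent.H18.L1Eig

/-!
# Consequences for P184: linear representations and free products
-/

set_option linter.unusedSectionVars false

namespace Vale.Agent.H18

open Vale.Agent.P184 Monoid Monoid.CoprodI

section General

variable {G : Type*} [Group G] {q : ℕ}

/-- the matrix of functions attached to an element of `ℓ¹(G; M_q)` -/
noncomputable def fromL1 (a : L1 G (Mat q)) : Fin q → Fin q → G → ℂ := fun i j g => (a g).ent i j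

theorem fromL1_summable (a : L1 G (Mat q)) (i j : Fin q) :
    Summable fun g => ‖fromL1 a i j g‖ := by
  refine (a.summable_norm.mul_left ‖entL (q := q) i j‖).of_nonneg_of_le (fun _ => norm_nonneg _) ?_
  intro g
  exact (entL i j).le_opNorm (a g)

theorem fromL1_idem {a : L1 G (Mat q)} (h : a * a = a) : IsIdempotentL1 (fromL1 a) where
  summable := fromL1_summable a
  idem i j g := by
    have := L1.mul_entry a a g i j
    rw [h] at this
    exact this.symm

theorem toL1_fromL1 (a : L1 G (Mat q)) : toL1 (fromL1 a) (fromL1_summable a) = a := by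
  apply L1.ext
  intro g
  apply Mat.ext
  intro i j
  rfl

theorem hsCoeff_fromL1 (a : L1 G (Mat q)) (g : G) :
    hsCoeff (fromL1 a) (ConjClasses.mk g) = L1.tr (trL q) (cls g) a := by
  rw [hsCoeff_eq_tr _ (fromL1_summable a), toL1_fromL1]

/-- **Local criterion** in the language of the problem. -/
theorem hsCoeff_eq_zero_of_locally_controlled (g : G)
    (hg : ∀ H : Subgroup G, H.FG → ∀ x : H, IsConj g x.1 → Controlled x)
    (e : Fin q → Fin q → G → ℂ) (he : IsIdempotentL1 e) :
    hsCoeff e (ConjClasses.mk g) = 0 := by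
  rw [hsCoeff_eq_tr e he.summable]
  refine tr_eq_zero_of_locally_controlled (trL q) trL_comm g ?_ _ (toL1_idem he)
  rintro H hH x ⟨k, hk⟩
  exact hg H hH x (isConj_iff.2 ⟨k, hk.symm⟩)

/-- Vanishing at elements having a linear representation in which no power is unipotent. -/
theorem hsCoeff_eq_zero_of_linear {F : Type*} [Field F] {n : ℕ} (ρ : G →* GL (Fin n) F) (g : G)
    (h : ∀ k : ℕ, 0 < k → ¬ IsNilpotent ((ρ g : Matrix (Fin n) (Fin n) F) ^ k - 1))
    (e : Fin q → Fin q → G → ℂ) (he : IsIdempotentL1 e) :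
    hsCoeff e (ConjClasses.mk g) = 0 := by
  refine hsCoeff_eq_zero_of_locally_controlled g ?_ e he
  intro H hH x hx
  have hfg : Group.FG H := (Group.fg_iff_subgroup_fg H).2 hH
  obtain ⟨k, hk⟩ := isConj_iff.1 hx
  have h' : ∀ m : ℕ, 0 < m → ¬ IsNilpotent ((ρ x.1 : Matrix (Fin n) (Fin n) F) ^ m - 1) := by
    intro m hm hnil
    apply h m hm
    obtain ⟨N, hN⟩ := hnil
    refine ⟨N, ?_⟩
    have hconj : ((ρ g : Matrix (Fin n) (Fin n) F) ^ m - 1) =
        (ρ k⁻¹ : Matrix (Fin n) (Fin n) F) * ((ρ x.1 : Matrix (Fin n) (Fin n) F) ^ m - 1) *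
          (ρ k : Matrix (Fin n) (Fin n) F) := by
      rw [mul_sub, sub_mul, mul_one]
      have e1 : (ρ k⁻¹ : Matrix (Fin n) (Fin n) F) * (ρ k : Matrix (Fin n) (Fin n) F) = 1 := by
        rw [← Units.val_mul, ← map_mul]; simp
      have e2 : (ρ k⁻¹ : Matrix (Fin n) (Fin n) F) * (ρ x.1 : Matrix (Fin n) (Fin n) F) ^ m *
          (ρ k : Matrix (Fin n) (Fin n) F) = (ρ g : Matrix (Fin n) (Fin n) F) ^ m := by
        rw [← Units.val_pow_eq_pow_val, ← Units.val_pow_eq_pow_val, ← Units.val_mul,
          ← Units.val_mul, ← map_pow, ← map_pow, ← map_mul, ← map_mul]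
        congr 2
        rw [← hk, conj_pow]; group
      rw [e1, e2]
    have hpow : ∀ N : ℕ, ((ρ k⁻¹ : Matrix (Fin n) (Fin n) F) *
        ((ρ x.1 : Matrix (Fin n) (Fin n) F) ^ m - 1) * (ρ k : Matrix (Fin n) (Fin n) F)) ^ N =
        (ρ k⁻¹ : Matrix (Fin n) (Fin n) F) *
        ((ρ x.1 : Matrix (Fin n) (Fin n) F) ^ m - 1) ^ N * (ρ k : Matrix (Fin n) (Fin n) F) := by
      intro N
      have e1 : (ρ k⁻¹ : Matrix (Fin n) (Fin n) F) * (ρ k : Matrix (Fin n) (Fin n) F) = 1 := by
        rw [← Units.val_mul, ← map_mul]; simp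
      have e3 : (ρ k : Matrix (Fin n) (Fin n) F) * (ρ k⁻¹ : Matrix (Fin n) (Fin n) F) = 1 := by
        rw [← Units.val_mul, ← map_mul]; simp
      induction N with
      | zero => simp [e1]
      | succ N ih =>
        rw [pow_succ, ih, pow_succ]
        simp only [mul_assoc]
        rw [← mul_assoc (ρ k : Matrix (Fin n) (Fin n) F), e3, one_mul]
    rw [hconj, hpow, hN, mul_zero, zero_mul]
  obtain ⟨μ, hμ, hdet⟩ := exists_eigenvalue (ρ x.1 : Matrix (Fin n) (Fin n) F) h'
  let ρ' : H →* Matrix (Fin n) (Fin n) (AlgebraicClosure F) :=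
    ((algebraMap F (AlgebraicClosure F)).mapMatrix.toMonoidHom.comp
      ((Units.coeHom _).comp ρ)).comp H.subtype
  exact controlled_of_eigenvalue ρ' x μ hμ hdet

/-- Positive characteristic: vanishing at every element of infinite image. -/
theorem hsCoeff_eq_zero_of_linear_charP {F : Type*} [Field F] (p : ℕ) [Fact p.Prime] [CharP F p]
    {n : ℕ} (ρ : G →* GL (Fin n) F) (g : G) (h : ¬ IsOfFinOrder (ρ g))
    (e : Fin q → Fin q → G → ℂ) (he : IsIdempotentL1 e) :
    hsCoeff e (ConjClasses.mk g) = 0 := by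
  refine hsCoeff_eq_zero_of_linear ρ g ?_ e he
  intro k hk hnil
  apply h
  obtain ⟨N, hN⟩ := hnil
  obtain ⟨m, hm⟩ : ∃ m : ℕ, N ≤ p ^ m := ⟨N, (Nat.lt_pow_self (Fact.out : p.Prime).one_lt).le⟩
  have h1 : ((ρ g : Matrix (Fin n) (Fin n) F) ^ k - 1) ^ (p ^ m) = 0 := by
    obtain ⟨r, hr⟩ := Nat.exists_eq_add_of_le hm
    rw [hr, pow_add, hN, zero_mul]
  have h2 : ((ρ g : Matrix (Fin n) (Fin n) F) ^ k) ^ (p ^ m) - 1 = 0 := by
    rcases Nat.eq_zero_or_pos n with hn | hn
    · subst hn
      exact Subsingleton.elim _ _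
    · have : Nonempty (Fin n) := ⟨⟨0, hn⟩⟩
      have hc : CharP (Matrix (Fin n) (Fin n) F) p := Matrix.charP p
      have h3 := sub_pow_char_pow_of_commute p (R := Matrix (Fin n) (Fin n) F)
        (x := (ρ g : Matrix (Fin n) (Fin n) F) ^ k) (y := 1) (n := m) (Commute.one_right _)
      rw [h1, one_pow] at h3
      exact h3.symm
  rw [isOfFinOrder_iff_pow_eq_one]
  refine ⟨k * p ^ m, Nat.mul_pos hk (pow_pos (Fact.out : p.Prime).pos m), ?_⟩
  apply Units.ext
  rw [Units.val_pow_eq_pow_val, pow_mul]
  exact sub_eq_zero.1 h2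

end General

section Free

variable {ι : Type*} {G : ι → Type*} [∀ i, Group (G i)]

open Classical in
/-- the retraction onto a factor -/
noncomputable def retr (i : ι) : CoprodI G →* G i :=
  CoprodI.lift (Pi.mulSingle i (MonoidHom.id (G i)))

theorem retr_of_same (i : ι) (a : G i) : retr i (of a) = a := by
  classical
  unfold retr
  rw [lift_of, Pi.mulSingle_eq_same]; rfl

theorem retr_of_ne {i j : ι} (h : j ≠ i) (a : G j) : retr i (of a) = 1 := by
  classical
  unfold retr
  rw [lift_of, Pi.mulSingle_eq_of_ne h]; rfl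

/-- trace of the retraction at a nontrivial class -/
theorem tr_retr {q : ℕ} (i : ι) (a : G i) (ha : a ≠ 1) (E : L1 (CoprodI G) (Mat q))
    (hE : E * E = E) :
    L1.tr (trL q) (cls a) (L1.push (retr i) E) =
      L1.tr (trL q) (cls (of a : CoprodI G)) E := by
  rw [L1.tr_push]
  set D : Set (CoprodI G) := (retr i) ⁻¹' (cls a) with hD
  set D' : Set (CoprodI G) := D \ cls (of a : CoprodI G) with hD'
  have hsub : cls (of a : CoprodI G) ⊆ D := by
    rintro x ⟨k, rfl⟩
    exact ⟨retr i k, by rw [map_mul, map_mul, map_inv, retr_of_same]⟩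
  have hsplit : L1.tr (trL q) D E = L1.tr (trL q) (cls (of a : CoprodI G)) E +
      L1.tr (trL q) D' E := by
    unfold L1.tr
    rw [← Summable.tsum_add (L1.tr_summable_norm _ _ E).of_norm
      (L1.tr_summable_norm _ _ E).of_norm]
    refine tsum_congr fun x => ?_
    by_cases h1 : x ∈ cls (of a : CoprodI G)
    · have h3 : x ∉ D' := fun h => h.2 h1
      rw [ind_of_mem (hsub h1), ind_of_mem h1, ind_of_notMem h3]; ring
    · by_cases h2 : x ∈ D
      · have h3 : x ∈ D' := ⟨h2, h1⟩
        rw [ind_of_mem h2, ind_of_notMem h1, ind_of_mem h3]; ring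
      · have h3 : x ∉ D' := fun h => h2 h.1
        rw [ind_of_notMem h2, ind_of_notMem h1, ind_of_notMem h3]; ring
  rw [hsplit]
  have hzero : L1.tr (trL q) D' E = 0 := by
    apply L1.tr_eq_zero_of_classes
    · rintro x ⟨⟨k, hk⟩, hx2⟩ k'
      refine ⟨⟨retr i k' * k, ?_⟩, ?_⟩
      · rw [map_mul, map_mul, map_inv, hk]; group
      · rintro ⟨k'', hk''⟩
        apply hx2
        refine ⟨k'⁻¹ * k'', ?_⟩
        calc x = k'⁻¹ * (k' * x * k'⁻¹) * k' := by group
          _ = k'⁻¹ * k'' * of a * (k'⁻¹ * k'')⁻¹ := by rw [hk'']; group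
    · rintro x ⟨⟨k, hk⟩, hx2⟩
      refine tr_eq_zero_of_controlled (trL q) trL_comm x (controlled_of_hyperbolic x ?_ ?_) E hE
      · rintro rfl
        rw [map_one] at hk
        apply ha
        calc a = k⁻¹ * (k * a * k⁻¹) * k := by group
          _ = 1 := by rw [← hk]; group
      · intro j b hb
        obtain ⟨c, hc⟩ := isConj_iff.1 hb
        by_cases hji : j = i
        · subst hji
          have h3 := congrArg (retr j) hc
          rw [map_mul, map_mul, map_inv, retr_of_same, hk] at h3
          apply hx2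
          refine ⟨c⁻¹ * of (retr j c * k), ?_⟩
          have hx : x = c⁻¹ * of b * c := by rw [← hc]; group
          rw [hx, ← h3]
          simp only [map_mul, map_inv]
          group
        · have h3 := congrArg (retr i) hc
          rw [map_mul, map_mul, map_inv, retr_of_ne hji, hk] at h3
          apply ha
          calc a = (retr i c * k)⁻¹ * (retr i c * (k * a * k⁻¹) * (retr i c)⁻¹) *
                (retr i c * k) := by group
            _ = 1 := by rw [h3]; group
  rw [hzero, add_zero]

/-- a finitely generated subgroup only involves finitely many factors -/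
theorem exists_finset_retr (H : Subgroup (CoprodI G)) (hH : H.FG) :
    ∃ J : Finset ι, ∀ i ∉ J, ∀ x ∈ H, retr i x = 1 := by
  classical
  have h1 : ∀ x : CoprodI G, ∃ J : Finset ι, ∀ i ∉ J, retr i x = 1 := by
    intro x
    induction x using CoprodI.induction_on with
    | one => exact ⟨∅, fun i _ => map_one _⟩
    | of j m => exact ⟨{j}, fun i hi => retr_of_ne (by simpa [eq_comm] using hi) m⟩
    | mul x y hx hy =>
      obtain ⟨J, hJ⟩ := hx
      obtain ⟨J', hJ'⟩ := hy
      refine ⟨J ∪ J', fun i hi => ?_⟩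
      simp only [Finset.mem_union, not_or] at hi
      rw [map_mul, hJ i hi.1, hJ' i hi.2, one_mul]
  choose J hJ using h1
  obtain ⟨S, hS⟩ := hH
  refine ⟨S.biUnion J, fun i hi x hx => ?_⟩
  rw [← hS] at hx
  have : H ≤ (retr (G := G) i).ker := by
    rw [← hS, Subgroup.closure_le]
    intro s hs
    have : i ∉ J s := fun h => hi (Finset.mem_biUnion.2 ⟨s, hs, h⟩)
    exact MonoidHom.mem_ker.2 (hJ s i this)
  rw [hS] at hx
  exact MonoidHom.mem_ker.1 (this hx)

/-- **The `ℓ¹`-Bass property is closed under free products.** -/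
theorem l1Bass_coprodI (h : ∀ i, L1Bass (G i)) : L1Bass (CoprodI G) := by
  classical
  intro q e he
  set E := toL1 e he.summable with hE
  have hEE : E * E = E := toL1_idem he
  -- the finite sets for the factors
  have hi : ∀ i, IsIdempotentL1 (fromL1 (L1.push (retr i) E)) := fun i =>
    fromL1_idem (by rw [← L1.push_mul, hEE])
  choose Fi hF1 hF2 using fun i => h i q _ (hi i)
  obtain ⟨H, hH, E', hE', htr⟩ := exists_fg_idem E hEE
  obtain ⟨J, hJ⟩ := exists_finset_retr H hH
  refine ⟨insert (ConjClasses.mk 1) (J.biUnion fun i => (Fi i).image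
    (ConjClasses.map (of : G i →* CoprodI G))), ?_, ?_⟩
  · intro g hg
    rw [Finset.mem_insert] at hg
    rcases hg with hg | hg
    · rw [ConjClasses.mk_eq_mk_iff_isConj, isConj_iff] at hg
      obtain ⟨c, hc⟩ := hg
      have : g = 1 := by
        calc g = c⁻¹ * (c * g * c⁻¹) * c := by group
          _ = 1 := by rw [hc]; group
      rw [this]; exact IsOfFinOrder.one
    · simp only [Finset.mem_biUnion, Finset.mem_image] at hg
      obtain ⟨i, -, C, hC, hCg⟩ := hg
      obtain ⟨a, rfl⟩ := ConjClasses.exists_rep C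
      have ha := hF1 i a hC
      have hga : IsConj (of a : CoprodI G) g := ConjClasses.mk_eq_mk_iff_isConj.1 hCg
      obtain ⟨c, hc⟩ := isConj_iff.1 hga
      rw [← hc, isOfFinOrder_iff_pow_eq_one]
      obtain ⟨n, hn, han⟩ := isOfFinOrder_iff_pow_eq_one.1 ha
      refine ⟨n, hn, ?_⟩
      rw [conj_pow, ← map_pow, han, map_one]; group
  · intro C hC
    obtain ⟨g, rfl⟩ := ConjClasses.exists_rep C
    rw [Finset.mem_insert, not_or] at hC
    rw [hsCoeff_eq_tr e he.summable]
    by_cases hg1 : g = 1
    · exact absurd (by rw [hg1]) hC.1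
    by_cases hell : ∃ (i : ι) (a : G i), IsConj g (of a)
    · obtain ⟨i, a, hga⟩ := hell
      have hmk : ConjClasses.mk g = ConjClasses.mk (of a : CoprodI G) :=
        ConjClasses.mk_eq_mk_iff_isConj.2 hga
      have hcls : cls g = cls (of a : CoprodI G) := by rw [cls_eq, cls_eq, hmk]
      have ha1 : a ≠ 1 := by
        rintro rfl
        rw [map_one] at hmk
        exact hC.1 hmk
      rw [hcls]
      by_cases hiJ : i ∈ J
      · rw [← tr_retr i a ha1 E hEE, ← hsCoeff_fromL1]
        apply hF2 i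
        intro hmem
        apply hC.2
        simp only [Finset.mem_biUnion, Finset.mem_image]
        exact ⟨i, hiJ, ConjClasses.mk a, hmem, hmk.symm⟩
      · have := htr (trL q) trL_comm (cls (of a : CoprodI G)) (cls_comm _)
        rw [this]
        have hempty : H.subtype ⁻¹' (cls (of a : CoprodI G)) = ∅ := by
          ext x
          simp only [Set.mem_preimage, Set.mem_empty_iff_false, iff_false]
          rintro ⟨k, hk⟩
          have h1 := hJ i hiJ x.1 x.2
          have h2 := congrArg (retr i) hk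
          rw [map_mul, map_mul, map_inv, retr_of_same] at h2
          have h3 : retr i (H.subtype x) = 1 := h1
          rw [h3] at h2
          apply ha1
          calc a = (retr i k)⁻¹ * (retr i k * a * (retr i k)⁻¹) * retr i k := by group
            _ = 1 := by rw [← h2]; group
        rw [hempty]
        unfold L1.tr
        simp [ind]
    · push Not at hell
      exact tr_eq_zero_of_controlled (trL q) trL_comm g
        (controlled_of_hyperbolic g hg1 hell) E hEE

end Free

end Vale.Agent.H18
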