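import Vale.Agent.H18.RayStep

/-! Adding a commitment. -/

namespace Vale.Agent.H18.Ray

open Set Cardinal
open Vale.Agent.H18.UM

variable {Ω : Type} [LinearOrder Ω]

/-- the trace of `S` on the edge `j` is large -/
def sL (𝒞 : Set (Com Ω)) (j : ℤ) (S : Set P) : Prop :=
  ∃ c ∈ 𝒞, Lg c j ∧ AS (c.B ∩ F j) (S ∩ F j)

/-- the trace of `S` on the edge `j` is small -/
def sS (𝒞 : Set (Com Ω)) (j : ℤ) (S : Set P) : Prop :=
  ∃ c ∈ 𝒞, Sm c j ∧ AS (S ∩ F j) (c.B ∩ F j)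

lemma sL_sS {𝒞 : Set (Com Ω)} (h : OK 𝒞) {j : ℤ} {S : Set P} (h1 : sL 𝒞 j S) (h2 : sS 𝒞 j S) :
    False := by
  obtain ⟨c, hc, hcL, hcS⟩ := h1
  obtain ⟨c', hc', hc'L, hc'S⟩ := h2
  exact h.o2 c hc c' hc' j hcL hc'L (hcS.trans hc'S)

omit [LinearOrder Ω] in
lemma sL.mono {𝒞 : Set (Com Ω)} {j : ℤ} {S T : Set P} (h : sL 𝒞 j S) (hST : S ⊆ T) :
    sL 𝒞 j T := by
  obtain ⟨c, hc, hcL, hcS⟩ := h
  exact ⟨c, hc, hcL, hcS.trans (AS.of_subset (inter_subset_inter_left _ hST))⟩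

omit [LinearOrder Ω] in
lemma sS.anti {𝒞 : Set (Com Ω)} {j : ℤ} {S T : Set P} (h : sS 𝒞 j T) (hST : S ⊆ T) :
    sS 𝒞 j S := by
  obtain ⟨c, hc, hcL, hcS⟩ := h
  exact ⟨c, hc, hcL, (AS.of_subset (inter_subset_inter_left _ hST)).trans hcS⟩

lemma add_true {𝒞 : Set (Com Ω)} (hOK : OK 𝒞) {v : ℤ} {G B H : Set P} (hg : Gen 𝒞 v G B H)
    (hH : H ⊆ Ev v) (r : Ω)
    (a1 : ∀ c ∈ 𝒞, c.v = v → ¬ AS H c.B) (a2 : ∀ c ∈ 𝒞, c.v = v → ¬ AS c.B G)
    (b1 : ¬ sS 𝒞 (inn v) H) (b2 : ¬ sL 𝒞 (out v) G)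
    (c1 : ∀ c ∈ 𝒞, inn c.v = out v → c.lam = false →
      AS (c.B ∩ F (out v)) (G ∩ F (out v)) → c.rk < r)
    (c2 : ∀ c ∈ 𝒞, out c.v = inn v → c.lam = false →
      AS (c.B ∩ F (inn v)) (G ∩ F (inn v)) → r < c.rk)
    (d1 : (H ∩ F (inn v)).Infinite) (d2 : (F (out v) \ G).Infinite) :
    OK (insert (⟨v, B, true, r⟩ : Com Ω) 𝒞) where
  sub := by
    rintro c (rfl | hc)
    · exact hg.ge.trans hH
    · exact hOK.sub c hc
  o1 := by
    rintro c (rfl | hc) c' (rfl | hc') hv hAS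
    · rfl
    · exact absurd (hg.up c' hc' hAS) (a1 c' hc' hv.symm)
    · exact absurd (hg.dn c hc hAS) (a2 c hc hv)
    · exact hOK.o1 c hc c' hc' hv hAS
  o2 := by
    rintro c (rfl | hc) c' (rfl | hc') j hL hS hAS
    · rcases hL with ⟨rfl, -⟩ | ⟨-, h⟩
      · rcases hS with ⟨-, h⟩ | ⟨h, -⟩
        · simp at h
        · exact inn_ne_out _ h
      · simp at h
    · rcases hL with ⟨rfl, -⟩ | ⟨-, h⟩
      · exact b1 ⟨c', hc', hS, hg.upt _ (Or.inl rfl) c' hc' hAS⟩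
      · simp at h
    · rcases hS with ⟨-, h⟩ | ⟨rfl, -⟩
      · simp at h
      · exact b2 ⟨c, hc, hL, hg.dnt _ (Or.inr rfl) c hc hAS⟩
    · exact hOK.o2 c hc c' hc' j hL hS hAS
  o3 := by
    rintro c (rfl | hc) c' (rfl | hc') he hl hl' hAS
    · simp at hl
    · simp at hl
    · simp only at he hAS
      rw [he] at hAS
      exact c2 c hc he hl (hg.dnt _ (Or.inl rfl) c hc hAS)
    · exact hOK.o3 c hc c' hc' he hl hl' hAS
  o3' := by
    rintro c (rfl | hc) c' (rfl | hc') he hl hl' hAS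
    · simp at hl'
    · exact c1 c' hc' he.symm hl' (hg.dnt _ (Or.inr rfl) c' hc' hAS)
    · simp at hl'
    · exact hOK.o3' c hc c' hc' he hl hl' hAS
  o4 := by
    rintro c (rfl | hc) j hL
    · rcases hL with ⟨rfl, -⟩ | ⟨-, h⟩
      · exact hg.inf _ (Or.inl rfl) d1
      · simp at h
    · exact hOK.o4 c hc j hL
  o4' := by
    rintro c (rfl | hc) j hS
    · rcases hS with ⟨-, h⟩ | ⟨rfl, -⟩
      · simp at h
      · exact hg.coinf _ (Or.inr rfl) d2
    · exact hOK.o4' c hc j hS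

lemma add_false {𝒞 : Set (Com Ω)} (hOK : OK 𝒞) {v : ℤ} {G B H : Set P} (hg : Gen 𝒞 v G B H)
    (hH : H ⊆ Ev v) (r : Ω)
    (a1 : ∀ c ∈ 𝒞, c.v = v → ¬ AS H c.B) (a2 : ∀ c ∈ 𝒞, c.v = v → ¬ AS c.B G)
    (b1 : ¬ sL 𝒞 (inn v) G) (b2 : ¬ sS 𝒞 (out v) H)
    (c1 : ∀ c ∈ 𝒞, inn c.v = out v → c.lam = true →
      AS (H ∩ F (out v)) (c.B ∩ F (out v)) → c.rk < r)
    (c2 : ∀ c ∈ 𝒞, out c.v = inn v → c.lam = true →
      AS (H ∩ F (inn v)) (c.B ∩ F (inn v)) → r < c.rk)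
    (d1 : (F (inn v) \ G).Infinite) (d2 : (H ∩ F (out v)).Infinite) :
    OK (insert (⟨v, B, false, r⟩ : Com Ω) 𝒞) where
  sub := by
    rintro c (rfl | hc)
    · exact hg.ge.trans hH
    · exact hOK.sub c hc
  o1 := by
    rintro c (rfl | hc) c' (rfl | hc') hv hAS
    · rfl
    · exact absurd (hg.up c' hc' hAS) (a1 c' hc' hv.symm)
    · exact absurd (hg.dn c hc hAS) (a2 c hc hv)
    · exact hOK.o1 c hc c' hc' hv hAS
  o2 := by
    rintro c (rfl | hc) c' (rfl | hc') j hL hS hAS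
    · rcases hL with ⟨-, h⟩ | ⟨rfl, -⟩
      · simp at h
      · rcases hS with ⟨h, -⟩ | ⟨-, h⟩
        · exact inn_ne_out _ h.symm
        · simp at h
    · rcases hL with ⟨-, h⟩ | ⟨rfl, -⟩
      · simp at h
      · exact b2 ⟨c', hc', hS, hg.upt _ (Or.inr rfl) c' hc' hAS⟩
    · rcases hS with ⟨rfl, -⟩ | ⟨-, h⟩
      · exact b1 ⟨c, hc, hL, hg.dnt _ (Or.inl rfl) c hc hAS⟩
      · simp at h
    · exact hOK.o2 c hc c' hc' j hL hS hAS
  o3 := by
    rintro c (rfl | hc) c' (rfl | hc') he hl hl' hAS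
    · simp at hl'
    · exact c1 c' hc' he.symm hl' (hg.upt _ (Or.inr rfl) c' hc' hAS)
    · simp at hl'
    · exact hOK.o3 c hc c' hc' he hl hl' hAS
  o3' := by
    rintro c (rfl | hc) c' (rfl | hc') he hl hl' hAS
    · simp at hl
    · simp at hl
    · simp only at he hAS
      rw [he] at hAS
      exact c2 c hc he hl (hg.upt _ (Or.inl rfl) c hc hAS)
    · exact hOK.o3' c hc c' hc' he hl hl' hAS
  o4 := by
    rintro c (rfl | hc) j hL
    · rcases hL with ⟨-, h⟩ | ⟨rfl, -⟩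
      · simp at h
      · exact hg.inf _ (Or.inr rfl) d2
    · exact hOK.o4 c hc j hL
  o4' := by
    rintro c (rfl | hc) j hS
    · rcases hS with ⟨rfl, -⟩ | ⟨-, h⟩
      · exact hg.coinf _ (Or.inl rfl) d1
      · simp at h
    · exact hOK.o4' c hc j hS

omit [LinearOrder Ω] in
lemma AS_inter_of_AS {A B : Set P} (h : AS A B) (j : ℤ) : AS (A ∩ F j) (B ∩ F j) := by
  refine h.subset ?_
  rintro x ⟨⟨hx, hxF⟩, hn⟩
  exact ⟨hx, fun hB => hn ⟨hB, hxF⟩⟩

/-- **The step lemma.** -/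
theorem step (hR : Reap) {𝒞 : Set (Com Ω)} (hOK : OK 𝒞) (hcard : #𝒞 < 𝔠)
    (hI : ∀ v, (∃ c ∈ 𝒞, c.v = v ∧ c.lam = true) ∧ (∃ c ∈ 𝒞, c.v = v ∧ c.lam = false))
    (r : Ω) (hr : ∀ c ∈ 𝒞, c.rk < r) (v : ℤ) {X X' : Set P} (hXX : X ⊆ X') (hX' : X' ⊆ Ev v) :
    Ful 𝒞 v X X' ∨ ∃ c : Com Ω, c.rk ≤ r ∧ OK (insert c 𝒞) ∧ Ful (insert c 𝒞) v X X' := by
  by_cases hF : Ful 𝒞 v X X'
  · exact Or.inl hF
  right
  have n1 : ∀ c ∈ 𝒞, c.v = v → ¬ AS X' c.B := fun c hc hv h => hF (Or.inl ⟨c, hc, hv, h⟩)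
  have n2 : ∀ c ∈ 𝒞, c.v = v → ¬ AS c.B X := fun c hc hv h => hF (Or.inr (Or.inl ⟨c, hc, hv, h⟩))
  -- representatives
  obtain ⟨⟨ct, hct, hctv, hctl⟩, ⟨cf, hcf, hcfv, hcfl⟩⟩ := hI v
  have ctL : Lg ct (inn v) := Or.inl ⟨by rw [hctv], hctl⟩
  have ctS : Sm ct (out v) := Or.inr ⟨by rw [hctv], hctl⟩
  have cfS : Sm cf (inn v) := Or.inl ⟨by rw [hcfv], hcfl⟩
  have cfL : Lg cf (out v) := Or.inr ⟨by rw [hcfv], hcfl⟩
  -- basic infinite facts
  have infL : ∀ {j S}, sL 𝒞 j S → (S ∩ F j).Infinite := by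
    rintro j S ⟨c, hc, hL, hAS⟩ hfin
    refine hOK.o4 c hc j hL ((hAS.union hfin).subset ?_)
    intro x hx
    by_cases hxS : x ∈ S ∩ F j
    · exact Or.inr hxS
    · exact Or.inl ⟨hx, hxS⟩
  have infnS : ∀ {j S}, (∃ c ∈ 𝒞, Sm c j) → ¬ sS 𝒞 j S → (S ∩ F j).Infinite := by
    rintro j S ⟨c, hc, hS⟩ hn hfin
    exact hn ⟨c, hc, hS, hfin.subset sdiff_subset⟩
  have coinfS : ∀ {j S}, sS 𝒞 j S → (F j \ S).Infinite := by
    rintro j S ⟨c, hc, hS, hAS⟩ hfin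
    refine hOK.o4' c hc j hS ((hAS.union hfin).subset ?_)
    rintro x ⟨hx, hxn⟩
    by_cases hxS : x ∈ S
    · exact Or.inl ⟨⟨hxS, hx⟩, fun h => hxn h.1⟩
    · exact Or.inr ⟨hx, hxS⟩
  have coinfnL : ∀ {j S}, (∃ c ∈ 𝒞, Lg c j) → ¬ sL 𝒞 j S → (F j \ S).Infinite := by
    rintro j S ⟨c, hc, hL⟩ hn hfin
    refine hn ⟨c, hc, hL, hfin.subset ?_⟩
    rintro x ⟨⟨-, hx⟩, hxn⟩
    exact ⟨hx, fun h => hxn ⟨h, hx⟩⟩
  by_cases hPL : sL 𝒞 (inn v) X
  · -- case 2
    by_cases hXi : ∃ c ∈ 𝒞, c.v = v ∧ AS X c.B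
    · -- case 2b
      obtain ⟨cp, hcp, hcpv, hcpX⟩ := hXi
      have hlam : cp.lam = true := by
        by_contra hne
        have hl : cp.lam = false := by simpa using hne
        exact sL_sS hOK hPL ⟨cp, hcp, Or.inl ⟨by rw [hcpv], hl⟩, AS_inter_of_AS hcpX _⟩
      have hQS : sS 𝒞 (out v) X :=
        ⟨cp, hcp, Or.inr ⟨by rw [hcpv], hlam⟩, AS_inter_of_AS hcpX _⟩
      obtain ⟨B, hg⟩ := exists_gen hR hcard v hXX
      refine ⟨⟨v, B, true, cp.rk⟩, (hr cp hcp).le, ?_, ?_⟩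
      · refine add_true hOK hg hX' _ n1 n2 (fun h => sL_sS hOK (hPL.mono hXX) h)
          (fun h => sL_sS hOK h hQS) ?_ ?_ (infL (hPL.mono hXX)) (coinfS hQS)
        · intro c hc he hl hAS
          refine hOK.o3' cp hcp c hc (by rw [hcpv, he]) hlam hl ?_
          rw [hcpv]
          exact hAS.trans (AS_inter_of_AS hcpX _)
        · intro c hc he hl hAS
          refine hOK.o3 c hc cp hcp (by rw [hcpv, he]) hl hlam ?_
          rw [he]
          exact hAS.trans (AS_inter_of_AS hcpX _)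
      · exact Or.inr (Or.inr ⟨_, mem_insert _ _, rfl, AS.of_subset hg.le, AS.of_subset hg.ge⟩)
    · -- case 2a
      push Not at hXi
      obtain ⟨B, hg⟩ := exists_gen hR hcard v (empty_subset X)
      refine ⟨⟨v, B, true, r⟩, le_rfl, ?_, ?_⟩
      · refine add_true hOK hg (hXX.trans hX') r (fun c hc hv => hXi c hc hv) ?_
          (fun h => sL_sS hOK hPL h) ?_ (fun c hc _ _ _ => hr c hc) ?_ (infL hPL) ?_
        · intro c hc hv hAS
          have hinf : ∀ j, Lg c j → False := by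
            intro j hL
            refine hOK.o4 c hc j hL (hAS.subset ?_)
            rintro x ⟨hx, -⟩
            exact ⟨hx, notMem_empty x⟩
          rcases hb : c.lam with _ | _
          · exact hinf (out c.v) (Or.inr ⟨rfl, hb⟩)
          · exact hinf (inn c.v) (Or.inl ⟨rfl, hb⟩)
        · intro h
          have := infL h
          simp at this
        · intro c hc he hl hAS
          exfalso
          have := infL (j := inn v) (S := ∅) ⟨c, hc, Or.inr ⟨he.symm, hl⟩, hAS⟩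
          simp at this
        · simpa using F_inf (out v)
      · exact Or.inr (Or.inl ⟨_, mem_insert _ _, rfl, AS.of_subset hg.ge⟩)
  · by_cases hPS : sS 𝒞 (inn v) X'
    · -- case 3
      by_cases hXs : ∃ c ∈ 𝒞, c.v = v ∧ AS c.B X'
      · -- case 3b
        obtain ⟨cm, hcm, hcmv, hcmX⟩ := hXs
        have hlam : cm.lam = false := by
          by_contra hne
          have hl : cm.lam = true := by simpa using hne
          exact sL_sS hOK ⟨cm, hcm, Or.inl ⟨by rw [hcmv], hl⟩, AS_inter_of_AS hcmX _⟩ hPS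
        have hQL : sL 𝒞 (out v) X' :=
          ⟨cm, hcm, Or.inr ⟨by rw [hcmv], hlam⟩, AS_inter_of_AS hcmX _⟩
        obtain ⟨B, hg⟩ := exists_gen hR hcard v hXX
        refine ⟨⟨v, B, false, cm.rk⟩, (hr cm hcm).le, ?_, ?_⟩
        · refine add_false hOK hg hX' _ n1 n2 hPL (fun h => sL_sS hOK hQL h) ?_ ?_
            (coinfS (hPS.anti hXX)) (infL hQL)
          · intro c hc he hl hAS
            refine hOK.o3 cm hcm c hc (by rw [hcmv, he]) hlam hl ?_
            rw [hcmv]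
            exact (AS_inter_of_AS hcmX _).trans hAS
          · intro c hc he hl hAS
            refine hOK.o3' c hc cm hcm (by rw [hcmv, he]) hl hlam ?_
            rw [he]
            exact (AS_inter_of_AS hcmX _).trans hAS
        · exact Or.inr (Or.inr ⟨_, mem_insert _ _, rfl, AS.of_subset hg.le, AS.of_subset hg.ge⟩)
      · -- case 3a
        push Not at hXs
        obtain ⟨B, hg⟩ := exists_gen hR hcard v hX'
        have hin : Ev v ∩ F (inn v) = F (inn v) := by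
          rw [inter_eq_right]; exact subset_union_left
        have hout : Ev v ∩ F (out v) = F (out v) := by
          rw [inter_eq_right]; exact subset_union_right
        have nocof : ∀ j, ∀ c ∈ 𝒞, Sm c j → ¬ AS (F j) (c.B ∩ F j) := by
          intro j c hc hS hAS
          refine hOK.o4' c hc j hS (hAS.subset ?_)
          rintro x ⟨hx, hxn⟩
          exact ⟨hx, fun h => hxn h.1⟩
        refine ⟨⟨v, B, false, r⟩, le_rfl, ?_, ?_⟩
        · refine add_false hOK hg Subset.rfl r ?_ (fun c hc hv => hXs c hc hv)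
            (fun h => sL_sS hOK h hPS) ?_ (fun c hc _ _ _ => hr c hc) ?_ (coinfS hPS) ?_
          · intro c hc hv hAS
            have hno : ∀ j, (j = inn v ∨ j = out v) → Sm c j → False := by
              intro j hj hS
              refine hOK.o4' c hc j hS (hAS.subset ?_)
              rintro x ⟨hx, hxn⟩
              refine ⟨?_, hxn⟩
              rcases hj with rfl | rfl
              · exact Or.inl hx
              · exact Or.inr hx
            rcases hb : c.lam with _ | _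
            · exact hno (inn v) (Or.inl rfl) (Or.inl ⟨by rw [hv], hb⟩)
            · exact hno (out v) (Or.inr rfl) (Or.inr ⟨by rw [hv], hb⟩)
          · rintro ⟨c, hc, hS, hAS⟩
            rw [hout] at hAS
            exact nocof _ c hc hS hAS
          · intro c hc he hl hAS
            exfalso
            rw [hin] at hAS
            exact nocof _ c hc (Or.inr ⟨he.symm, hl⟩) hAS
          · rw [hout]; exact F_inf _
        · exact Or.inl ⟨_, mem_insert _ _, rfl, AS.of_subset hg.le⟩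
    · -- case 1
      obtain ⟨B, hg⟩ := exists_gen hR hcard v hXX
      have ful : ∀ (b : Bool), Ful (insert (⟨v, B, b, r⟩ : Com Ω) 𝒞) v X X' := fun b =>
        Or.inr (Or.inr ⟨_, mem_insert _ _, rfl, AS.of_subset hg.le, AS.of_subset hg.ge⟩)
      by_cases hQ : sL 𝒞 (out v) X
      · refine ⟨⟨v, B, false, r⟩, le_rfl, ?_, ful false⟩
        refine add_false hOK hg hX' r n1 n2 hPL (fun h => sL_sS hOK (hQ.mono hXX) h)
          (fun c hc _ _ _ => hr c hc) ?_ (coinfnL ⟨ct, hct, ctL⟩ hPL) (infL (hQ.mono hXX))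
        intro c hc he hl hAS
        exact absurd ⟨c, hc, Or.inr ⟨he.symm, hl⟩, hAS⟩ hPS
      · refine ⟨⟨v, B, true, r⟩, le_rfl, ?_, ful true⟩
        refine add_true hOK hg hX' r n1 n2 hPS hQ
          (fun c hc _ _ _ => hr c hc) ?_ (infnS ⟨cf, hcf, cfS⟩ hPS) (coinfnL ⟨cf, hcf, cfL⟩ hQ)
        intro c hc he hl hAS
        exact absurd ⟨c, hc, Or.inr ⟨he.symm, hl⟩, hAS⟩ hPL

end Vale.Agent.H18.Ray
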