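import Vale.Agent.H18.RayMain
import Vale.Agent.H18.P068PC

/-! The pair of matroids without an intersection certificate. -/

namespace Vale.Agent.H18.Ray

open Set Cardinal Matroid
open Vale.Agent.H18.UM

variable {𝒞 : Set (Com Rk)}

/-- the matroid at a vertex -/
noncomputable def W (h : Sys 𝒞) (v : ℤ) : Matroid P := umat (fam_UFam h v)

lemma W_ground (h : Sys 𝒞) (v : ℤ) : (W h v).E = Ev v := rfl

lemma W_indep (h : Sys 𝒞) (v : ℤ) {I : Set P} : (W h v).Indep I ↔ IsI (Ev v) (fam 𝒞 v) I := Iff.rfl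

lemma W_isBase (h : Sys 𝒞) (v : ℤ) {I : Set P} : (W h v).IsBase I ↔ IsB (Ev v) (fam 𝒞 v) I :=
  Iff.rfl

lemma W_uniform (h : Sys 𝒞) (v : ℤ) (S : Set P) (hS : S ⊆ (W h v).E) :
    (W h v).Indep S ∨ (W h v).Spanning S := by
  by_cases hI : (W h v).Indep S
  · exact Or.inl hI
  · right
    have h0 : IsI (Ev v) (fam 𝒞 v) ∅ := by
      obtain ⟨B, hB⟩ := (W h v).exists_isBase
      exact ⟨B, hB, empty_subset _⟩
    obtain ⟨A, hA, -, hAS⟩ := exists_between (fam_UFam h v) h0 (empty_subset S) hS hI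
    have hA' : (W h v).IsBase A := hA
    exact hA'.spanning_of_superset hAS hS

lemma Ev_disj {v w : ℤ} (h : v % 2 = w % 2) (hvw : v ≠ w) : Disjoint (Ev v) (Ev w) := by
  rw [Set.disjoint_left]
  intro p hp hp'
  rw [mem_Ev] at hp hp'
  omega

lemma W_disj (h : Sys 𝒞) (b : ℤ) :
    Pairwise (Function.onFun Disjoint fun i : {v : ℤ // v % 2 = b} => (W h i.1).E) := by
  intro v w hvw
  exact Ev_disj (v.2.trans w.2.symm) (fun hh => hvw (Subtype.ext hh))

/-- the direct sum over the vertices of one parity -/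
noncomputable def MS (h : Sys 𝒞) (b : ℤ) : Matroid P :=
  Matroid.disjointSigma (fun i : {v : ℤ // v % 2 = b} => W h i.1) (W_disj h b)

lemma cover {b : ℤ} (hb : b = 0 ∨ b = 1) (p : P) : ∃ v, v % 2 = b ∧ p ∈ Ev v := by
  rcases Int.emod_two_eq_zero_or_one (p.1 - b) with h | h
  · exact ⟨p.1, by omega, mem_Ev.2 (Or.inr rfl)⟩
  · exact ⟨p.1 + 1, by omega, mem_Ev.2 (Or.inl (by ring))⟩

lemma MS_ground (h : Sys 𝒞) {b : ℤ} (hb : b = 0 ∨ b = 1) : (MS h b).E = Set.univ := by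
  rw [MS, Matroid.disjointSigma_ground_eq, eq_univ_iff_forall]
  intro p
  obtain ⟨v, hv, hp⟩ := cover hb p
  exact mem_iUnion.2 ⟨⟨v, hv⟩, hp⟩

lemma MS_indep (h : Sys 𝒞) {b : ℤ} (hb : b = 0 ∨ b = 1) {I : Set P} :
    (MS h b).Indep I ↔ ∀ v, v % 2 = b → IsI (Ev v) (fam 𝒞 v) (I ∩ Ev v) := by
  rw [MS, Matroid.disjointSigma_indep_iff]
  have h2 : I ⊆ ⋃ i : {v : ℤ // v % 2 = b}, (W h i.1).E := by
    have := MS_ground h hb
    rw [MS, Matroid.disjointSigma_ground_eq] at this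
    rw [this]; exact subset_univ _
  constructor
  · rintro ⟨h1, -⟩ v hv
    exact h1 ⟨v, hv⟩
  · intro h1
    exact ⟨fun i => h1 i.1 i.2, h2⟩

lemma MS_closure (h : Sys 𝒞) {b : ℤ} (hb : b = 0 ∨ b = 1) {K : Set P} (hK : (MS h b).Indep K)
    {v : ℤ} (hv : v % 2 = b) {e : P} (he : e ∈ Ev v) (hc : e ∈ (MS h b).closure K) :
    e ∈ K ∨ IsB (Ev v) (fam 𝒞 v) (K ∩ Ev v) := by
  by_contra hno
  rw [not_or] at hno
  have hins : (MS h b).Indep (insert e K) := by
    rw [MS_indep h hb] at hK ⊢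
    intro w hw
    by_cases hwv : w = v
    · subst hwv
      rw [insert_inter_of_mem he]
      exact isI_insert (fam_UFam h w) (hK w hw) hno.2 he
    · have heW : e ∉ Ev w := fun hh =>
        Set.disjoint_left.1 (Ev_disj (hw.trans hv.symm) hwv) hh he
      rw [insert_inter_of_notMem heW]
      exact hK w hw
  exact ((hK.mem_closure_iff_of_notMem hno.1).1 hc).not_indep hins

lemma MS_sum (h : Sys 𝒞) (b : ℤ) : IsSumOfUniform (MS h b) :=
  ⟨_, _, W_disj h b, fun i S hS => W_uniform h i.1 S hS, rfl⟩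

theorem not_inter (h : Sys 𝒞) : ¬ SatisfiesIntersection (MS h 0) (MS h 1) := by
  rintro ⟨JM, JN, hd, h1, h2, h3⟩
  have b0 : (0 : ℤ) = 0 ∨ (0 : ℤ) = 1 := Or.inl rfl
  have b1 : (1 : ℤ) = 0 ∨ (1 : ℤ) = 1 := Or.inr rfl
  refine no_cert h (JM ∪ JN) JM JN rfl hd ?_ (fun v => (if v % 2 = 0 then JM else JN) ∩ Ev v)
    (fun v => rfl) ?_
  · intro v
    rcases Int.emod_two_eq_zero_or_one v with hv | hv
    · exact (MS_indep h b0).1 h1 v hv
    · exact (MS_indep h b1).1 h2 v hv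
  · intro e
    have he : e ∈ (MS h 0).closure JM ∪ (MS h 1).closure JN := by
      rw [h3, MS_ground h b0]; trivial
    have key : ∀ v, e ∈ Ev v → (∀ b, b = v % 2 → e ∈ (MS h b).closure (if v % 2 = 0 then JM else JN)) →
        e ∈ JM ∪ JN ∨ IsB (Ev v) (fam 𝒞 v) ((if v % 2 = 0 then JM else JN) ∩ Ev v) := by
      intro v hv hb
      rcases Int.emod_two_eq_zero_or_one v with hv2 | hv2
      · have h4 := hb 0 hv2.symm
        rw [if_pos hv2] at h4 ⊢
        rcases MS_closure h b0 (h1.subset subset_union_left) hv2 hv h4 with h5 | h5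
        · exact Or.inl (Or.inl h5)
        · exact Or.inr h5
      · have h4 := hb 1 hv2.symm
        rw [if_neg (by omega)] at h4 ⊢
        rcases MS_closure h b1 (h2.subset subset_union_right) hv2 hv h4 with h5 | h5
        · exact Or.inl (Or.inr h5)
        · exact Or.inr h5
    have m1 : e ∈ Ev e.1 := mem_Ev.2 (Or.inr rfl)
    have m2 : e ∈ Ev (e.1 + 1) := mem_Ev.2 (Or.inl (by ring))
    have go : ∀ v w : ℤ, v % 2 = 0 → w % 2 = 1 → e ∈ Ev v → e ∈ Ev w →
        e ∈ JM ∪ JN ∨ IsB (Ev v) (fam 𝒞 v) ((if v % 2 = 0 then JM else JN) ∩ Ev v) ∨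
          IsB (Ev w) (fam 𝒞 w) ((if w % 2 = 0 then JM else JN) ∩ Ev w) := by
      intro v w hv hw hev hew
      rcases he with he | he
      · rcases key v hev (fun b hb => by rw [hb, hv, if_pos rfl]; exact he) with h5 | h5
        · exact Or.inl h5
        · exact Or.inr (Or.inl h5)
      · rcases key w hew (fun b hb => by rw [hb, hw, if_neg (by norm_num)]; exact he) with h5 | h5
        · exact Or.inl h5
        · exact Or.inr (Or.inr h5)
    rcases Int.emod_two_eq_zero_or_one e.1 with hv | hv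
    · exact go e.1 (e.1 + 1) hv (by omega) m1 m2
    · rcases go (e.1 + 1) e.1 (by omega) hv m2 m1 with h5 | h5 | h5
      · exact Or.inl h5
      · exact Or.inr (Or.inr h5)
      · exact Or.inr (Or.inl h5)

theorem main (hR : Reap) : ∃ M N : Matroid (ℤ × ℕ), M.E = Set.univ ∧ N.E = Set.univ ∧
    IsSumOfUniform M ∧ IsSumOfUniform N ∧ ¬ SatisfiesIntersection M N ∧
    ¬ HasPackingCovering Set.univ (fun b : Bool => cond b M N✶) := by
  obtain ⟨𝒞, h1, h2, h3⟩ := exists_system hR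
  have h : Sys 𝒞 := ⟨h1, h2, h3⟩
  have g0 : (MS h 0).E = Set.univ := MS_ground h (Or.inl rfl)
  have g1 : (MS h 1).E = Set.univ := MS_ground h (Or.inr rfl)
  refine ⟨MS h 0, MS h 1, g0, g1, MS_sum h 0, MS_sum h 1, not_inter h, ?_⟩
  intro hpc
  rw [← g0] at hpc
  exact not_inter h (inter_of_pc (g0.trans g1.symm) hpc)

theorem main_conj (hR : Reap) : ¬ IntersectionConjecture ∧ ¬ PackingCoveringConjecture := by
  obtain ⟨M, N, hM, hN, -, -, h1, h2⟩ := main hR
  refine ⟨fun h => h1 (h _ M N (hM.trans hN.symm)), fun h => h2 (h _ _ Set.univ _ ?_)⟩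
  rintro (_ | _)
  · exact hN
  · exact hM

end Vale.Agent.H18.Ray
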