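import Vale.Agent.H18.RayRec

/-! The two matroids and the descent. -/

namespace Vale.Agent.H18.Ray

open Set Cardinal
open Vale.Agent.H18.UM

lemma mem_Ev {v : ℤ} {p : P} : p ∈ Ev v ↔ p.1 = v - 1 ∨ p.1 = v := by
  unfold Ev F inn out
  split_ifs <;> simp only [mem_union, mem_ofPred_eq] <;> tauto

/-- the bases (mod finite sets) at a vertex -/
def fam (𝒞 : Set (Com Rk)) (v : ℤ) : Set (Set P) := {B | ∃ c ∈ 𝒞, c.v = v ∧ c.B = B}

/-- a full system -/
structure Sys (𝒞 : Set (Com Rk)) : Prop where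
  init : Init ⊆ 𝒞
  ok : OK 𝒞
  ful : ∀ v X X', X ⊆ X' → X' ⊆ Ev v → Ful 𝒞 v X X'

lemma fam_UFam {𝒞 : Set (Com Rk)} (h : Sys 𝒞) (v : ℤ) : UFam (Ev v) (fam 𝒞 v) where
  sub := by rintro B ⟨c, hc, rfl, rfl⟩; exact h.ok.sub c hc
  ne := ⟨_, c0 v, h.init (Or.inl ⟨v, rfl⟩), rfl, rfl⟩
  anti := by
    rintro B ⟨c, hc, hv, rfl⟩ B' ⟨c', hc', hv', rfl⟩ hAS
    rw [h.ok.o1 c hc c' hc' (hv.trans hv'.symm) hAS]
  coinf := by
    rintro B ⟨c, hc, rfl, rfl⟩
    cases hl : c.lam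
    · refine (h.ok.o4' c hc (inn c.v) (Or.inl ⟨rfl, hl⟩)).mono ?_
      rintro x ⟨hx, hxn⟩; exact ⟨Or.inl hx, hxn⟩
    · refine (h.ok.o4' c hc (out c.v) (Or.inr ⟨rfl, hl⟩)).mono ?_
      rintro x ⟨hx, hxn⟩; exact ⟨Or.inr hx, hxn⟩
  ful := by
    intro X X' h1 h2
    rcases h.ful v X X' h1 h2 with ⟨c, hc, hv, hh⟩ | ⟨c, hc, hv, hh⟩ | ⟨c, hc, hv, hh⟩
    · exact Or.inl ⟨c.B, ⟨c, hc, hv, rfl⟩, hh⟩
    · exact Or.inr (Or.inl ⟨c.B, ⟨c, hc, hv, rfl⟩, hh⟩)
    · exact Or.inr (Or.inr ⟨c.B, ⟨c, hc, hv, rfl⟩, hh⟩)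

/-- the descent -/
theorem no_cert {𝒞 : Set (Com Rk)} (h : Sys 𝒞) (J JM JN : Set P) (hJ : J = JM ∪ JN)
    (hdis : Disjoint JM JN) (S1 : ∀ v, IsI (Ev v) (fam 𝒞 v) (J ∩ Ev v))
    (K : ℤ → Set P) (hK : ∀ v, K v = (if v % 2 = 0 then JM else JN) ∩ Ev v)
    (S3 : ∀ e : P, e ∈ J ∨ IsB (Ev e.1) (fam 𝒞 e.1) (K e.1) ∨
      IsB (Ev (e.1 + 1)) (fam 𝒞 (e.1 + 1)) (K (e.1 + 1))) : False := by
  classical
  have hU := fam_UFam h
  set R : ℤ → Prop := fun v => IsB (Ev v) (fam 𝒞 v) (K v) with hR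
  have hKJ : ∀ v, K v ⊆ J ∩ Ev v := by
    intro v
    rw [hK v, hJ]
    refine inter_subset_inter_left _ ?_
    split_ifs
    · exact subset_union_left
    · exact subset_union_right
  have S2 : ∀ v, R v → J ∩ Ev v = K v := by
    intro v hv
    obtain ⟨A, hA, hJA⟩ := S1 v
    have : K v = A := isB_eq_of_subset (hU v) hv hA ((hKJ v).trans hJA)
    exact subset_antisymm (by rwa [this]) (hKJ v)
  have S4 : ∀ j, R j → R (j + 1) → J ∩ F j = ∅ := by
    intro j h1 h2
    rw [eq_empty_iff_forall_notMem]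
    rintro e ⟨heJ, heF⟩
    have heF' : e.1 = j := heF
    have e1 : e ∈ K j := by
      rw [← S2 j h1]
      exact ⟨heJ, mem_Ev.2 (Or.inr heF')⟩
    have e2 : e ∈ K (j + 1) := by
      rw [← S2 (j + 1) h2]
      exact ⟨heJ, mem_Ev.2 (Or.inl (by rw [heF']; ring))⟩
    rw [hK] at e1 e2
    have e1' := e1.1
    have e2' := e2.1
    rcases Int.emod_two_eq_zero_or_one j with hj | hj
    · rw [if_pos hj] at e1'
      rw [if_neg (by omega)] at e2'
      exact Set.disjoint_left.1 hdis e1' e2'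
    · rw [if_neg (by omega)] at e1'
      rw [if_pos (by omega)] at e2'
      exact Set.disjoint_left.1 hdis e2' e1'
  have hc0 : ∀ v, IsB (Ev v) (fam 𝒞 v) (c0 v).B := fun v =>
    isB_of_mem (hU v) ⟨c0 v, h.init (Or.inl ⟨v, rfl⟩), rfl, rfl⟩
  have hc1 : ∀ v, IsB (Ev v) (fam 𝒞 v) (c1 v).B := fun v =>
    isB_of_mem (hU v) ⟨c1 v, h.init (Or.inr ⟨v, rfl⟩), rfl, rfl⟩
  have hinn : ∀ j : ℤ, ∃ v, inn v = j ∧ (v = j ∨ v = j + 1) := by
    intro j
    rcases le_or_gt 0 j with hj | hj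
    · exact ⟨j + 1, by unfold inn; rw [if_pos (by omega)]; ring, Or.inr rfl⟩
    · exact ⟨j, by unfold inn; rw [if_neg (by omega)], Or.inl rfl⟩
  -- exactly one endpoint
  have X1 : ∀ j, R j ∨ R (j + 1) := by
    intro j
    by_contra hno
    rw [not_or] at hno
    have hFJ : F j ⊆ J := by
      intro e he
      have he' : e.1 = j := he
      have := S3 e
      rw [he'] at this
      rcases this with h1 | h1 | h1
      · exact h1
      · exact absurd h1 hno.1
      · exact absurd h1 hno.2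
    obtain ⟨v, hv, -⟩ := hinn j
    obtain ⟨A, hA, hJA⟩ := S1 v
    have hFA : F (inn v) ⊆ A := by
      refine Subset.trans ?_ hJA
      intro e he
      exact ⟨hFJ (by rw [← hv]; exact he), Or.inl he⟩
    have h1 : (c0 v).B ⊆ A := by
      refine Subset.trans ?_ hFA
      intro e he
      exact he.1
    have h2 := isB_eq_of_subset (hU v) (hc0 v) hA h1
    have h3 : ((inn v, 1) : P) ∈ (c0 v).B := by
      rw [h2]; exact hFA rfl
    have h4 : Even (1 : ℕ) := h3.2
    exact absurd h4 (by decide)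
  have X2 : ∀ j, R j → R (j + 1) → False := by
    intro j h1 h2
    have hJF := S4 j h1 h2
    obtain ⟨v, hv, hvj⟩ := hinn j
    have hRv : R v := by
      rcases hvj with rfl | rfl
      · exact h1
      · exact h2
    have hsub : K v ⊆ (c1 v).B := by
      intro e he
      have he2 := hKJ v he
      rcases he2.2 with hh | hh
      · exfalso
        rw [hv] at hh
        have : e ∈ J ∩ F j := ⟨he2.1, hh⟩
        rw [hJF] at this
        exact this
      · exact Or.inl hh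
    have heq := isB_eq_of_subset (hU v) hRv (hc1 v) hsub
    have h3 : ((inn v, 1) : P) ∈ K v := by
      rw [heq]; exact Or.inr ⟨rfl, odd_one⟩
    have h4 : ((inn v, 1) : P) ∈ J ∩ F j := ⟨(hKJ v h3).1, hv⟩
    rw [hJF] at h4
    exact h4
  -- the bases and commitments
  have hA : ∀ v, ∃ A, ∃ c ∈ 𝒞, c.v = v ∧ IsB (Ev v) (fam 𝒞 v) A ∧ J ∩ Ev v ⊆ A ∧
      (R v → J ∩ Ev v = A) ∧ AS A c.B ∧ AS c.B A := by
    intro v
    by_cases hv : R v
    · have hv' : IsB (Ev v) (fam 𝒞 v) (K v) := hv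
      obtain ⟨hs, B, ⟨c, hc, hcv, rfl⟩, h1, h2, h3⟩ := hv'
      exact ⟨K v, c, hc, hcv, hv, (S2 v hv).subset, fun _ => S2 v hv, h1, h2⟩
    · obtain ⟨A, hA, hJA⟩ := S1 v
      have hA' := hA
      obtain ⟨hs, B, ⟨c, hc, hcv, rfl⟩, h1, h2, h3⟩ := hA'
      exact ⟨A, c, hc, hcv, hA, hJA, fun h' => absurd h' hv, h1, h2⟩
  choose A c hc hcv hAB hJA hRA hAc hcA using hA
  have tr : ∀ {X Y : Set P} (j : ℤ), AS X Y → AS (X ∩ F j) (Y ∩ F j) :=
    fun j hh => AS_inter_of_AS hh j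
  have hFEv : ∀ v j, (j = inn v ∨ j = out v) → F j ⊆ Ev v := by
    rintro v j (rfl | rfl)
    · exact subset_union_left
    · exact subset_union_right
  -- if `v ∈ R` then the trace of `c v` is almost contained in the trace of `c w`
  have key : ∀ v w j, R v → (j = inn v ∨ j = out v) → (j = inn w ∨ j = out w) →
      AS ((c v).B ∩ F j) ((c w).B ∩ F j) := by
    intro v w j hv h1 h2
    have e1 : AS ((c v).B ∩ F j) (A v ∩ F j) := tr j (hcA v)
    have e2 : AS (A v ∩ F j) (A w ∩ F j) := by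
      refine AS.of_subset ?_
      rintro e ⟨he, heF⟩
      refine ⟨?_, heF⟩
      rw [← hRA v hv] at he
      exact hJA w ⟨he.1, hFEv w j h2 heF⟩
    have e3 : AS (A w ∩ F j) ((c w).B ∩ F j) := tr j (hAc w)
    exact e1.trans (e2.trans e3)
  have hout : ∀ v, ∃ w, inn w = out v ∧ ((R v ∧ ¬ R w) ∨ (¬ R v ∧ R w)) := by
    intro v
    have hxor : ∀ j, (R j ∧ ¬ R (j + 1)) ∨ (¬ R j ∧ R (j + 1)) := by
      intro j
      have := X1 j
      have := X2 j
      tauto
    rcases le_or_gt 0 v with hv | hv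
    · exact ⟨v + 1, by unfold inn out; rw [if_pos (by omega), if_pos hv]; ring, hxor v⟩
    · refine ⟨v - 1, by unfold inn out; rw [if_neg (by omega), if_neg (by omega)], ?_⟩
      have := hxor (v - 1)
      rw [sub_add_cancel] at this
      tauto
  have desc : ∀ r : Rk, ∀ v, (c v).rk = r →
      ((R v ∧ (c v).lam = false) ∨ (¬ R v ∧ (c v).lam = true)) → False := by
    intro r
    induction r using WellFoundedLT.induction with
    | ind r ih =>
      intro v hr hT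
      obtain ⟨w, hw, hx⟩ := hout v
      rcases hT with ⟨hRv, hl⟩ | ⟨hRv, hl⟩
      · have hRw : ¬ R w := by tauto
        have hk := key v w (out v) hRv (Or.inr rfl) (Or.inl hw.symm)
        have hlw : (c w).lam = true := by
          by_contra hne
          rw [Bool.not_eq_true] at hne
          exact h.ok.o2 (c v) (hc v) (c w) (hc w) (out v)
            (Or.inr ⟨by rw [hcv v], hl⟩) (Or.inl ⟨by rw [hcv w, hw], hne⟩) hk
        have hlt : (c w).rk < (c v).rk :=
          h.ok.o3 (c v) (hc v) (c w) (hc w) (by rw [hcv v, hcv w, hw]) hl hlw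
            (by rw [hcv v]; exact hk)
        exact ih _ (hr ▸ hlt) w rfl (Or.inr ⟨hRw, hlw⟩)
      · have hRw : R w := by tauto
        have hk := key w v (out v) hRw (Or.inl hw.symm) (Or.inr rfl)
        have hlw : (c w).lam = false := by
          by_contra hne
          rw [Bool.not_eq_false] at hne
          exact h.ok.o2 (c w) (hc w) (c v) (hc v) (out v)
            (Or.inl ⟨by rw [hcv w, hw], hne⟩) (Or.inr ⟨by rw [hcv v], hl⟩) hk
        have hlt : (c w).rk < (c v).rk :=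
          h.ok.o3' (c v) (hc v) (c w) (hc w) (by rw [hcv v, hcv w, hw]) hl hlw
            (by rw [hcv v]; exact hk)
        exact ih _ (hr ▸ hlt) w rfl (Or.inl ⟨hRw, hlw⟩)
  -- the root edge
  have root : ∀ a b, inn a = -1 → inn b = -1 → R a → ¬ R b → False := by
    intro a b ha hb hRa hRb
    have hla : (c a).lam = true := by
      by_contra hne
      rw [Bool.not_eq_true] at hne
      exact desc _ a rfl (Or.inl ⟨hRa, hne⟩)
    have hlb : (c b).lam = false := by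
      by_contra hne
      rw [Bool.not_eq_false] at hne
      exact desc _ b rfl (Or.inr ⟨hRb, hne⟩)
    exact h.ok.o2 (c a) (hc a) (c b) (hc b) (-1)
      (Or.inl ⟨by rw [hcv a, ha], hla⟩) (Or.inl ⟨by rw [hcv b, hb], hlb⟩)
      (key a b (-1) hRa (Or.inl ha.symm) (Or.inl hb.symm))
  have i0 : inn 0 = -1 := by unfold inn; simp
  have i1 : inn (-1) = -1 := by unfold inn; simp
  have h01 := X1 (-1)
  have h02 := X2 (-1)
  norm_num at h01 h02
  rcases h01 with h1 | h1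
  · exact root (-1) 0 i1 i0 h1 (fun h2 => h02 h1 h2)
  · exact root 0 (-1) i0 i1 h1 (fun h2 => h02 h2 h1)

end Vale.Agent.H18.Ray
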