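import Vale.Agent.H18.RayAdd

/-! The transfinite recursion. -/

namespace Vale.Agent.H18.Ray

open Set Cardinal
open Vale.Agent.H18.UM

/-- the stages -/
abbrev Stage : Type := (𝔠 : Cardinal.{0}).ord.ToType

/-- the ranks -/
abbrev Rk : Type := WithBot Stage

def c0 (v : ℤ) : Com Rk := ⟨v, {p | p.1 = inn v ∧ Even p.2}, true, ⊥⟩

def c1 (v : ℤ) : Com Rk := ⟨v, F (out v) ∪ {p | p.1 = inn v ∧ Odd p.2}, false, ⊥⟩

def Init : Set (Com Rk) := range c0 ∪ range c1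

lemma even_inf (j : ℤ) : ({p : P | p.1 = j ∧ Even p.2}).Infinite := by
  refine Set.infinite_of_injective_forall_mem (f := fun n : ℕ => ((j, 2 * n) : P)) ?_ ?_
  · intro a b h; simpa using h
  · intro n; exact ⟨rfl, even_two_mul n⟩

lemma odd_inf (j : ℤ) : ({p : P | p.1 = j ∧ Odd p.2}).Infinite := by
  refine Set.infinite_of_injective_forall_mem (f := fun n : ℕ => ((j, 2 * n + 1) : P)) ?_ ?_
  · intro a b h; simpa using h
  · intro n; exact ⟨rfl, odd_two_mul_add_one n⟩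

lemma c0_tr_inn (v : ℤ) : (c0 v).B ∩ F (inn v) = {p | p.1 = inn v ∧ Even p.2} := by
  ext p; simp only [c0, F, mem_inter_iff, mem_ofPred_eq]; tauto

lemma c0_tr_out (v : ℤ) : (c0 v).B ∩ F (out v) = ∅ := by
  ext p; simp only [c0, F, mem_inter_iff, mem_ofPred_eq, mem_empty_iff_false, iff_false]
  rintro ⟨⟨h, -⟩, h'⟩
  exact inn_ne_out v (h.symm.trans h')

lemma c1_tr_inn (v : ℤ) : (c1 v).B ∩ F (inn v) = {p | p.1 = inn v ∧ Odd p.2} := by
  ext p; simp only [c1, F, mem_inter_iff, mem_union, mem_ofPred_eq]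
  constructor
  · rintro ⟨h | h, h'⟩
    · exact absurd (h'.symm.trans h) (inn_ne_out v)
    · exact h
  · rintro h; exact ⟨Or.inr h, h.1⟩

lemma c1_tr_out (v : ℤ) : (c1 v).B ∩ F (out v) = F (out v) := by
  ext p; simp only [c1, F, mem_inter_iff, mem_union, mem_ofPred_eq]; tauto

lemma not_AS_of_inf {A B D : Set P} (h : D.Infinite) (h1 : D ⊆ A) (h2 : Disjoint D B) :
    ¬ AS A B := by
  intro hAS
  refine h (hAS.subset ?_)
  intro x hx
  exact ⟨h1 hx, fun hB => Set.disjoint_left.1 h2 hx hB⟩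

lemma even_not_odd (j : ℤ) : ¬ AS ({p : P | p.1 = j ∧ Even p.2}) ({p : P | p.1 = j ∧ Odd p.2}) := by
  refine not_AS_of_inf (even_inf j) Subset.rfl ?_
  rw [Set.disjoint_left]
  rintro p ⟨-, h⟩ ⟨-, h'⟩
  exact (Nat.not_odd_iff_even.2 h) h'

lemma F_not_odd (j : ℤ) : ¬ AS (F j) ({p : P | p.1 = j ∧ Odd p.2}) := by
  refine not_AS_of_inf (even_inf j) (fun p hp => hp.1) ?_
  rw [Set.disjoint_left]
  rintro p ⟨-, h⟩ ⟨-, h'⟩
  exact (Nat.not_odd_iff_even.2 h) h'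

lemma F_not_even (j : ℤ) : ¬ AS (F j) ({p : P | p.1 = j ∧ Even p.2}) := by
  refine not_AS_of_inf (odd_inf j) (fun p hp => hp.1) ?_
  rw [Set.disjoint_left]
  rintro p ⟨-, h⟩ ⟨-, h'⟩
  exact (Nat.not_odd_iff_even.2 h') h

lemma not_AS_empty {A : Set P} (h : A.Infinite) : ¬ AS A ∅ :=
  not_AS_of_inf h Subset.rfl (disjoint_empty A)

lemma Lg_c0 {v j : ℤ} (h : Lg (c0 v) j) : j = inn v := by
  rcases h with ⟨h, -⟩ | ⟨-, h⟩
  · exact h
  · simp [c0] at h

lemma Lg_c1 {v j : ℤ} (h : Lg (c1 v) j) : j = out v := by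
  rcases h with ⟨-, h⟩ | ⟨h, -⟩
  · simp [c1] at h
  · exact h

lemma Sm_c0 {v j : ℤ} (h : Sm (c0 v) j) : j = out v := by
  rcases h with ⟨-, h⟩ | ⟨h, -⟩
  · simp [c0] at h
  · exact h

lemma Sm_c1 {v j : ℤ} (h : Sm (c1 v) j) : j = inn v := by
  rcases h with ⟨h, -⟩ | ⟨-, h⟩
  · exact h
  · simp [c1] at h

lemma init_OK : OK Init where
  sub := by
    rintro c (⟨v, rfl⟩ | ⟨v, rfl⟩)
    · intro p hp; exact Or.inl hp.1
    · rintro p (hp | hp)
      · exact Or.inr hp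
      · exact Or.inl hp.1
  o1 := by
    rintro c (⟨v, rfl⟩ | ⟨v, rfl⟩) c' (⟨v', rfl⟩ | ⟨v', rfl⟩) hv hAS
    · simp only [c0] at hv; subst hv; rfl
    · simp only [c0, c1] at hv; subst hv
      have := AS_inter_of_AS hAS (inn v)
      rw [c0_tr_inn, c1_tr_inn] at this
      exact absurd this (even_not_odd _)
    · simp only [c0, c1] at hv; subst hv
      have := AS_inter_of_AS hAS (out v)
      rw [c0_tr_out, c1_tr_out] at this
      exact absurd this (not_AS_empty (F_inf _))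
    · simp only [c1] at hv; subst hv; rfl
  o2 := by
    rintro c (⟨v, rfl⟩ | ⟨v, rfl⟩) c' (⟨v', rfl⟩ | ⟨v', rfl⟩) j hL hS
    · have h1 := Lg_c0 hL
      have h2 := Sm_c0 hS
      subst h1
      rw [c0_tr_inn, h2, c0_tr_out]
      rw [← h2]
      exact not_AS_empty (even_inf _)
    · have h1 := Lg_c0 hL
      have h2 := Sm_c1 hS
      subst h1
      rw [c0_tr_inn, h2, c1_tr_inn]
      exact even_not_odd _
    · have h1 := Lg_c1 hL
      have h2 := Sm_c0 hS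
      subst h1
      rw [c1_tr_out, h2, c0_tr_out]
      exact not_AS_empty (F_inf _)
    · have h1 := Lg_c1 hL
      have h2 := Sm_c1 hS
      subst h1
      rw [c1_tr_out, h2, c1_tr_inn]
      exact F_not_odd _
  o3 := by
    rintro c (⟨v, rfl⟩ | ⟨v, rfl⟩) c' (⟨v', rfl⟩ | ⟨v', rfl⟩) he hl hl' hAS
    · simp [c0] at hl
    · simp [c0] at hl
    · exfalso
      change out v = inn v' at he
      change AS ((c1 v).B ∩ F (out v)) ((c0 v').B ∩ F (out v)) at hAS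
      rw [c1_tr_out, he, c0_tr_inn] at hAS
      exact F_not_even _ hAS
    · simp [c1] at hl'
  o3' := by
    rintro c (⟨v, rfl⟩ | ⟨v, rfl⟩) c' (⟨v', rfl⟩ | ⟨v', rfl⟩) he hl hl' hAS
    · simp [c0] at hl'
    · exfalso
      change out v = inn v' at he
      change AS ((c1 v').B ∩ F (out v)) ((c0 v).B ∩ F (out v)) at hAS
      rw [c0_tr_out, he, c1_tr_inn] at hAS
      exact not_AS_empty (odd_inf _) hAS
    · simp [c1] at hl
    · simp [c1] at hl
  o4 := by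
    rintro c (⟨v, rfl⟩ | ⟨v, rfl⟩) j hL
    · have h1 := Lg_c0 hL
      subst h1
      rw [c0_tr_inn]; exact even_inf _
    · have h1 := Lg_c1 hL
      subst h1
      rw [c1_tr_out]; exact F_inf _
  o4' := by
    rintro c (⟨v, rfl⟩ | ⟨v, rfl⟩) j hS
    · have h1 := Sm_c0 hS
      subst h1
      refine (F_inf (out v)).mono ?_
      intro p hp
      refine ⟨hp, fun h => ?_⟩
      have : p ∈ (c0 v).B ∩ F (out v) := ⟨h, hp⟩
      rw [c0_tr_out] at this
      exact this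
    · have h1 := Sm_c1 hS
      subst h1
      refine (even_inf (inn v)).mono ?_
      rintro p ⟨hp, he⟩
      refine ⟨hp, fun h => ?_⟩
      have : p ∈ (c1 v).B ∩ F (inn v) := ⟨h, hp⟩
      rw [c1_tr_inn] at this
      exact (Nat.not_odd_iff_even.2 he) this.2

lemma OK_of_pairs {Ω : Type} [LinearOrder Ω] {𝒞 : Set (Com Ω)}
    (h : ∀ c ∈ 𝒞, ∀ c' ∈ 𝒞, ∃ 𝒟 : Set (Com Ω), OK 𝒟 ∧ c ∈ 𝒟 ∧ c' ∈ 𝒟) : OK 𝒞 where
  sub := by
    intro c hc
    obtain ⟨𝒟, hD, h1, -⟩ := h c hc c hc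
    exact hD.sub c h1
  o1 := by
    intro c hc c' hc'
    obtain ⟨𝒟, hD, h1, h2⟩ := h c hc c' hc'
    exact hD.o1 c h1 c' h2
  o2 := by
    intro c hc c' hc'
    obtain ⟨𝒟, hD, h1, h2⟩ := h c hc c' hc'
    exact hD.o2 c h1 c' h2
  o3 := by
    intro c hc c' hc'
    obtain ⟨𝒟, hD, h1, h2⟩ := h c hc c' hc'
    exact hD.o3 c h1 c' h2
  o3' := by
    intro c hc c' hc'
    obtain ⟨𝒟, hD, h1, h2⟩ := h c hc c' hc'
    exact hD.o3' c h1 c' h2
  o4 := by
    intro c hc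
    obtain ⟨𝒟, hD, h1, -⟩ := h c hc c hc
    exact hD.o4 c h1
  o4' := by
    intro c hc
    obtain ⟨𝒟, hD, h1, -⟩ := h c hc c hc
    exact hD.o4' c h1

/-- the tasks -/
abbrev Task : Type := ℤ × Set P × Set P

lemma exists_enum : ∃ f : Stage → Task, Function.Surjective f := by
  have h1 : #Task = 𝔠 := by
    simp only [Task, mk_prod, lift_id, mk_set]
    have h2 : #ℤ = ℵ₀ := mk_eq_aleph0 ℤ
    have h3 : #P = ℵ₀ := mk_eq_aleph0 P
    have h4 : #ℤ * ((2 : Cardinal) ^ #P * 2 ^ #P) = 𝔠 := by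
      rw [h2, h3, two_power_aleph0, continuum_mul_self, aleph0_mul_continuum]
    simpa using h4
  have h2 : #Stage = 𝔠 := mk_ord_toType 𝔠
  obtain ⟨e⟩ := Cardinal.eq.1 (h2.trans h1.symm)
  exact ⟨e, e.surjective⟩

/-- what a stage achieves -/
def Q (f : Stage → Task) (t : Stage) (C S : Set (Com Rk)) : Prop :=
  S.Subsingleton ∧ (∀ c ∈ S, c.rk ≤ (t : Rk)) ∧ OK (C ∪ S) ∧
    ((f t).2.1 ⊆ (f t).2.2 → (f t).2.2 ⊆ Ev (f t).1 →
      Ful (C ∪ S) (f t).1 (f t).2.1 (f t).2.2)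

open Classical in
noncomputable def stageF (f : Stage → Task) (t : Stage)
    (prev : ∀ s : Stage, s < t → Set (Com Rk)) : Set (Com Rk) :=
  if h : ∃ S, Q f t (Init ∪ ⋃ s : {s // s < t}, prev s.1 s.2) S then h.choose else ∅

noncomputable def stage (f : Stage → Task) : Stage → Set (Com Rk) :=
  (wellFounded_lt (α := Stage)).fix (stageF f)

def pre (f : Stage → Task) (t : Stage) : Set (Com Rk) :=
  Init ∪ ⋃ s : {s // s < t}, stage f s.1

open Classical in
lemma stage_eq (f : Stage → Task) (t : Stage) :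
    stage f t = if h : ∃ S, Q f t (pre f t) S then h.choose else ∅ := by
  unfold stage
  rw [WellFounded.fix_eq]
  rfl

lemma pre_mono (f : Stage → Task) {s t : Stage} (h : s ≤ t) : pre f s ⊆ pre f t := by
  refine union_subset_union_right _ ?_
  intro c hc
  obtain ⟨⟨u, hu⟩, huc⟩ := mem_iUnion.1 hc
  exact mem_iUnion.2 ⟨⟨u, hu.trans_le h⟩, huc⟩

lemma stage_sub_pre (f : Stage → Task) {s t : Stage} (h : s < t) : stage f s ⊆ pre f t := by
  intro c hc
  exact Or.inr (mem_iUnion.2 ⟨⟨s, h⟩, hc⟩)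

lemma init_sub_pre (f : Stage → Task) (t : Stage) : Init ⊆ pre f t := subset_union_left

lemma init_countable : #Init < 𝔠 := by
  refine lt_of_le_of_lt ?_ aleph0_lt_continuum
  rw [Cardinal.le_aleph0_iff_set_countable]
  exact (countable_range _).union (countable_range _)

lemma stage_Q (hR : Reap) (f : Stage → Task) (t : Stage) : Q f t (pre f t) (stage f t) := by
  induction t using WellFoundedLT.induction with
  | ind t ih =>
  have hOK : OK (pre f t) := by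
    refine OK_of_pairs ?_
    rintro c (hc | hc) c' (hc' | hc')
    · exact ⟨Init, init_OK, hc, hc'⟩
    · obtain ⟨⟨u, hu⟩, huc⟩ := mem_iUnion.1 hc'
      exact ⟨_, (ih u hu).2.2.1, Or.inl (init_sub_pre f u hc), Or.inr huc⟩
    · obtain ⟨⟨u, hu⟩, huc⟩ := mem_iUnion.1 hc
      exact ⟨_, (ih u hu).2.2.1, Or.inr huc, Or.inl (init_sub_pre f u hc')⟩
    · obtain ⟨⟨u, hu⟩, huc⟩ := mem_iUnion.1 hc
      obtain ⟨⟨w, hw⟩, hwc⟩ := mem_iUnion.1 hc'
      rcases lt_trichotomy u w with h | h | h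
      · exact ⟨_, (ih w hw).2.2.1, Or.inl (stage_sub_pre f h huc), Or.inr hwc⟩
      · subst h
        exact ⟨_, (ih u hu).2.2.1, Or.inr huc, Or.inr hwc⟩
      · exact ⟨_, (ih u hu).2.2.1, Or.inr huc, Or.inl (stage_sub_pre f h hwc)⟩
  have hcard : #(pre f t) < 𝔠 := by
    refine (mk_union_le _ _).trans_lt (add_lt_of_lt aleph0_le_continuum init_countable ?_)
    refine (mk_iUnion_le_sum_mk).trans_lt ?_
    have h1 : (Cardinal.sum fun s : {s // s < t} => #(stage f s.1)) ≤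
        Cardinal.sum fun _ : {s // s < t} => (1 : Cardinal) := by
      refine Cardinal.sum_le_sum _ _ ?_
      intro s
      exact mk_le_one_iff_set_subsingleton.2 (ih s.1 s.2).1
    refine h1.trans_lt ?_
    rw [Cardinal.sum_const']
    rw [mul_one]
    exact mk_Iio_toType_ord_lt t
  have hI : ∀ v, (∃ c ∈ pre f t, c.v = v ∧ c.lam = true) ∧
      (∃ c ∈ pre f t, c.v = v ∧ c.lam = false) := fun v =>
    ⟨⟨c0 v, init_sub_pre f t (Or.inl ⟨v, rfl⟩), rfl, rfl⟩,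
      ⟨c1 v, init_sub_pre f t (Or.inr ⟨v, rfl⟩), rfl, rfl⟩⟩
  have hr : ∀ c ∈ pre f t, c.rk < (t : Rk) := by
    rintro c ((⟨v, rfl⟩ | ⟨v, rfl⟩) | hc)
    · exact WithBot.bot_lt_coe t
    · exact WithBot.bot_lt_coe t
    · obtain ⟨⟨u, hu⟩, huc⟩ := mem_iUnion.1 hc
      exact ((ih u hu).2.1 c huc).trans_lt (WithBot.coe_lt_coe.2 hu)
  have hex : ∃ S, Q f t (pre f t) S := by
    by_cases htask : (f t).2.1 ⊆ (f t).2.2 ∧ (f t).2.2 ⊆ Ev (f t).1
    · rcases step hR hOK hcard hI (t : Rk) hr (f t).1 htask.1 htask.2 with h | ⟨c, h1, h2, h3⟩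
      · exact ⟨∅, subsingleton_empty, fun c hc => absurd hc (notMem_empty c), by simpa using hOK,
          fun _ _ => by simpa using h⟩
      · refine ⟨{c}, subsingleton_singleton, ?_, ?_, ?_⟩
        · rintro c' rfl; exact h1
        · rw [union_singleton]; exact h2
        · intro _ _; rw [union_singleton]; exact h3
    · exact ⟨∅, subsingleton_empty, fun c hc => absurd hc (notMem_empty c), by simpa using hOK,
        fun a b => absurd ⟨a, b⟩ htask⟩
  rw [stage_eq, dif_pos hex]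
  exact hex.choose_spec

/-- **The system.** -/
theorem exists_system (hR : Reap) : ∃ 𝒞 : Set (Com Rk), Init ⊆ 𝒞 ∧ OK 𝒞 ∧
    ∀ v X X', X ⊆ X' → X' ⊆ Ev v → Ful 𝒞 v X X' := by
  obtain ⟨f, hf⟩ := exists_enum
  refine ⟨Init ∪ ⋃ t, stage f t, subset_union_left, ?_, ?_⟩
  · refine OK_of_pairs ?_
    rintro c (hc | hc) c' (hc' | hc')
    · exact ⟨Init, init_OK, hc, hc'⟩
    · obtain ⟨u, huc⟩ := mem_iUnion.1 hc'
      exact ⟨_, (stage_Q hR f u).2.2.1, Or.inl (init_sub_pre f u hc), Or.inr huc⟩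
    · obtain ⟨u, huc⟩ := mem_iUnion.1 hc
      exact ⟨_, (stage_Q hR f u).2.2.1, Or.inr huc, Or.inl (init_sub_pre f u hc')⟩
    · obtain ⟨u, huc⟩ := mem_iUnion.1 hc
      obtain ⟨w, hwc⟩ := mem_iUnion.1 hc'
      rcases lt_trichotomy u w with h | h | h
      · exact ⟨_, (stage_Q hR f w).2.2.1, Or.inl (stage_sub_pre f h huc), Or.inr hwc⟩
      · subst h
        exact ⟨_, (stage_Q hR f u).2.2.1, Or.inr huc, Or.inr hwc⟩
      · exact ⟨_, (stage_Q hR f u).2.2.1, Or.inr huc, Or.inl (stage_sub_pre f h hwc)⟩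
  · intro v X X' h1 h2
    obtain ⟨t, ht⟩ := hf (v, X, X')
    have := (stage_Q hR f t).2.2.2
    rw [ht] at this
    refine (this h1 h2).mono ?_
    refine union_subset ?_ ?_
    · refine union_subset subset_union_left ?_
      intro c hc
      obtain ⟨⟨u, hu⟩, huc⟩ := mem_iUnion.1 hc
      exact Or.inr (mem_iUnion.2 ⟨u, huc⟩)
    · intro c hc
      exact Or.inr (mem_iUnion.2 ⟨t, hc⟩)

end Vale.Agent.H18.Ray
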