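import Vale.Agent.H18.UMat
import Vale.Agent.H18.P068Defs

/-! The one-step extension lemma for the double ray of uniform matroids. -/

namespace Vale.Agent.H18.Ray

open Set Cardinal
open Vale.Agent.H18.UM

/-- the ground set -/
abbrev P : Type := ℤ × ℕ

def F (j : ℤ) : Set P := {p | p.1 = j}

def inn (v : ℤ) : ℤ := if 0 ≤ v then v - 1 else v

def out (v : ℤ) : ℤ := if 0 ≤ v then v else v - 1

def Ev (v : ℤ) : Set P := F (inn v) ∪ F (out v)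

lemma inn_ne_out (v : ℤ) : inn v ≠ out v := by
  unfold inn out; split_ifs <;> omega

lemma F_disj {i j : ℤ} (h : i ≠ j) : Disjoint (F i) (F j) := by
  rw [Set.disjoint_left]
  intro p hp hp'
  exact h (hp.symm.trans hp')

lemma F_inf (j : ℤ) : (F j).Infinite := by
  refine Set.infinite_of_injective_forall_mem (f := fun n : ℕ => ((j, n) : P)) ?_ ?_
  · intro a b h; simpa using h
  · intro n; rfl

/-- a commitment: a vertex, a base (mod finite sets), which trace is large, and a rank -/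
structure Com (Ω : Type) where
  v : ℤ
  B : Set P
  lam : Bool
  rk : Ω

variable {Ω : Type} [LinearOrder Ω]

def Lg (c : Com Ω) (j : ℤ) : Prop := (j = inn c.v ∧ c.lam = true) ∨ (j = out c.v ∧ c.lam = false)

def Sm (c : Com Ω) (j : ℤ) : Prop := (j = inn c.v ∧ c.lam = false) ∨ (j = out c.v ∧ c.lam = true)

/-- the compatibility conditions for a set of commitments -/
structure OK (𝒞 : Set (Com Ω)) : Prop where
  sub : ∀ c ∈ 𝒞, c.B ⊆ Ev c.v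
  o1 : ∀ c ∈ 𝒞, ∀ c' ∈ 𝒞, c.v = c'.v → AS c.B c'.B → c = c'
  o2 : ∀ c ∈ 𝒞, ∀ c' ∈ 𝒞, ∀ j, Lg c j → Sm c' j → ¬ AS (c.B ∩ F j) (c'.B ∩ F j)
  o3 : ∀ c ∈ 𝒞, ∀ c' ∈ 𝒞, out c.v = inn c'.v → c.lam = false → c'.lam = true →
    AS (c.B ∩ F (out c.v)) (c'.B ∩ F (out c.v)) → c'.rk < c.rk
  o3' : ∀ c ∈ 𝒞, ∀ c' ∈ 𝒞, out c.v = inn c'.v → c.lam = true → c'.lam = false →
    AS (c'.B ∩ F (out c.v)) (c.B ∩ F (out c.v)) → c'.rk < c.rk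
  o4 : ∀ c ∈ 𝒞, ∀ j, Lg c j → (c.B ∩ F j).Infinite
  o4' : ∀ c ∈ 𝒞, ∀ j, Sm c j → (F j \ c.B).Infinite

/-- the pair `X ⊆ X'` is decided at `v` -/
def Ful (𝒞 : Set (Com Ω)) (v : ℤ) (X X' : Set P) : Prop :=
  (∃ c ∈ 𝒞, c.v = v ∧ AS X' c.B) ∨ (∃ c ∈ 𝒞, c.v = v ∧ AS c.B X) ∨
    (∃ c ∈ 𝒞, c.v = v ∧ AS X c.B ∧ AS c.B X')

omit [LinearOrder Ω] in
lemma Ful.mono {𝒞 𝒟 : Set (Com Ω)} (h : 𝒞 ⊆ 𝒟) {v : ℤ} {X X' : Set P} (hf : Ful 𝒞 v X X') :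
    Ful 𝒟 v X X' := by
  rcases hf with ⟨c, hc, h'⟩ | ⟨c, hc, h'⟩ | ⟨c, hc, h'⟩
  · exact Or.inl ⟨c, h hc, h'⟩
  · exact Or.inr (Or.inl ⟨c, h hc, h'⟩)
  · exact Or.inr (Or.inr ⟨c, h hc, h'⟩)

/-- a set between `G` and `H` that is generic for the family `𝒯` -/
lemma exists_generic (hR : Reap) (𝒯 : Set (Set P)) (h𝒯 : #𝒯 < 𝔠) {G H : Set P} (hGH : G ⊆ H) :
    ∃ B, G ⊆ B ∧ B ⊆ H ∧ ∀ T ∈ 𝒯, (AS B T → AS H T) ∧ (AS T B → AS T G) := by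
  classical
  let e : P ≃ ℕ := Denumerable.eqv P
  let 𝒜 : Set (Set ℕ) := {A | A.Infinite ∧ (A ∈ (fun T => e '' ((H \ G) \ T)) '' 𝒯 ∪
    (fun T => e '' ((H \ G) ∩ T)) '' 𝒯)}
  have h𝒜 : #𝒜 < 𝔠 := by
    have h1 : #𝒜 ≤ #(((fun T => e '' ((H \ G) \ T)) '' 𝒯 ∪
      (fun T => e '' ((H \ G) ∩ T)) '' 𝒯 : Set (Set ℕ))) :=
      mk_le_mk_of_subset (fun A hA => hA.2)
    refine h1.trans_lt ((mk_union_le _ _).trans_lt ?_)
    exact add_lt_of_lt aleph0_le_continuum (mk_image_le.trans_lt h𝒯) (mk_image_le.trans_lt h𝒯)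
  obtain ⟨S, hS⟩ := hR 𝒜 h𝒜 (fun A hA => hA.1)
  have key1 : ∀ D : Set P, D.Infinite → (e '' D ∈ (fun T => e '' ((H \ G) \ T)) '' 𝒯 ∪
      (fun T => e '' ((H \ G) ∩ T)) '' 𝒯) → (D ∩ e ⁻¹' S).Infinite ∧ (D \ e ⁻¹' S).Infinite := by
    intro D hD hmem
    have hinf : (e '' D).Infinite := hD.image e.injective.injOn
    obtain ⟨h1, h2⟩ := hS (e '' D) ⟨hinf, hmem⟩
    constructor
    · intro hfin
      refine h1 ((hfin.image e).subset ?_)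
      rintro _ ⟨⟨x, hx, rfl⟩, hxS⟩
      exact ⟨x, ⟨hx, hxS⟩, rfl⟩
    · intro hfin
      refine h2 ((hfin.image e).subset ?_)
      rintro _ ⟨⟨x, hx, rfl⟩, hxS⟩
      exact ⟨x, ⟨hx, hxS⟩, rfl⟩
  refine ⟨G ∪ ((H \ G) ∩ e ⁻¹' S), subset_union_left,
    union_subset hGH (inter_subset_left.trans sdiff_subset), ?_⟩
  intro T hT
  constructor
  · intro hBT
    by_contra hHT
    have hGT : (G \ T).Finite := hBT.subset (sdiff_subset_sdiff_left subset_union_left)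
    have hinf : ((H \ G) \ T).Infinite := by
      intro hfin
      refine hHT ((hGT.union hfin).subset ?_)
      rintro x ⟨hx, hxT⟩
      by_cases hxG : x ∈ G
      · exact Or.inl ⟨hxG, hxT⟩
      · exact Or.inr ⟨⟨hx, hxG⟩, hxT⟩
    refine (key1 _ hinf (Or.inl ⟨T, hT, rfl⟩)).1 (hBT.subset ?_)
    rintro x ⟨⟨⟨hx, hxG⟩, hxT⟩, hxS⟩
    exact ⟨Or.inr ⟨⟨hx, hxG⟩, hxS⟩, hxT⟩
  · intro hTB
    by_contra hTG
    have hTH : (T \ H).Finite := hTB.subset (by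
      rintro x ⟨hx, hxH⟩
      refine ⟨hx, ?_⟩
      rintro (h | ⟨⟨h, -⟩, -⟩)
      · exact hxH (hGH h)
      · exact hxH h)
    have hinf : ((H \ G) ∩ T).Infinite := by
      intro hfin
      refine hTG ((hTH.union hfin).subset ?_)
      rintro x ⟨hx, hxG⟩
      by_cases hxH : x ∈ H
      · exact Or.inr ⟨⟨hxH, hxG⟩, hx⟩
      · exact Or.inl ⟨hx, hxH⟩
    refine (key1 _ hinf (Or.inr ⟨T, hT, rfl⟩)).2 (hTB.subset ?_)
    rintro x ⟨⟨⟨hx, hxG⟩, hxT⟩, hxS⟩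
    refine ⟨hxT, ?_⟩
    rintro (h | ⟨-, h⟩)
    · exact hxG h
    · exact hxS h

/-- the test family -/
def tests (𝒞 : Set (Com Ω)) (v : ℤ) : Set (Set P) :=
  (fun c : Com Ω => c.B) '' 𝒞 ∪
  ((fun c : Com Ω => (c.B ∩ F (inn v)) ∪ (F (inn v))ᶜ) '' 𝒞 ∪
  ((fun c : Com Ω => (c.B ∩ F (out v)) ∪ (F (out v))ᶜ) '' 𝒞 ∪
  ((fun c : Com Ω => c.B ∩ F (inn v)) '' 𝒞 ∪
  ((fun c : Com Ω => c.B ∩ F (out v)) '' 𝒞 ∪
  {(F (inn v))ᶜ, (F (out v))ᶜ, F (inn v), F (out v)}))))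

omit [LinearOrder Ω] in
lemma tests_lt {𝒞 : Set (Com Ω)} (h : #𝒞 < 𝔠) (v : ℤ) : #(tests 𝒞 v) < 𝔠 := by
  unfold tests
  have hf : #(({(F (inn v))ᶜ, (F (out v))ᶜ, F (inn v), F (out v)} : Set (Set P))) < 𝔠 := by
    refine lt_of_lt_of_le ?_ aleph0_le_continuum
    exact Cardinal.lt_aleph0_iff_set_finite.2 (Set.toFinite _)
  have hi : ∀ f : Com Ω → Set P, #(f '' 𝒞) < 𝔠 := fun f => mk_image_le.trans_lt h
  refine (mk_union_le _ _).trans_lt (add_lt_of_lt aleph0_le_continuum (hi _) ?_)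
  refine (mk_union_le _ _).trans_lt (add_lt_of_lt aleph0_le_continuum (hi _) ?_)
  refine (mk_union_le _ _).trans_lt (add_lt_of_lt aleph0_le_continuum (hi _) ?_)
  refine (mk_union_le _ _).trans_lt (add_lt_of_lt aleph0_le_continuum (hi _) ?_)
  exact (mk_union_le _ _).trans_lt (add_lt_of_lt aleph0_le_continuum (hi _) hf)

/-- what genericity gives for traces -/
structure Gen (𝒞 : Set (Com Ω)) (v : ℤ) (G B H : Set P) : Prop where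
  le : G ⊆ B
  ge : B ⊆ H
  up : ∀ c ∈ 𝒞, AS B c.B → AS H c.B
  dn : ∀ c ∈ 𝒞, AS c.B B → AS c.B G
  upt : ∀ j, (j = inn v ∨ j = out v) → ∀ c ∈ 𝒞, AS (B ∩ F j) (c.B ∩ F j) →
    AS (H ∩ F j) (c.B ∩ F j)
  dnt : ∀ j, (j = inn v ∨ j = out v) → ∀ c ∈ 𝒞, AS (c.B ∩ F j) (B ∩ F j) →
    AS (c.B ∩ F j) (G ∩ F j)
  inf : ∀ j, (j = inn v ∨ j = out v) → (H ∩ F j).Infinite → (B ∩ F j).Infinite
  coinf : ∀ j, (j = inn v ∨ j = out v) → (F j \ G).Infinite → (F j \ B).Infinite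

omit [LinearOrder Ω] in
lemma exists_gen (hR : Reap) {𝒞 : Set (Com Ω)} (h : #𝒞 < 𝔠) (v : ℤ) {G H : Set P}
    (hGH : G ⊆ H) : ∃ B, Gen 𝒞 v G B H := by
  obtain ⟨B, h1, h2, h3⟩ := exists_generic hR (tests 𝒞 v) (tests_lt h v) hGH
  have trU : ∀ (Z T : Set P) (j : ℤ), AS (Z ∩ F j) (T ∩ F j) → AS Z ((T ∩ F j) ∪ (F j)ᶜ) := by
    intro Z T j hZ
    refine hZ.subset ?_
    rintro x ⟨hx, hxn⟩
    simp only [mem_union, mem_inter_iff, mem_compl_iff, not_or, not_and, not_not] at hxn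
    exact ⟨⟨hx, hxn.2⟩, fun hh => hxn.1 hh.1 hxn.2⟩
  have trU' : ∀ (Z T : Set P) (j : ℤ), AS Z ((T ∩ F j) ∪ (F j)ᶜ) → AS (Z ∩ F j) (T ∩ F j) := by
    intro Z T j hZ
    refine hZ.subset ?_
    rintro x ⟨⟨hx, hxF⟩, hxn⟩
    refine ⟨hx, ?_⟩
    rintro (hh | hh)
    · exact hxn hh
    · exact hh hxF
  have trD : ∀ (Z T : Set P) (j : ℤ), AS (T ∩ F j) (Z ∩ F j) → AS (T ∩ F j) Z :=
    fun Z T j hZ => hZ.trans (AS.of_subset inter_subset_left)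
  have trD' : ∀ (Z T : Set P) (j : ℤ), AS (T ∩ F j) Z → AS (T ∩ F j) (Z ∩ F j) := by
    intro Z T j hZ
    refine hZ.subset ?_
    rintro x ⟨⟨hx, hxF⟩, hxn⟩
    exact ⟨⟨hx, hxF⟩, fun hh => hxn ⟨hh, hxF⟩⟩
  refine ⟨B, h1, h2, ?_, ?_, ?_, ?_, ?_, ?_⟩
  · intro c hc
    exact (h3 c.B (Or.inl ⟨c, hc, rfl⟩)).1
  · intro c hc
    exact (h3 c.B (Or.inl ⟨c, hc, rfl⟩)).2
  · rintro j (rfl | rfl) c hc hB
    · exact trU' _ _ _ ((h3 _ (Or.inr (Or.inl ⟨c, hc, rfl⟩))).1 (trU _ _ _ hB))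
    · exact trU' _ _ _ ((h3 _ (Or.inr (Or.inr (Or.inl ⟨c, hc, rfl⟩)))).1 (trU _ _ _ hB))
  · rintro j (rfl | rfl) c hc hB
    · exact trD' _ _ _ ((h3 _ (Or.inr (Or.inr (Or.inr (Or.inl ⟨c, hc, rfl⟩))))).2 (trD _ _ _ hB))
    · exact trD' _ _ _ ((h3 _ (Or.inr (Or.inr (Or.inr (Or.inr (Or.inl ⟨c, hc, rfl⟩)))))).2
        (trD _ _ _ hB))
  · rintro j hj hinf hfin
    have hm : (F j)ᶜ ∈ tests 𝒞 v := by
      rcases hj with rfl | rfl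
      · exact Or.inr (Or.inr (Or.inr (Or.inr (Or.inr (Or.inl rfl)))))
      · exact Or.inr (Or.inr (Or.inr (Or.inr (Or.inr (Or.inr (Or.inl rfl))))))
    have : AS B (F j)ᶜ := by
      refine hfin.subset ?_
      rintro x ⟨hx, hxF⟩
      exact ⟨hx, by simpa using hxF⟩
    refine hinf (((h3 _ hm).1 this).subset ?_)
    rintro x ⟨hx, hxF⟩
    exact ⟨hx, by simpa using hxF⟩
  · rintro j hj hinf hfin
    have hm : F j ∈ tests 𝒞 v := by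
      rcases hj with rfl | rfl
      · exact Or.inr (Or.inr (Or.inr (Or.inr (Or.inr (Or.inr (Or.inr (Or.inl rfl)))))))
      · exact Or.inr (Or.inr (Or.inr (Or.inr (Or.inr (Or.inr (Or.inr (Or.inr rfl)))))))
    exact hinf ((h3 _ hm).2 hfin)

end Vale.Agent.H18.Ray
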