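import Mathlib

/-! Uniform matroids from families of subsets that are pairwise incomparable modulo finite sets. -/

namespace Vale.Agent.H18.UM

open Set

variable {α : Type*}

/-- almost inclusion: `A \ B` is finite -/
def AS (A B : Set α) : Prop := (A \ B).Finite

lemma AS.refl (A : Set α) : AS A A := by simp [AS]

lemma AS.of_subset {A B : Set α} (h : A ⊆ B) : AS A B := by
  simp [AS, sdiff_eq_empty.2 h]

lemma AS.trans {A B C : Set α} (h : AS A B) (h' : AS B C) : AS A C := by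
  refine (h.union h').subset ?_
  intro x hx
  by_cases hB : x ∈ B
  · exact Or.inr ⟨hB, hx.2⟩
  · exact Or.inl ⟨hx.1, hB⟩

/-- the difference of the numbers of elements of `A \ B` and `B \ A` -/
noncomputable def lev (A B : Set α) : ℤ := ((A \ B).ncard : ℤ) - ((B \ A).ncard : ℤ)

lemma lev_self (A : Set α) : lev A A = 0 := by simp [lev]

lemma lev_mono {A A' B : Set α} (h : A ⊆ A') (h1 : AS A' B) (h2 : AS B A) :
    lev A B ≤ lev A' B := by
  unfold lev
  have e1 : (A \ B).ncard ≤ (A' \ B).ncard := ncard_le_ncard (sdiff_subset_sdiff_left h) h1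
  have e2 : (B \ A').ncard ≤ (B \ A).ncard := ncard_le_ncard (sdiff_subset_sdiff_right h) h2
  omega

lemma lev_insert {A B : Set α} {x : α} (hx : x ∉ A) (h1 : AS A B) (h2 : AS B A) :
    lev (insert x A) B = lev A B + 1 := by
  unfold lev
  by_cases hB : x ∈ B
  · have e1 : insert x A \ B = A \ B := by
      ext y; simp only [mem_sdiff, mem_insert_iff]
      constructor
      · rintro ⟨rfl | h, h'⟩
        · exact absurd hB h'
        · exact ⟨h, h'⟩
      · rintro ⟨h, h'⟩; exact ⟨Or.inr h, h'⟩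
    have e2 : B \ A = insert x (B \ insert x A) := by
      ext y; simp only [mem_sdiff, mem_insert_iff]
      constructor
      · rintro ⟨h, h'⟩
        by_cases hy : y = x
        · exact Or.inl hy
        · exact Or.inr ⟨h, by tauto⟩
      · rintro (rfl | ⟨h, h'⟩)
        · exact ⟨hB, hx⟩
        · exact ⟨h, by tauto⟩
    have hfin : (B \ insert x A).Finite := h2.subset (sdiff_subset_sdiff_right (subset_insert _ _))
    have hn : x ∉ B \ insert x A := by simp
    rw [e1, e2, ncard_insert_of_notMem hn hfin]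
    push_cast
    ring
  · have e1 : insert x A \ B = insert x (A \ B) := by
      ext y; simp only [mem_sdiff, mem_insert_iff]
      constructor
      · rintro ⟨rfl | h, h'⟩
        · exact Or.inl rfl
        · exact Or.inr ⟨h, h'⟩
      · rintro (rfl | ⟨h, h'⟩)
        · exact ⟨Or.inl rfl, hB⟩
        · exact ⟨Or.inr h, h'⟩
    have e2 : B \ insert x A = B \ A := by
      ext y; simp only [mem_sdiff, mem_insert_iff]
      constructor
      · rintro ⟨h, h'⟩; exact ⟨h, by tauto⟩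
      · rintro ⟨h, h'⟩
        refine ⟨h, ?_⟩
        rintro (rfl | h'')
        · exact hB h
        · exact h' h''
    have hn : x ∉ A \ B := fun h => hx h.1
    rw [e1, e2, ncard_insert_of_notMem hn h1]
    push_cast
    ring

lemma AS.insert_left {A B : Set α} (h : AS A B) (x : α) : AS (insert x A) B := by
  refine (h.union (finite_singleton x)).subset ?_
  rintro y ⟨rfl | hy, hy'⟩
  · exact Or.inr rfl
  · exact Or.inl ⟨hy, hy'⟩

lemma AS.diff_right {A B : Set α} (h : AS A B) (x : α) : AS A (B \ {x}) := by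
  refine (h.union (finite_singleton x)).subset ?_
  rintro y ⟨hy, hy'⟩
  by_cases hyx : y = x
  · exact Or.inr hyx
  · exact Or.inl ⟨hy, fun hB => hy' ⟨hB, hyx⟩⟩

lemma lev_diff {A B : Set α} {x : α} (hx : x ∈ A) (h1 : AS A B) (h2 : AS B A) :
    lev (A \ {x}) B = lev A B - 1 := by
  have h1' : AS (A \ {x}) B := (AS.of_subset sdiff_subset).trans h1
  have h2' : AS B (A \ {x}) := h2.diff_right x
  have := lev_insert (x := x) (A := A \ {x}) (by simp) h1' h2'
  rw [insert_sdiff_singleton, insert_eq_of_mem hx] at this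
  omega

lemma exists_lev_zero {I X B : Set α} (hIX : I ⊆ X) (hIB : AS I B) (hBX : AS B X)
    (hlow : AS B I → lev I B ≤ 0) (hup : AS X B → 0 ≤ lev X B) :
    ∃ A, I ⊆ A ∧ A ⊆ X ∧ AS A B ∧ AS B A ∧ lev A B = 0 := by
  have key : ∀ (n : ℕ) (Z : Set α), I ⊆ Z → Z ⊆ X → AS Z B → AS B Z → (lev Z B).natAbs = n →
      ∃ A, I ⊆ A ∧ A ⊆ X ∧ AS A B ∧ AS B A ∧ lev A B = 0 := by
    intro n
    induction n with
    | zero =>
      intro Z h1 h2 h3 h4 h5
      exact ⟨Z, h1, h2, h3, h4, by omega⟩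
    | succ n ih =>
      intro Z h1 h2 h3 h4 h5
      rcases lt_or_ge 0 (lev Z B) with hpos | hneg
      · have hne : ¬ Z ⊆ I := by
          intro hZI
          have : Z = I := subset_antisymm hZI h1
          subst this
          have := hlow h4
          omega
        obtain ⟨z, hz, hzI⟩ := not_subset.1 hne
        refine ih (Z \ {z}) ?_ (sdiff_subset.trans h2) ((AS.of_subset sdiff_subset).trans h3)
          (h4.diff_right z) ?_
        · intro y hy
          exact ⟨h1 hy, fun h => hzI (by rw [mem_singleton_iff] at h; rwa [← h])⟩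
        · rw [lev_diff hz h3 h4]; omega
      · have hne : ¬ X ⊆ Z := by
          intro hXZ
          have : Z = X := subset_antisymm h2 hXZ
          subst this
          have := hup h3
          omega
        obtain ⟨x, hx, hxZ⟩ := not_subset.1 hne
        refine ih (insert x Z) (h1.trans (subset_insert _ _)) (insert_subset hx h2)
          (h3.insert_left x) (h4.trans (AS.of_subset (subset_insert _ _))) ?_
        rw [lev_insert hxZ h3 h4]; omega
  refine key _ ((B ∩ X) ∪ I) subset_union_right (union_subset inter_subset_right hIX) ?_ ?_ rfl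
  · refine hIB.subset ?_
    rintro y ⟨hy | hy, hy'⟩
    · exact absurd hy.1 hy'
    · exact ⟨hy, hy'⟩
  · refine hBX.subset ?_
    rintro y ⟨hy, hy'⟩
    exact ⟨hy, fun hX => hy' (Or.inl ⟨hy, hX⟩)⟩

/-- A family of subsets of `E`, pairwise incomparable modulo finite sets, meeting every interval
that is not decided. -/
structure UFam (E : Set α) (𝓑 : Set (Set α)) : Prop where
  sub : ∀ B ∈ 𝓑, B ⊆ E
  ne : 𝓑.Nonempty
  anti : ∀ B ∈ 𝓑, ∀ B' ∈ 𝓑, AS B B' → B = B'
  coinf : ∀ B ∈ 𝓑, (E \ B).Infinite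
  ful : ∀ X X', X ⊆ X' → X' ⊆ E →
    (∃ B ∈ 𝓑, AS X' B) ∨ (∃ B ∈ 𝓑, AS B X) ∨ (∃ B ∈ 𝓑, AS X B ∧ AS B X')

/-- the bases: sets that differ from a member of the family by a finite exchange -/
def IsB (E : Set α) (𝓑 : Set (Set α)) (A : Set α) : Prop :=
  A ⊆ E ∧ ∃ B ∈ 𝓑, AS A B ∧ AS B A ∧ lev A B = 0

variable {E : Set α} {𝓑 : Set (Set α)}

lemma isB_of_mem (h : UFam E 𝓑) {B : Set α} (hB : B ∈ 𝓑) : IsB E 𝓑 B :=
  ⟨h.sub B hB, B, hB, AS.refl B, AS.refl B, lev_self B⟩

lemma isB_eq_of_subset (h : UFam E 𝓑) {A A' : Set α} (hA : IsB E 𝓑 A) (hA' : IsB E 𝓑 A')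
    (hs : A ⊆ A') : A = A' := by
  obtain ⟨-, B, hB, h1, h2, h3⟩ := hA
  obtain ⟨-, B', hB', h1', h2', h3'⟩ := hA'
  have : B = B' := h.anti B hB B' hB' (h2.trans ((AS.of_subset hs).trans h1'))
  subst this
  refine subset_antisymm hs ?_
  intro x hx
  by_contra hxA
  have e1 := lev_insert hxA h1 h2
  have e2 := lev_mono (insert_subset hx hs) h1' (h2.trans (AS.of_subset (subset_insert x A)))
  omega

lemma isB_exchange (h : UFam E 𝓑) : Matroid.ExchangeProperty (IsB E 𝓑) := by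
  intro A A' hA hA' a ha
  have hne : ¬ A' ⊆ A := by
    intro hs
    have := isB_eq_of_subset h hA' hA hs
    subst this
    exact ha.2 ha.1
  obtain ⟨b, hb, hbA⟩ := not_subset.1 hne
  refine ⟨b, ⟨hb, hbA⟩, ?_⟩
  obtain ⟨hs, B, hB, h1, h2, h3⟩ := hA
  have h1' : AS (A \ {a}) B := (AS.of_subset sdiff_subset).trans h1
  have h2' : AS B (A \ {a}) := h2.diff_right a
  refine ⟨insert_subset (hA'.1 hb) (sdiff_subset.trans hs), B, hB, h1'.insert_left b,
    h2'.trans (AS.of_subset (subset_insert _ _)), ?_⟩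
  rw [lev_insert (fun hh => hbA hh.1) h1' h2', lev_diff ha.1 h1 h2]
  omega

/-- independent sets: subsets of bases -/
def IsI (E : Set α) (𝓑 : Set (Set α)) (I : Set α) : Prop := ∃ A, IsB E 𝓑 A ∧ I ⊆ A

lemma isI_low (h : UFam E 𝓑) {I B : Set α} (hI : IsI E 𝓑 I) (hB : B ∈ 𝓑) (hBI : AS B I) :
    AS I B ∧ lev I B ≤ 0 := by
  obtain ⟨A, ⟨-, B', hB', h1, h2, h3⟩, hIA⟩ := hI
  have hIB' : AS I B' := (AS.of_subset hIA).trans h1
  have : B = B' := h.anti B hB B' hB' (hBI.trans hIB')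
  subst this
  refine ⟨hIB', ?_⟩
  have := lev_mono hIA h1 hBI
  omega

lemma isI_of_lev (h : UFam E 𝓑) {Z B : Set α} (hZ : Z ⊆ E) (hB : B ∈ 𝓑) (hZB : AS Z B)
    (hlev : AS B Z → lev Z B ≤ 0) : IsI E 𝓑 Z := by
  obtain ⟨A, h1, h2, h3, h4, h5⟩ := exists_lev_zero (I := Z) (X := E) (B := B) hZ hZB
    (AS.of_subset (h.sub B hB)) hlev (by
      intro hEB
      exact absurd hEB (h.coinf B hB))
  exact ⟨A, ⟨h2, B, hB, h3, h4, h5⟩, h1⟩

lemma exists_between (h : UFam E 𝓑) {I X : Set α} (hI : IsI E 𝓑 I) (hIX : I ⊆ X) (hX : X ⊆ E)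
    (hXn : ¬ IsI E 𝓑 X) : ∃ A, IsB E 𝓑 A ∧ I ⊆ A ∧ A ⊆ X := by
  have main : ∀ B ∈ 𝓑, AS I B → AS B X → ∃ A, IsB E 𝓑 A ∧ I ⊆ A ∧ A ⊆ X := by
    intro B hB hIB hBX
    obtain ⟨A, h1, h2, h3, h4, h5⟩ := exists_lev_zero (I := I) (X := X) (B := B) hIX hIB hBX
      (fun hBI => (isI_low h hI hB hBI).2) (by
        intro hXB
        by_contra hlt
        exact hXn (isI_of_lev h hX hB hXB (fun _ => by omega)))
    exact ⟨A, ⟨h2.trans hX, B, hB, h3, h4, h5⟩, h1, h2⟩
  rcases h.ful I X hIX hX with ⟨B, hB, hXB⟩ | ⟨B, hB, hBI⟩ | ⟨B, hB, hIB, hBX⟩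
  · refine main B hB ((AS.of_subset hIX).trans hXB) ?_
    by_contra hBX
    exact hXn (isI_of_lev h hX hB hXB (fun hh => absurd hh hBX))
  · exact main B hB (isI_low h hI hB hBI).1 (hBI.trans (AS.of_subset hIX))
  · exact main B hB hIB hBX

/-- the uniform matroid of a family -/
def umat (h : UFam E 𝓑) : Matroid α :=
  Matroid.ofBase E (IsB E 𝓑)
    (by obtain ⟨B, hB⟩ := h.ne; exact ⟨B, isB_of_mem h hB⟩)
    (isB_exchange h)
    (by
      intro X hX I hI hIX
      by_cases hXI : IsI E 𝓑 X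
      · exact ⟨X, hIX, ⟨hXI, Subset.rfl⟩, fun Y hY _ => hY.2⟩
      · obtain ⟨A, hA, hIA, hAX⟩ := exists_between h hI hIX hX hXI
        refine ⟨A, hIA, ⟨⟨A, hA, Subset.rfl⟩, hAX⟩, ?_⟩
        rintro Y ⟨⟨A', hA', hYA'⟩, -⟩ hAY
        have := isB_eq_of_subset h hA hA' (hAY.trans hYA')
        subst this
        exact hYA')
    (fun B hB => hB.1)

lemma umat_ground (h : UFam E 𝓑) : (umat h).E = E := rfl

lemma umat_isBase (h : UFam E 𝓑) {A : Set α} : (umat h).IsBase A ↔ IsB E 𝓑 A := Iff.rfl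

lemma umat_indep (h : UFam E 𝓑) {I : Set α} : (umat h).Indep I ↔ IsI E 𝓑 I := Iff.rfl

/-- uniformity: an independent set that is not a base stays independent when a point is added -/
lemma isI_insert (h : UFam E 𝓑) {I : Set α} (hI : IsI E 𝓑 I) (hn : ¬ IsB E 𝓑 I) {x : α}
    (hx : x ∈ E) : IsI E 𝓑 (insert x I) := by
  obtain ⟨A, hA, hIA⟩ := hI
  by_cases hxA : x ∈ A
  · exact ⟨A, hA, insert_subset hxA hIA⟩
  · have hne : ¬ A ⊆ I := fun hs => hn (by rwa [subset_antisymm hIA hs])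
    obtain ⟨a, ha, haI⟩ := not_subset.1 hne
    obtain ⟨hs, B, hB, h1, h2, h3⟩ := hA
    have h1' : AS (A \ {a}) B := (AS.of_subset sdiff_subset).trans h1
    have h2' : AS B (A \ {a}) := h2.diff_right a
    refine ⟨insert x (A \ {a}), ⟨insert_subset hx (sdiff_subset.trans hs), B, hB,
      h1'.insert_left x, h2'.trans (AS.of_subset (subset_insert _ _)), ?_⟩, ?_⟩
    · rw [lev_insert (fun hh => hxA hh.1) h1' h2', lev_diff ha h1 h2]
      omega
    · refine insert_subset_insert ?_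
      intro y hy
      exact ⟨hIA hy, fun hh => haI (by rw [mem_singleton_iff] at hh; rwa [← hh])⟩

end Vale.Agent.H18.UM
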